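import Vale.Agent.P309.Defs

open MeasureTheory ProbabilityTheory

namespace Vale.Agent.P309

/-- the probability that `k` rows and their labels fall in `A`, when the signal is `s` -/
noncomputable def gk (d k : ℕ) (A : Set (Fin k → E d × ℝ)) (s : Sph d) : ℝ :=
  (Measure.pi fun _ : Fin k => stdGaussian (E d)).real
    {X | (fun j => ((X j, inner ℝ (X j) (s : E d)) : E d × ℝ)) ∈ A}

/-- the signals for which the output `z` is correct -/
def good (d : ℕ) (ε : ℝ) (z : Sph d) : Set (Sph d) :=
  {s | Real.arccos (inner ℝ (z : E d) (s : E d)) ≤ ε}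

/-- `Ach d k N ε J p`: the success probability `p` (as a function of the signal) can be reached
with at most `J` blocks of `k` rows, where each block is compressed to one of at most `N`
outcomes. -/
inductive Ach (d k N : ℕ) (ε : ℝ) : ℕ → (Sph d → ℝ) → Prop
  | term (J : ℕ) (z : Sph d) : Ach d k N ε J ((good d ε z).indicator fun _ => 1)
  | block (J : ℕ) (O : Type) (hO : Fintype O) (hN : Fintype.card O ≤ N)
      (φ : (Fin k → E d × ℝ) → O) (hφ : ∀ o, MeasurableSet (φ ⁻¹' {o}))
      (p : O → Sph d → ℝ) (hp : ∀ o, Ach d k N ε J (p o)) :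
      Ach d k N ε (J + 1) (fun s => ∑ o, gk d k (φ ⁻¹' {o}) s * p o s)

/-- success probability of the learner with coins `ω`, when the state is `q`, `t` samples have been
read, `n` samples remain and the signal is `s` -/
noncomputable def Learner.pr {d M : ℕ} (L : Learner d M) (ω : L.Ω) (ε : ℝ) (n t : ℕ)
    (q : Fin (2 ^ M)) (s : Sph d) : ℝ :=
  (Measure.pi fun _ : Fin n => stdGaussian (E d)).real
    {x | Real.arccos (inner ℝ (L.run ω s n t q x : E d) (s : E d)) ≤ ε}

end Vale.Agent.P309
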