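import Vale.Agent.P309.Induct

open MeasureTheory ProbabilityTheory
open scoped ENNReal NNReal

namespace Vale.Agent.P309

variable {d : ℕ}

lemma exists_l1 {k q n : ℕ} (h : 4 * k + q + 1 ≤ n) {w : ℝ} (hw : 0 < w) :
    ∃ l1 : ℕ, ∀ l : ℕ, l1 ≤ l →
      (Real.exp (l + 2)) ^ q * (4 * Real.exp (-(l : ℝ))) ^ n ≤ Real.exp (-(4 * k * l)) * w := by
  refine ⟨⌈2 * (q : ℝ) + n * Real.log 4 - Real.log w⌉₊, fun l hl => ?_⟩
  have h1 : 2 * (q : ℝ) + n * Real.log 4 - Real.log w ≤ l :=
    (Nat.le_ceil _).trans (by exact_mod_cast hl)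
  have h4 : (4 : ℝ) ^ n = Real.exp (n * Real.log 4) := by
    rw [mul_comm, Real.exp_mul, Real.exp_log (by norm_num), Real.rpow_natCast]
  obtain ⟨x, rfl⟩ : ∃ x, w = Real.exp x := ⟨Real.log w, (Real.exp_log hw).symm⟩
  rw [Real.log_exp] at h1
  rw [mul_pow, h4, ← Real.exp_nat_mul, ← Real.exp_nat_mul, ← Real.exp_add, ← Real.exp_add,
    ← Real.exp_add]
  apply Real.exp_le_exp.2
  have h2 : (4 * (k : ℝ) + q + 1) ≤ n := by exact_mod_cast h
  have h3 : (0 : ℝ) ≤ l := Nat.cast_nonneg l
  nlinarith

lemma claim_succ (hd : 2 ≤ d) [NeZero d] {k q N : ℕ} (hk : 1 ≤ k) (hq : 1 ≤ q) (hN : 1 ≤ N)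
    {ε : ℝ} {I J i : ℕ} (hε : ε ≤ Real.exp (-(I : ℝ)))
    (harith : ∀ l : ℕ, 4 ≤ l →
      8 * (k : ℝ) * l + 2 * q * (l + 2) + 4 ≤ ((d - 1 : ℕ) : ℝ) * (l - 1))
    (hdim : 4 * k + q + 1 ≤ d - 1) (hiI : i < I) (hJ : Claim d k q N ε I J i)
    (hcl : ∀ i', i + 1 ≤ i' → Claim d k q N ε I (J + 1) i') :
    Claim d k q N ε I (J + 1) i := by
  intro p hp f hf c hsupp
  have hpp := hp
  cases hp with
  | term J' z => exact claim_term hd hN hε hiI.le z hf hsupp
  | block J' O hO hcard φ hφ p' hp' =>
    set p : Sph d → ℝ := fun s => ∑ o, gk d k (φ ⁻¹' {o}) s * p' o s with hpdef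
    set w0 := ∫ s, f s ∂(unif d) with hw0'
    have hw0nn : 0 ≤ w0 := mass_nonneg _ hf
    have hfp : Adm fun s => f s * p s := hf.mul hpp.adm
    rcases hw0nn.eq_or_lt with hw0 | hw0
    · have hf0 : f =ᵐ[unif d] 0 := by
        rw [← integral_eq_zero_iff_of_nonneg hf.nonneg (hf.integrable _)]
        exact hw0.symm
      have h1 : ∫ s, f s * p s ∂(unif d) = 0 := by
        rw [integral_eq_zero_of_ae]; filter_upwards [hf0] with s hs; simp [hs]
      have h2 : ∫ s, f s * Real.log (f s) ∂(unif d) = 0 := by
        rw [integral_eq_zero_of_ae]; filter_upwards [hf0] with s hs; simp [hs]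
      rw [h1, Ent, h2, ← hw0', ← hw0]
      simp
    · obtain ⟨l1, hl1⟩ := exists_l1 hdim hw0
      set η0 := Real.exp (-(4 * k * l1)) * w0 with hη0
      have hη0pos : 0 < η0 := by positivity
      have main : ∀ m : ℕ, ∀ R : Set (Sph d), MeasurableSet R →
          ∫ s in R, f s ∂(unif d) < m * η0 → IneqR d k q N I J i p f R := by
        intro m
        induction m with
        | zero =>
          intro R hR hlt
          have : 0 ≤ ∫ s in R, f s ∂(unif d) := integral_nonneg hf.nonneg
          simp only [Nat.cast_zero, zero_mul] at hlt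
          linarith
        | succ m ih =>
          intro R hR hlt
          by_cases hreg : ∀ L : List (E d), L ≠ [] → L.length < q + 1 → ∀ l : ℕ, 4 ≤ l →
              ∫ s in R ∩ {s : Sph d | Metric.infDist (s : E d) (affineSpan ℝ {x | x ∈ L}) ≤
                Real.exp (-(i : ℝ)) * Real.exp (-l)}, f s ∂(unif d) ≤
                  Real.exp (-(4 * k * l)) * ∫ s, f s ∂(unif d)
          · have hwRnn : 0 ≤ ∫ s in R, f s ∂(unif d) := integral_nonneg hf.nonneg
            rcases hwRnn.eq_or_lt with hwR | hwR
            · have hf0 : f =ᵐ[(unif d).restrict R] 0 := by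
                rw [← integral_eq_zero_iff_of_nonneg hf.nonneg (hf.integrable _).integrableOn]
                exact hwR.symm
              have h1 : ∫ s in R, f s * p s ∂(unif d) = 0 := by
                rw [integral_eq_zero_of_ae]; filter_upwards [hf0] with s hs; simp [hs]
              have h2 : ∫ s in R, f s * Real.log (f s) ∂(unif d) = 0 := by
                rw [integral_eq_zero_of_ae]; filter_upwards [hf0] with s hs; simp [hs]
              rw [IneqR, h1, h2, ← hwR, ← hw0']
              simp
              exact hw0nn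
            · exact ineqR_regular hk hq hN hJ hcard hφ hp' hf hsupp hR hwR hreg
          · push Not at hreg
            obtain ⟨L, hL, hLq, l, hl, hheavy⟩ := hreg
            set strip := {s : Sph d | Metric.infDist (s : E d) (affineSpan ℝ {x | x ∈ L}) ≤
                Real.exp (-(i : ℝ)) * Real.exp (-l)} with hstrip
            set B := {s : Sph d | dist (s : E d) c ≤ Real.exp (-(i : ℝ))} with hB
            have hstripm : MeasurableSet strip := measurableSet_strip _ _
            have hBm : MeasurableSet B := measurableSet_cball _ _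
            set P := (R ∩ strip) ∩ B with hP
            have hPm : MeasurableSet P := (hR.inter hstripm).inter hBm
            have hwPeq : ∫ s in R ∩ strip, f s ∂(unif d) = ∫ s in P, f s ∂(unif d) := by
              apply setIntegral_eq_of_subset_of_forall_sdiff_eq_zero (hR.inter hstripm)
                Set.inter_subset_left
              intro s hs
              by_contra h0
              exact hs.2 ⟨hs.1, hsupp s h0⟩
            rw [hwPeq] at hheavy
            have hb := heavy_bound hd harith hcl hpp hf (c := c) hL hLq hl hPm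
              (fun s hs => hs.2) (fun s hs => hs.1.2) hw0 hheavy
            obtain ⟨hb1, hb2⟩ := hb
            have hll1 : l < l1 := by
              by_contra hcon
              push Not at hcon
              exact absurd (hb2.trans (hl1 l hcon)) (not_le.2 hheavy)
            have hPη : η0 ≤ ∫ s in P, f s ∂(unif d) := by
              refine le_trans ?_ hheavy.le
              rw [hη0]
              have hl1' : (l : ℝ) ≤ l1 := by exact_mod_cast hll1.le
              gcongr
            have hPR : P ⊆ R := fun s hs => hs.1.1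
            have hdiff : ∀ g : Sph d → ℝ, Integrable g (unif d) →
                ∫ s in R \ P, g s ∂(unif d) = ∫ s in R, g s ∂(unif d) - ∫ s in P, g s ∂(unif d) :=
              fun g hg => setIntegral_sdiff hPm hg.integrableOn hPR
            have hih := ih (R \ P) (hR.diff hPm) (by
              rw [hdiff f (hf.integrable _)]
              push_cast at hlt
              linarith)
            rw [IneqR, hdiff _ (hf.integrable _), hdiff _ (hfp.integrable _),
              hdiff _ (hf.integrable_xlog _)] at hih
            rw [IneqR]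
            nlinarith [hih, hb1]
      obtain ⟨m, hm⟩ := exists_nat_gt (w0 / η0)
      have hfin := main m Set.univ MeasurableSet.univ (by
        rw [setIntegral_univ]
        rwa [div_lt_iff₀ hη0pos] at hm)
      rw [IneqR, setIntegral_univ, setIntegral_univ, setIntegral_univ] at hfin
      rw [Ent]
      linarith

theorem claim_all (hd : 2 ≤ d) [NeZero d] {k q N : ℕ} (hk : 1 ≤ k) (hq : 1 ≤ q) (hN : 1 ≤ N)
    {ε : ℝ} {I : ℕ} (hε : ε ≤ Real.exp (-(I : ℝ)))
    (harith : ∀ l : ℕ, 4 ≤ l →
      8 * (k : ℝ) * l + 2 * q * (l + 2) + 4 ≤ ((d - 1 : ℕ) : ℝ) * (l - 1))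
    (hdim : 4 * k + q + 1 ≤ d - 1) (J i : ℕ) : Claim d k q N ε I J i := by
  induction J generalizing i with
  | zero =>
    rcases le_or_gt I i with hi | hi
    · exact claim_high hd hN hi
    · intro p hp f hf c hsupp
      cases hp with
      | term J' z => exact claim_term hd hN hε hi.le z hf hsupp
  | succ J ih =>
    -- downward induction on the level
    have key : ∀ m : ℕ, ∀ i, I ≤ i + m → Claim d k q N ε I (J + 1) i := by
      intro m
      induction m with
      | zero => intro i hi; exact claim_high hd hN hi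
      | succ m ihm =>
        intro i hi
        rcases le_or_gt I i with hi' | hi'
        · exact claim_high hd hN hi'
        · exact claim_succ hd hk hq hN hε harith hdim hi' (ih i) fun i' hi'' =>
            ihm i' (by omega)
    exact key I i (by omega)

/-- The consequence for a uniform signal. -/
theorem ach_bound (hd : 2 ≤ d) [NeZero d] {k q N : ℕ} (hk : 1 ≤ k) (hq : 1 ≤ q) (hN : 1 ≤ N)
    {ε : ℝ} {I : ℕ} (hε : ε ≤ Real.exp (-(I : ℝ)))
    (harith : ∀ l : ℕ, 4 ≤ l →
      8 * (k : ℝ) * l + 2 * q * (l + 2) + 4 ≤ ((d - 1 : ℕ) : ℝ) * (l - 1))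
    (hdim : 4 * k + q + 1 ≤ d - 1) {J : ℕ} {p : Sph d → ℝ} (hp : Ach d k N ε J p) :
    ((d - 1 : ℕ) : ℝ) * I * ∫ s, p s ∂(unif d) ≤
      2 * (J * cost k q N + 2 * ((d - 1 : ℕ) : ℝ)) := by
  have h1 := claim_all hd hk hq hN hε harith hdim J 0 p hp (fun _ => 1)
    ⟨measurable_const, fun _ => zero_le_one, fun _ => le_refl 1⟩ 0 (by
      intro s _
      simp)
  simpa [Ent] using h1

end Vale.Agent.P309
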