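import Vale.Agent.P309.Block

open MeasureTheory ProbabilityTheory
open scoped ENNReal NNReal

namespace Vale.Agent.P309

variable {d : ℕ}

lemma measurableSet_good (ε : ℝ) (z : Sph d) : MeasurableSet (good d ε z) := by
  have h1 : Continuous fun s : Sph d => Real.arccos (inner ℝ (z : E d) (s : E d)) := by
    fun_prop
  exact measurableSet_le h1.measurable measurable_const

lemma good_subset {ε : ℝ} {I : ℕ} (hε : ε ≤ Real.exp (-(I : ℝ))) (z : Sph d) :
    good d ε z ⊆ {s : Sph d | dist (s : E d) z ≤ Real.exp (-(I : ℝ))} := by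
  intro s hs
  have hs' : Real.arccos (inner ℝ (z : E d) (s : E d)) ≤ ε := hs
  set x := inner ℝ (z : E d) (s : E d) with hx
  have hz : ‖(z : E d)‖ = 1 := by simp
  have hsn : ‖(s : E d)‖ = 1 := by simp
  have hx1 : x ≤ 1 := by
    have := real_inner_le_norm (z : E d) (s : E d)
    rw [hz, hsn] at this; linarith
  have hx2 : -1 ≤ x := by
    have := neg_le_of_abs_le (abs_real_inner_le_norm (z : E d) (s : E d))
    rw [hz, hsn] at this; linarith
  have hcos : Real.cos (Real.arccos x) = x := Real.cos_arccos hx2 hx1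
  have h1 := Real.one_sub_sq_div_two_le_cos (x := Real.arccos x)
  rw [hcos] at h1
  have h2 : dist (s : E d) z ^ 2 = 2 - 2 * x := by
    rw [dist_eq_norm, @norm_sub_sq_real, hz, hsn, real_inner_comm, ← hx]; ring
  have h3 : Real.arccos x ≤ Real.exp (-(I : ℝ)) := hs'.trans hε
  have h4 : Real.arccos x ^ 2 ≤ Real.exp (-(I : ℝ)) ^ 2 :=
    pow_le_pow_left₀ (Real.arccos_nonneg x) h3 2
  have h5 : dist (s : E d) z ^ 2 ≤ Real.exp (-(I : ℝ)) ^ 2 := by rw [h2]; linarith
  exact (pow_le_pow_iff_left₀ dist_nonneg (Real.exp_pos _).le two_ne_zero).1 h5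

lemma real_ball_le (hd : 2 ≤ d) (z : E d) {r : ℝ} (hr : 0 < r) :
    (unif d).real {s : Sph d | dist (s : E d) z ≤ r} ≤ (2 * r) ^ (d - 1) :=
  ENNReal.toReal_le_of_le_ofReal (by positivity) (unif_ball_le d hd z hr)

lemma measurableSet_cball (z : E d) (r : ℝ) : MeasurableSet {s : Sph d | dist (s : E d) z ≤ r} := by
  have h1 : Continuous fun s : Sph d => dist (s : E d) z := by fun_prop
  exact measurableSet_le h1.measurable measurable_const

lemma measurableSet_strip (H : Set (E d)) (r : ℝ) :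
    MeasurableSet {s : Sph d | Metric.infDist (s : E d) H ≤ r} := by
  have h1 : Continuous fun s : Sph d => Metric.infDist (s : E d) H :=
    (Metric.continuous_infDist_pt H).comp continuous_subtype_val
  exact measurableSet_le h1.measurable measurable_const

lemma Ach.adm {k N : ℕ} {ε : ℝ} {J : ℕ} {p : Sph d → ℝ} (h : Ach d k N ε J p) : Adm p := by
  induction h with
  | term J z => exact Adm.indicator_one (measurableSet_good ε z)
  | block J O hO hN φ hφ p hp ih =>
    refine ⟨?_, ?_, ?_⟩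
    · exact Finset.measurable_sum _ fun o _ => (measurable_gk (hφ o)).mul (ih o).meas
    · intro s
      exact Finset.sum_nonneg fun o _ => mul_nonneg (gk_nonneg _ s) ((ih o).nonneg s)
    · intro s
      have h1 := sum_gk hφ MeasurableSet.univ s
      simp only [Set.inter_univ] at h1
      rw [gk_univ] at h1
      calc ∑ o, gk d k (φ ⁻¹' {o}) s * p o s ≤ ∑ o, gk d k (φ ⁻¹' {o}) s * 1 := by
            refine Finset.sum_le_sum fun o _ => ?_
            exact mul_le_mul_of_nonneg_left ((ih o).le_one s) (gk_nonneg _ s)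
        _ = 1 := by simp only [mul_one]; exact h1

lemma cost_nonneg (k q : ℕ) {N : ℕ} (hN : 1 ≤ N) : 0 ≤ cost k q N := by
  have hN1 : (1 : ℝ) ≤ N := by exact_mod_cast hN
  have h1 : 0 ≤ Real.log N := Real.log_nonneg hN1
  have h2 : 0 ≤ Real.log (4 * N) := Real.log_nonneg (by linarith)
  have h3 : 0 ≤ Real.log 8 := Real.log_nonneg (by norm_num)
  rw [cost]
  positivity

/-- the claim of the induction -/
def Claim (d k q N : ℕ) (ε : ℝ) (I J i : ℕ) : Prop :=
  ∀ p : Sph d → ℝ, Ach d k N ε J p → ∀ f : Sph d → ℝ, Adm f → ∀ c : E d,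
    (∀ s, f s ≠ 0 → dist (s : E d) c ≤ Real.exp (-(i : ℝ))) →
    ((d - 1 : ℕ) : ℝ) * I * ∫ s, f s * p s ∂(unif d) ≤
      2 * Ent (unif d) f - ((d - 1 : ℕ) : ℝ) * i * (∫ s, f s ∂(unif d)) +
        2 * (J * cost k q N + 2 * ((d - 1 : ℕ) : ℝ)) * ∫ s, f s ∂(unif d)

lemma log_pow_exp (n i : ℕ) :
    -Real.log ((2 * Real.exp (-(i : ℝ))) ^ n) = n * (i - Real.log 2) := by
  rw [Real.log_pow, Real.log_mul two_ne_zero (Real.exp_pos _).ne', Real.log_exp]
  ring

lemma const_pos {n : ℕ} (hn : 1 ≤ n) : 0 ≤ 4 * (n : ℝ) - 2 * n * Real.log 2 - 2 * Real.log 2 := by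
  have h1 := Real.log_two_lt_d9
  have h2 := Real.log_two_gt_d9
  have hn1 : (1 : ℝ) ≤ n := by exact_mod_cast hn
  nlinarith

lemma claim_high (hd : 2 ≤ d) [NeZero d] {k q N : ℕ} (hN : 1 ≤ N) {ε : ℝ} {I J i : ℕ}
    (hi : I ≤ i) : Claim d k q N ε I J i := by
  intro p hp f hf c hsupp
  set w := ∫ s, f s ∂(unif d) with hw
  have hw0 : 0 ≤ w := mass_nonneg _ hf
  have hp' := hp.adm
  have h1 : ∫ s, f s * p s ∂(unif d) ≤ w :=
    integral_mono ((hf.mul hp').integrable _) (hf.integrable _) fun s =>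
      mul_le_of_le_one_right (hf.nonneg s) (hp'.le_one s)
  have h1' : 0 ≤ ∫ s, f s * p s ∂(unif d) := mass_nonneg _ (hf.mul hp')
  have h2 := Ent_ge_two (unif d) hf (A := ∅) (B := {s : Sph d | dist (s : E d) c ≤
    Real.exp (-(i : ℝ))}) MeasurableSet.empty (measurableSet_cball _ _)
    (fun s hs => by by_contra h; exact hs (hsupp s h)) (u := 1)
    (v := (2 * Real.exp (-(i : ℝ))) ^ (d - 1)) one_pos (by positivity) (by simp)
    (real_ball_le hd c (Real.exp_pos _))
  rw [log_pow_exp, ← hw] at h2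
  simp only [Measure.restrict_empty, integral_zero_measure, zero_mul, sub_zero, zero_add] at h2
  set n : ℝ := ((d - 1 : ℕ) : ℝ) with hn
  have hc := const_pos (n := d - 1) (by omega)
  rw [← hn] at hc
  have hn0 : 0 ≤ n := by positivity
  have hi' : (I : ℝ) ≤ i := by exact_mod_cast hi
  have h3 : n * I * ∫ s, f s * p s ∂(unif d) ≤ n * i * w := by
    gcongr
  have h4 : 0 ≤ J * cost k q N * w :=
    mul_nonneg (mul_nonneg (by positivity) (cost_nonneg k q hN)) hw0
  have h5 : 0 ≤ (4 * n - 2 * n * Real.log 2 - 2 * Real.log 2) * w := mul_nonneg hc hw0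
  nlinarith [h2, h3, h4, h5]

lemma claim_term (hd : 2 ≤ d) [NeZero d] {k q N : ℕ} (hN : 1 ≤ N) {ε : ℝ} {I J i : ℕ}
    (hε : ε ≤ Real.exp (-(I : ℝ))) (hi : i ≤ I) (z : Sph d) {f : Sph d → ℝ} (hf : Adm f) {c : E d}
    (hsupp : ∀ s, f s ≠ 0 → dist (s : E d) c ≤ Real.exp (-(i : ℝ))) :
    ((d - 1 : ℕ) : ℝ) * I * ∫ s, f s * (good d ε z).indicator (fun _ => 1) s ∂(unif d) ≤
      2 * Ent (unif d) f - ((d - 1 : ℕ) : ℝ) * i * (∫ s, f s ∂(unif d)) +
        2 * (J * cost k q N + 2 * ((d - 1 : ℕ) : ℝ)) * ∫ s, f s ∂(unif d) := by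
  set w := ∫ s, f s ∂(unif d) with hw
  have hw0 : 0 ≤ w := mass_nonneg _ hf
  have hp : ∫ s, f s * (good d ε z).indicator (fun _ => 1) s ∂(unif d) =
      ∫ s in good d ε z, f s ∂(unif d) := by
    rw [← integral_indicator (measurableSet_good ε z)]
    congr 1; ext s
    by_cases h : s ∈ good d ε z
    · simp [h]
    · simp [h]
  rw [hp]
  set P := ∫ s in good d ε z, f s ∂(unif d) with hP
  have hP0 : 0 ≤ P := integral_nonneg hf.nonneg
  have hPw : P ≤ w := setIntegral_le_integral (hf.integrable _)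
    (Filter.Eventually.of_forall hf.nonneg)
  have hgood : (unif d).real (good d ε z) ≤ (2 * Real.exp (-(I : ℝ))) ^ (d - 1) :=
    (measureReal_mono (good_subset hε z)).trans (real_ball_le hd z (Real.exp_pos _))
  have h2 := Ent_ge_two (unif d) hf (A := good d ε z) (B := {s : Sph d | dist (s : E d) c ≤
    Real.exp (-(i : ℝ))}) (measurableSet_good ε z) (measurableSet_cball _ _)
    (fun s hs => by by_contra h; exact hs (hsupp s h))
    (u := (2 * Real.exp (-(I : ℝ))) ^ (d - 1))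
    (v := (2 * Real.exp (-(i : ℝ))) ^ (d - 1)) (by positivity) (by positivity) hgood
    (real_ball_le hd c (Real.exp_pos _))
  rw [log_pow_exp, log_pow_exp, ← hw, ← hP] at h2
  set n : ℝ := ((d - 1 : ℕ) : ℝ) with hn
  have hc := const_pos (n := d - 1) (by omega)
  rw [← hn] at hc
  have hn0 : 0 ≤ n := by positivity
  have hi' : (i : ℝ) ≤ I := by exact_mod_cast hi
  have h4 : 0 ≤ J * cost k q N * w :=
    mul_nonneg (mul_nonneg (by positivity) (cost_nonneg k q hN)) hw0
  have h5 : 0 ≤ (4 * n - 2 * n * Real.log 2 - 2 * Real.log 2) * w := mul_nonneg hc hw0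
  have h6 : 0 ≤ n * P * (I - i) := mul_nonneg (mul_nonneg hn0 hP0) (by linarith)
  have h7 : 0 ≤ n * i * (w - P) := mul_nonneg (by positivity) (by linarith)
  nlinarith [h2, h4, h5, h6, h7]

end Vale.Agent.P309
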