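import Vale.Agent.P309.Near

open MeasureTheory ProbabilityTheory
open scoped ENNReal NNReal

namespace Vale.Agent.P309

lemma pi_sum_sq {ι α : Type*} [Fintype ι] [MeasurableSpace α] (μ : Measure α) [SigmaFinite μ]
    {A : Set (ι → α)} (hA : MeasurableSet A) :
    (Measure.pi fun _ : ι ⊕ ι => μ)
      {z | (fun j => z (Sum.inl j)) ∈ A ∧ (fun j => z (Sum.inr j)) ∈ A} =
      (Measure.pi (fun _ : ι => μ) A) ^ 2 := by
  have h1 := measurePreserving_sumPiEquivProdPi (fun _ : ι ⊕ ι => μ)
  have h2 := h1.measure_preimage (hA.prod hA).nullMeasurableSet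
  rw [Measure.prod_prod] at h2
  rw [sq]
  rw [← h2]
  rfl

/-- the arithmetic behind the choice of the reference distribution -/
lemma power_bound {q : ℕ} (hq : 1 ≤ q) {x m B N : ℝ} (hx : 0 ≤ x) (hm : 0 ≤ m) (hB : 1 ≤ B)
    (hN : 1 ≤ N) (h : x ^ (q + 1) ≤ (B * m ^ 2) ^ q) :
    x ≤ B * Real.exp (2 / (q + 1) * Real.log N) * (m * (m + 1 / N)) := by
  set η := Real.exp (2 / (q + 1) * Real.log N) with hη
  have hN0 : 0 < N := by linarith
  have hη1 : η ^ (q + 1) = N ^ 2 := by
    rw [hη, ← Real.exp_nat_mul]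
    push_cast
    rw [← mul_assoc, mul_div_cancel₀ _ (by positivity : (q : ℝ) + 1 ≠ 0), mul_comm, Real.exp_mul,
      Real.exp_log hN0]
    norm_cast
  have h1 : x ^ (q + 1) ≤ (B * η * (m * (m + 1 / N))) ^ (q + 1) := by
    refine h.trans ?_
    obtain ⟨q, rfl⟩ := Nat.exists_eq_add_of_le' hq
    calc (B * m ^ 2) ^ (q + 1) = B ^ (q + 1) * (N ^ 2 * (m ^ (q + 2) * (m ^ q * (1 / N) ^ 2))) := by
          field_simp
          ring
      _ ≤ B ^ (q + 1 + 1) * (N ^ 2 * (m ^ (q + 2) * ((m + 1 / N) ^ q * (m + 1 / N) ^ 2))) := by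
          have e1 : (0 : ℝ) ≤ 1 / N := by positivity
          have e2 : m ≤ m + 1 / N := by linarith
          have e3 : 1 / N ≤ m + 1 / N := by linarith
          have e4 : B ^ (q + 1) ≤ B ^ (q + 1 + 1) := pow_le_pow_right₀ hB (by omega)
          gcongr
      _ = (B * η * (m * (m + 1 / N))) ^ (q + 1 + 1) := by
          rw [mul_pow, mul_pow B, hη1, mul_pow]
          ring
  exact (pow_le_pow_iff_left₀ hx (by positivity) (by omega)).1 h1

variable {d k : ℕ}

/-- the law on `E d` with density proportional to `f` on the sphere -/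
noncomputable def nu (d : ℕ) (f : Sph d → ℝ) : Measure (E d) :=
  ((unif d).withDensity (fun s => ENNReal.ofReal (f s / ∫ s, f s ∂(unif d)))).map
    (fun s : Sph d => (s : E d))

lemma lintegral_nu {f : Sph d → ℝ} (hf : Adm f) {g : E d → ℝ≥0∞} (hg : Measurable g) :
    ∫⁻ x, g x ∂(nu d f) = ∫⁻ s, ENNReal.ofReal (f s / ∫ s, f s ∂(unif d)) * g s ∂(unif d) := by
  have h1 : Measurable fun s => ENNReal.ofReal (f s / ∫ s, f s ∂(unif d)) :=
    (hf.meas.div_const _).ennreal_ofReal
  have h2 : Measurable fun s : Sph d => g s := hg.comp measurable_subtype_coe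
  rw [nu, lintegral_map hg measurable_subtype_coe]
  exact lintegral_withDensity_eq_lintegral_mul _ h1 h2

lemma nu_apply [NeZero d] {f : Sph d → ℝ} (hf : Adm f) {B : Set (E d)} (hB : MeasurableSet B) :
    nu d f B = ENNReal.ofReal
      ((∫ s in {s : Sph d | (s : E d) ∈ B}, f s ∂(unif d)) / ∫ s, f s ∂(unif d)) := by
  have hB' : MeasurableSet {s : Sph d | (s : E d) ∈ B} := measurable_subtype_coe hB
  have h0 : (fun s : Sph d => (s : E d)) ⁻¹' B = {s : Sph d | (s : E d) ∈ B} := rfl
  rw [nu, Measure.map_apply measurable_subtype_coe hB, h0, withDensity_apply _ hB',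
    ← ofReal_integral_eq_lintegral_ofReal, integral_div]
  · exact ((hf.integrable (unif d)).div_const _).integrableOn
  · exact Filter.Eventually.of_forall fun s => div_nonneg (hf.nonneg s)
      (integral_nonneg hf.nonneg)

lemma nu_prob [NeZero d] {f : Sph d → ℝ} (hf : Adm f) (hw : 0 < ∫ s, f s ∂(unif d)) :
    IsProbabilityMeasure (nu d f) := by
  constructor
  rw [nu_apply hf MeasurableSet.univ]
  simp [hw.ne']

lemma second_moment [NeZero d] {f : Sph d → ℝ} (hf : Adm f) (hw : 0 < ∫ s, f s ∂(unif d))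
    {ρ θ : ℝ} (hρ : 0 < ρ) (hθ : 1 ≤ θ) (hk : 1 ≤ k) {q : ℕ}
    (hfr : ∀ L : List (E d), L ≠ [] → L.length < q + 1 → ∀ l : ℕ, 4 ≤ l →
      ∫ s in {s : Sph d | Metric.infDist (s : E d) (affineSpan ℝ {x | x ∈ L}) ≤
        ρ * Real.exp (-l)}, f s ∂(unif d) ≤
          Real.exp (-(4 * k * l)) * (θ * ∫ s, f s ∂(unif d)))
    {A : Set (Fin k → E d × ℝ)} (hA : MeasurableSet A) {a : ℝ} (ha0 : 0 ≤ a)
    (hA' : lam (E d) (Fin k) A = ENNReal.ofReal a) :
    ((∫ s, f s * gk d k A s ^ 2 ∂(unif d)) / ∫ s, f s ∂(unif d)) ^ (q + 1) ≤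
      ((((2 * Real.pi) ^ k * ρ ^ (2 * k))⁻¹ * (2 * θ * Real.exp (8 * k))) * a ^ 2) ^ q := by
  set w := ∫ s, f s ∂(unif d) with hw'
  have hprob := nu_prob hf hw
  set AA : Set (Fin k ⊕ Fin k → E d × ℝ) :=
    {z | (fun j => z (Sum.inl j)) ∈ A ∧ (fun j => z (Sum.inr j)) ∈ A} with hAA
  have hAAm : MeasurableSet AA := by
    have h1 : Measurable fun (z : Fin k ⊕ Fin k → E d × ℝ) (j : Fin k) => z (Sum.inl j) := by
      fun_prop
    have h2 : Measurable fun (z : Fin k ⊕ Fin k → E d × ℝ) (j : Fin k) => z (Sum.inr j) := by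
      fun_prop
    exact (h1 hA).inter (h2 hA)
  have hν : ∀ L : List (E d), L ≠ [] → L.length < q + 1 →
      ∫⁻ s, ((ENNReal.ofReal (√(2 * Real.pi) * Metric.infDist s (affineSpan ℝ {x | x ∈ L})))⁻¹) ^
        (Fintype.card (Fin k ⊕ Fin k)) ∂(nu d f) ≤
        ENNReal.ofReal (((2 * Real.pi) ^ k * ρ ^ (2 * k))⁻¹ * (2 * θ * Real.exp (8 * k))) := by
    intro L hL hLq
    have h1 := moment_le (nu d f) (D := fun s : E d => Metric.infDist s (affineSpan ℝ {x | x ∈ L}))
      (Metric.continuous_infDist_pt _).measurable hρ hθ hk (by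
        intro l hl
        have hm : MeasurableSet {s : E d | Metric.infDist s (affineSpan ℝ {x | x ∈ L}) ≤
            ρ * Real.exp (-l)} :=
          measurableSet_le (Metric.continuous_infDist_pt _).measurable measurable_const
        rw [nu_apply hf hm]
        apply ENNReal.ofReal_le_ofReal
        rw [div_le_iff₀ hw]
        refine (hfr L hL hLq l hl).trans (le_of_eq ?_)
        ring)
    have h2 : Fintype.card (Fin k ⊕ Fin k) = 2 * k := by simp; ring
    rw [h2]
    exact h1
  have h3 := radon_Lq (ι := Fin k ⊕ Fin k) ENNReal.ofReal_ne_top hν hAAm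
  have h4 : lam (E d) (Fin k ⊕ Fin k) AA = ENNReal.ofReal (a ^ 2) := by
    rw [lam, pi_sum_sq _ hA, ← lam, hA', ENNReal.ofReal_pow ha0]
  have h5 : ∀ s : E d, (Measure.pi fun _ : Fin k ⊕ Fin k => stdGaussian (E d))
      {X | (fun j => ((X j, inner ℝ (X j) s) : E d × ℝ)) ∈ AA} = (rowLaw d k s A) ^ 2 := by
    intro s
    rw [rowLaw, Measure.map_apply (measurable_rowmap s) hA,
      ← pi_sum_sq _ ((measurable_rowmap s) hA)]
    rfl
  have h6 : Measurable fun s : E d => rowLaw d k s A := by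
    have h1 : MeasurableSet {p : E d × (Fin k → E d) |
      (fun j => ((p.2 j, inner ℝ (p.2 j) p.1) : E d × ℝ)) ∈ A} := (measurable_pair (Fin k)) hA
    have h2 := measurable_measure_prodMk_left
      (ν := Measure.pi fun _ : Fin k => stdGaussian (E d)) h1
    have h3 : (fun s : E d => rowLaw d k s A) = fun s => (Measure.pi fun _ : Fin k =>
        stdGaussian (E d)) (Prod.mk s ⁻¹' {p : E d × (Fin k → E d) |
      (fun j => ((p.2 j, inner ℝ (p.2 j) p.1) : E d × ℝ)) ∈ A}) := by
      ext s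
      rw [rowLaw, Measure.map_apply (measurable_rowmap s) hA]
      rfl
    rw [h3]; exact h2
  simp_rw [h5] at h3
  rw [h4, lintegral_nu hf (h6.pow_const 2), ← ENNReal.ofReal_mul (by positivity),
    ← ENNReal.ofReal_pow (by positivity)] at h3
  have h7 : ∫⁻ s : Sph d, ENNReal.ofReal (f s / w) * rowLaw d k s A ^ 2 ∂(unif d) =
      ENNReal.ofReal ((∫ s, f s * gk d k A s ^ 2 ∂(unif d)) / w) := by
    rw [← integral_div, ofReal_integral_eq_lintegral_ofReal]
    · refine lintegral_congr fun s => ?_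
      rw [mul_div_right_comm, ENNReal.ofReal_mul (div_nonneg (hf.nonneg s) hw.le),
        ENNReal.ofReal_pow (gk_nonneg A s), gk_eq hA, ofReal_measureReal]
    · exact ((((hf.mul (adm_gk hA)).mul (adm_gk hA)).integrable (unif d)).congr
        (Filter.Eventually.of_forall fun s => by ring)).div_const _
    · exact Filter.Eventually.of_forall fun s =>
        div_nonneg (mul_nonneg (hf.nonneg s) (sq_nonneg _)) hw.le
  rw [h7, ← ENNReal.ofReal_pow] at h3
  · rwa [ENNReal.ofReal_le_ofReal_iff (by positivity)] at h3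
  · exact div_nonneg (integral_nonneg fun s => mul_nonneg (hf.nonneg s) (sq_nonneg _)) hw.le

/-- the likelihood of an outcome, split according to whether the labels are typical -/
noncomputable def likG {O : Type*} (φ : (Fin k → E d × ℝ) → O) (c : E d) (ρ : ℝ) (ob : O × Bool)
    (s : Sph d) : ℝ :=
  gk d k (φ ⁻¹' {ob.1} ∩ (if ob.2 = true then near d k c ρ else (near d k c ρ)ᶜ)) s

section lik
variable {O : Type*} {φ : (Fin k → E d × ℝ) → O} {c : E d} {ρ : ℝ}

lemma measurable_likset (hφ : ∀ o, MeasurableSet (φ ⁻¹' {o})) (ob : O × Bool) :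
    MeasurableSet (φ ⁻¹' {ob.1} ∩ (if ob.2 = true then near d k c ρ else (near d k c ρ)ᶜ)) := by
  refine (hφ _).inter ?_
  split_ifs
  · exact measurableSet_near c ρ
  · exact (measurableSet_near c ρ).compl

lemma adm_likG (hφ : ∀ o, MeasurableSet (φ ⁻¹' {o})) (ob : O × Bool) : Adm (likG φ c ρ ob) :=
  adm_gk (measurable_likset hφ ob)

lemma likG_add (hφ : ∀ o, MeasurableSet (φ ⁻¹' {o})) (o : O) (s : Sph d) :
    likG φ c ρ (o, true) s + likG φ c ρ (o, false) s = gk d k (φ ⁻¹' {o}) s := by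
  simp only [likG, if_true, Bool.false_eq_true, if_false]
  exact gk_inter_add (hφ o) (measurableSet_near c ρ) s

lemma sum_likG [Fintype O] (hφ : ∀ o, MeasurableSet (φ ⁻¹' {o})) (s : Sph d) :
    ∑ ob : O × Bool, likG φ c ρ ob s = 1 := by
  rw [Fintype.sum_prod_type]
  simp only [Fintype.sum_bool]
  rw [Finset.sum_congr rfl fun o _ => likG_add hφ o s]
  have h1 := sum_gk hφ MeasurableSet.univ s
  simp only [Set.inter_univ] at h1
  rw [h1, gk_univ]

lemma sum_likG_true [Fintype O] (hφ : ∀ o, MeasurableSet (φ ⁻¹' {o})) (s : Sph d) :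
    ∑ o : O, likG φ c ρ (o, true) s = gk d k (near d k c ρ) s := by
  simp only [likG, if_true]
  exact sum_gk hφ (measurableSet_near c ρ) s

lemma sum_likG_false [Fintype O] (hφ : ∀ o, MeasurableSet (φ ⁻¹' {o})) (s : Sph d) :
    ∑ o : O, likG φ c ρ (o, false) s = gk d k (near d k c ρ)ᶜ s := by
  simp only [likG, Bool.false_eq_true, if_false]
  exact sum_gk hφ (measurableSet_near c ρ).compl s

end lik

lemma glog_le {G Q l : ℝ} (hG : 0 ≤ G) (hQ : 0 < Q) (hl : 0 < l) :
    G * Real.log (G / Q) ≤ G ^ 2 / (Q * l) + (Real.log l - 1) * G := by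
  rcases hG.eq_or_lt with rfl | hG
  · simp
  · have h1 := Real.log_le_sub_one_of_pos (show 0 < G / (Q * l) by positivity)
    have h2 : Real.log (G / (Q * l)) = Real.log (G / Q) - Real.log l := by
      rw [← div_div, Real.log_div (by positivity) hl.ne']
    have h3 : G * Real.log (G / Q) ≤ G * (G / (Q * l) - 1 + Real.log l) := by
      gcongr
      linarith
    refine h3.trans (le_of_eq ?_)
    ring

lemma lam_sum_le {O : Type*} [Fintype O] {φ : (Fin k → E d × ℝ) → O}
    (hφ : ∀ o, MeasurableSet (φ ⁻¹' {o})) (c : E d) {ρ : ℝ} (hρ : 0 < ρ) :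
    ∑ o, (lam (E d) (Fin k) (φ ⁻¹' {o} ∩ near d k c ρ)).toReal ≤
      (Real.exp 2 * (√(2 * Real.pi) * ρ)) ^ k := by
  have h0 := lam_near_le (k := k) c hρ
  have h1 : lam (E d) (Fin k) (near d k c ρ) ≠ ∞ := (h0.trans_lt ENNReal.ofReal_lt_top).ne
  have h2 : ∀ o, lam (E d) (Fin k) (φ ⁻¹' {o} ∩ near d k c ρ) ≠ ∞ := fun o =>
    ((measure_mono Set.inter_subset_right).trans_lt (lt_top_iff_ne_top.2 h1)).ne
  rw [← ENNReal.toReal_sum fun o _ => h2 o]
  refine ENNReal.toReal_le_of_le_ofReal (by positivity) (le_trans (le_of_eq ?_) h0)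
  rw [← measure_biUnion_finset]
  · congr 1
    ext z
    simp
  · intro o _ o' _ hoo'
    rw [Function.onFun, Set.disjoint_left]
    rintro z ⟨hz, _⟩ ⟨hz', _⟩
    exact hoo' (hz.symm.trans hz')
  · exact fun o _ => (hφ o).inter (measurableSet_near c ρ)

/-- the cost of a block -/
noncomputable def cost (k q N : ℕ) : ℝ :=
  Real.log 8 + 12 * k + 2 / (q + 1) * Real.log N + Real.exp (-(k : ℝ) / 2) * Real.log (4 * N)

theorem block_entropy [NeZero d] {f : Sph d → ℝ} (hf : Adm f) (hw : 0 < ∫ s, f s ∂(unif d))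
    {ρ θ : ℝ} (hρ : 0 < ρ) (hθ : 1 ≤ θ) (hk : 1 ≤ k) {q : ℕ} (hq : 1 ≤ q)
    (hfr : ∀ L : List (E d), L ≠ [] → L.length < q + 1 → ∀ l : ℕ, 4 ≤ l →
      ∫ s in {s : Sph d | Metric.infDist (s : E d) (affineSpan ℝ {x | x ∈ L}) ≤
        ρ * Real.exp (-l)}, f s ∂(unif d) ≤
          Real.exp (-(4 * k * l)) * (θ * ∫ s, f s ∂(unif d)))
    {c : E d} (hsupp : ∀ s, f s ≠ 0 → dist (s : E d) c ≤ ρ) {O : Type*} [Fintype O] {N : ℕ}
    (hN : 1 ≤ N) (hcard : Fintype.card O ≤ N) {φ : (Fin k → E d × ℝ) → O}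
    (hφ : ∀ o, MeasurableSet (φ ⁻¹' {o})) :
    ∑ ob : O × Bool, Ent (unif d) (fun s => f s * likG φ c ρ ob s) ≤
      Ent (unif d) f + (∫ s, f s ∂(unif d)) * (cost k q N + Real.log θ) := by
  set w := ∫ s, f s ∂(unif d) with hw'
  have hN1 : (1 : ℝ) ≤ N := by exact_mod_cast hN
  have hN0 : (0 : ℝ) < N := by linarith
  set Z : ℝ := (Real.exp 2 * (√(2 * Real.pi) * ρ)) ^ k with hZ
  have hZ0 : 0 < Z := by positivity
  set m : O → ℝ := fun o => (lam (E d) (Fin k) (φ ⁻¹' {o} ∩ near d k c ρ)).toReal / Z with hm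
  have hm0 : ∀ o, 0 ≤ m o := fun o => by positivity
  have hmsum : ∑ o, m o ≤ 1 := by
    rw [hm, ← Finset.sum_div, div_le_one hZ0]
    exact lam_sum_le hφ c hρ
  set B : ℝ := 2 * θ * Real.exp (12 * k) with hB
  have hexp12 : 1 ≤ Real.exp (12 * k) := Real.one_le_exp (by positivity)
  have hB1 : 1 ≤ B := by rw [hB]; nlinarith
  set η := Real.exp (2 / (q + 1) * Real.log N) with hη
  have hη1 : 1 ≤ η := Real.one_le_exp (mul_nonneg (by positivity) (Real.log_nonneg hN1))
  set l : ℝ := 4 * B * η with hl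
  have hl0 : 0 < l := by positivity
  have hlogl : Real.log l = Real.log 8 + 12 * k + 2 / (q + 1) * Real.log N + Real.log θ := by
    rw [hl, hB, hη]
    have e1 : 4 * (2 * θ * Real.exp (12 * k)) * Real.exp (2 / (q + 1) * Real.log N) =
        8 * θ * (Real.exp (12 * k) * Real.exp (2 / (q + 1) * Real.log N)) := by ring
    rw [e1, Real.log_mul (by positivity) (by positivity), Real.log_mul (by positivity)
      (by positivity), Real.log_mul (by positivity) (by positivity), Real.log_exp, Real.log_exp]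
    ring
  have hlogl1 : 1 ≤ Real.log l := by
    have hk1 : (1 : ℝ) ≤ k := by exact_mod_cast hk
    rw [hlogl]
    have e1 : 0 ≤ Real.log 8 := Real.log_nonneg (by norm_num)
    have e2 : 0 ≤ 2 / (q + 1) * Real.log N := mul_nonneg (by positivity) (Real.log_nonneg hN1)
    have e3 : 0 ≤ Real.log θ := Real.log_nonneg hθ
    linarith
  set Q : O × Bool → ℝ := fun ob => if ob.2 = true then (m ob.1 + 1 / N) / 4 else 1 / (4 * N)
    with hQ
  have hQpos : ∀ ob, 0 < Q ob := by
    intro ob
    simp only [hQ]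
    split_ifs
    · have := hm0 ob.1; positivity
    · positivity
  have hQsum : ∑ ob, Q ob ≤ 1 := by
    rw [Fintype.sum_prod_type]
    simp only [hQ, Fintype.sum_bool, if_true, Bool.false_eq_true, if_false]
    rw [Finset.sum_add_distrib, ← Finset.sum_div, Finset.sum_add_distrib]
    simp only [Finset.sum_const, Finset.card_univ, nsmul_eq_mul]
    have e1 : (Fintype.card O : ℝ) * (1 / N) ≤ 1 := by
      rw [mul_one_div, div_le_one hN0]; exact_mod_cast hcard
    have e2 : (Fintype.card O : ℝ) * (1 / (4 * N)) ≤ 1 / 4 := by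
      have : (Fintype.card O : ℝ) * (1 / (4 * N)) = (Fintype.card O : ℝ) * (1 / N) / 4 := by
        field_simp
      rw [this]; linarith
    linarith
  have h1 := sum_Ent_le (unif d) hf (fun ob => adm_likG (c := c) (ρ := ρ) hφ ob)
    (fun s _ => sum_likG hφ s) hQpos hQsum
  refine h1.trans ?_
  gcongr
  rw [Fintype.sum_prod_type]
  simp only [Fintype.sum_bool]
  rw [Finset.sum_add_distrib]
  have hfG : ∀ ob, Adm fun s => f s * likG φ c ρ ob s := fun ob => hf.mul (adm_likG hφ ob)
  have hlogint : ∀ ob, Integrable (fun s => f s * (likG φ c ρ ob s *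
      Real.log (likG φ c ρ ob s / Q ob))) (unif d) := by
    intro ob
    have e1 : (fun s => f s * (likG φ c ρ ob s * Real.log (likG φ c ρ ob s / Q ob))) =
        fun s => f s * (likG φ c ρ ob s * Real.log (likG φ c ρ ob s)) -
          (f s * likG φ c ρ ob s) * Real.log (Q ob) := by
      ext s
      by_cases h' : likG φ c ρ ob s = 0
      · simp [h']
      · rw [Real.log_div h' (hQpos ob).ne']; ring
    rw [e1]
    refine Integrable.sub ?_ (((hfG ob).integrable _).mul_const _)
    refine Integrable.of_bound (hf.meas.mul ((adm_likG hφ ob).meas.mul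
      (Real.measurable_log.comp (adm_likG hφ ob).meas))).aestronglyMeasurable 1
      (Filter.Eventually.of_forall fun s => ?_)
    rw [Real.norm_eq_abs, abs_mul, abs_of_nonneg (hf.nonneg s)]
    exact mul_le_one₀ (hf.le_one s) (abs_nonneg _)
      (abs_xlog_le ((adm_likG hφ ob).nonneg s) ((adm_likG hφ ob).le_one s))
  -- typical labels
  have htrue : ∀ o, ∫ s, f s * (likG φ c ρ (o, true) s *
      Real.log (likG φ c ρ (o, true) s / Q (o, true))) ∂(unif d) ≤
      w * m o + (Real.log l - 1) * ∫ s, f s * likG φ c ρ (o, true) s ∂(unif d) := by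
    intro o
    have hA := measurable_likset (c := c) (ρ := ρ) hφ (o, true)
    simp only [if_true] at hA
    have hne : lam (E d) (Fin k) (φ ⁻¹' {o} ∩ near d k c ρ) ≠ ∞ :=
      ((measure_mono Set.inter_subset_right).trans_lt
        ((lam_near_le (k := k) c hρ).trans_lt ENNReal.ofReal_lt_top)).ne
    have h2 := second_moment hf hw hρ hθ hk hfr hA (a := m o * Z)
      (by have := hm0 o; positivity) (by
        rw [hm]; simp only
        rw [div_mul_cancel₀ _ hZ0.ne', ENNReal.ofReal_toReal hne])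
    have h3 : ((2 * Real.pi) ^ k * ρ ^ (2 * k))⁻¹ * (2 * θ * Real.exp (8 * k)) * (m o * Z) ^ 2 =
        B * m o ^ 2 := by
      have e1 : Z ^ 2 = Real.exp (4 * k) * ((2 * Real.pi) ^ k * ρ ^ (2 * k)) := by
        rw [hZ, ← pow_mul, mul_comm k 2, mul_pow, mul_pow, pow_mul (√(2 * Real.pi)),
          Real.sq_sqrt (by positivity), ← Real.exp_nat_mul]
        congr 2
        push_cast; ring
      rw [mul_pow (m o) Z, e1, hB]
      have e2 : Real.exp (12 * k) = Real.exp (8 * k) * Real.exp (4 * k) := by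
        rw [← Real.exp_add]; congr 1; ring
      rw [e2]
      have e3 : (2 * Real.pi) ^ k * ρ ^ (2 * k) ≠ 0 := by positivity
      field_simp
    rw [h3] at h2
    have h4 := power_bound hq (x := (∫ s, f s * gk d k (φ ⁻¹' {o} ∩ near d k c ρ) s ^ 2 ∂(unif d)) / w)
      (div_nonneg (integral_nonneg fun s => mul_nonneg (hf.nonneg s) (sq_nonneg _)) hw.le)
      (hm0 o) hB1 hN1 h2
    rw [div_le_iff₀ hw] at h4
    have hsqint : Integrable (fun s => f s * likG φ c ρ (o, true) s ^ 2) (unif d) :=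
      ((((hfG (o, true)).mul (adm_likG hφ (o, true))).integrable (unif d)).congr
        (Filter.Eventually.of_forall fun s => by ring))
    calc ∫ s, f s * (likG φ c ρ (o, true) s *
          Real.log (likG φ c ρ (o, true) s / Q (o, true))) ∂(unif d)
        ≤ ∫ s, ((f s * likG φ c ρ (o, true) s ^ 2) / (Q (o, true) * l) +
          (Real.log l - 1) * (f s * likG φ c ρ (o, true) s)) ∂(unif d) := by
          refine integral_mono (hlogint _) ((hsqint.div_const _).add
            (((hfG (o, true)).integrable _).const_mul _)) fun s => ?_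
          have h6 := (adm_likG (c := c) (ρ := ρ) hφ (o, true)).nonneg s
          have := mul_le_mul_of_nonneg_left (glog_le h6 (hQpos (o, true)) hl0) (hf.nonneg s)
          refine this.trans (le_of_eq ?_)
          ring
      _ = (∫ s, f s * likG φ c ρ (o, true) s ^ 2 ∂(unif d)) / (Q (o, true) * l) +
          (Real.log l - 1) * ∫ s, f s * likG φ c ρ (o, true) s ∂(unif d) := by
          rw [integral_add (hsqint.div_const _) (((hfG (o, true)).integrable _).const_mul _),
            integral_div, integral_const_mul]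
      _ ≤ _ := by
          gcongr
          rw [div_le_iff₀ (by have := hQpos (o, true); positivity)]
          have e1 : (∫ s, f s * likG φ c ρ (o, true) s ^ 2 ∂(unif d)) =
            ∫ s, f s * gk d k (φ ⁻¹' {o} ∩ near d k c ρ) s ^ 2 ∂(unif d) := by
            simp only [likG, if_true]
          rw [e1]
          refine h4.trans (le_of_eq ?_)
          simp only [hQ, if_true, hl]
          ring
  have hfalse : ∀ o, ∫ s, f s * (likG φ c ρ (o, false) s *
      Real.log (likG φ c ρ (o, false) s / Q (o, false))) ∂(unif d) ≤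
      Real.log (4 * N) * ∫ s, f s * likG φ c ρ (o, false) s ∂(unif d) := by
    intro o
    rw [← integral_const_mul]
    refine integral_mono (hlogint _) (((hfG (o, false)).integrable _).const_mul _) fun s => ?_
    have h5 : likG φ c ρ (o, false) s * Real.log (likG φ c ρ (o, false) s / Q (o, false)) ≤
        likG φ c ρ (o, false) s * Real.log (4 * N) := by
      rcases ((adm_likG (c := c) (ρ := ρ) hφ (o, false)).nonneg s).eq_or_lt with h0 | h0
      · rw [← h0]; simp
      · gcongr
        simp only [hQ, Bool.false_eq_true, if_false]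
        rw [div_div_eq_mul_div, div_one]
        have := (adm_likG (c := c) (ρ := ρ) hφ (o, false)).le_one s
        nlinarith
    have := mul_le_mul_of_nonneg_left h5 (hf.nonneg s)
    refine this.trans (le_of_eq ?_)
    ring
  have hsT : ∑ o, ∫ s, f s * likG φ c ρ (o, true) s ∂(unif d) ≤ w := by
    rw [← integral_finsetSum _ fun o _ => (hfG (o, true)).integrable _]
    refine integral_mono (integrable_finsetSum _ fun o _ => (hfG (o, true)).integrable _)
      (hf.integrable _) fun s => ?_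
    simp only
    rw [← Finset.mul_sum, sum_likG_true hφ s]
    exact mul_le_of_le_one_right (hf.nonneg s) (gk_le_one _ s)
  have hsF : ∑ o, ∫ s, f s * likG φ c ρ (o, false) s ∂(unif d) ≤ w * Real.exp (-(k : ℝ) / 2) := by
    rw [← integral_finsetSum _ fun o _ => (hfG (o, false)).integrable _, hw', ← integral_mul_const]
    refine integral_mono (integrable_finsetSum _ fun o _ => (hfG (o, false)).integrable _)
      ((hf.integrable _).mul_const _) fun s => ?_
    simp only
    rw [← Finset.mul_sum, sum_likG_false hφ s]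
    by_cases h0 : f s = 0
    · simp [h0]
    · exact mul_le_mul_of_nonneg_left (gk_near_compl_le c hρ s (hsupp s h0)) (hf.nonneg s)
  have hlog4 : 0 ≤ Real.log (4 * N) := Real.log_nonneg (by linarith)
  calc (∑ o, ∫ s, f s * (likG φ c ρ (o, true) s *
        Real.log (likG φ c ρ (o, true) s / Q (o, true))) ∂(unif d)) +
      ∑ o, ∫ s, f s * (likG φ c ρ (o, false) s *
        Real.log (likG φ c ρ (o, false) s / Q (o, false))) ∂(unif d)
      ≤ (∑ o, (w * m o + (Real.log l - 1) * ∫ s, f s * likG φ c ρ (o, true) s ∂(unif d))) +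
        ∑ o, Real.log (4 * N) * ∫ s, f s * likG φ c ρ (o, false) s ∂(unif d) :=
        add_le_add (Finset.sum_le_sum fun o _ => htrue o) (Finset.sum_le_sum fun o _ => hfalse o)
    _ = w * (∑ o, m o) + (Real.log l - 1) * (∑ o, ∫ s, f s * likG φ c ρ (o, true) s ∂(unif d)) +
        Real.log (4 * N) * ∑ o, ∫ s, f s * likG φ c ρ (o, false) s ∂(unif d) := by
        rw [Finset.sum_add_distrib, Finset.mul_sum, Finset.mul_sum, Finset.mul_sum]
    _ ≤ w * 1 + (Real.log l - 1) * w + Real.log (4 * N) * (w * Real.exp (-(k : ℝ) / 2)) := by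
        gcongr
    _ = w * (cost k q N + Real.log θ) := by
        rw [hlogl, cost]; ring

end Vale.Agent.P309
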