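import Vale.Agent.P309.Defs
open MeasureTheory ProbabilityTheory
open scoped ENNReal NNReal Pointwise

namespace Vale.Agent.P309

section C

open Metric in
/-- packing bound in a finite-dimensional normed space -/
theorem card_sep {W : Type*} [NormedAddCommGroup W] [NormedSpace ℝ W] [FiniteDimensional ℝ W]
    (s : Finset W) {ρ r : ℝ} (hr : 0 < r) (hρ : 0 ≤ ρ) (hs : ∀ c ∈ s, ‖c‖ ≤ ρ)
    (h : ∀ c ∈ s, ∀ d ∈ s, c ≠ d → r ≤ ‖c - d‖) :
    (s.card : ℝ) ≤ (1 + 2 * ρ / r) ^ (Module.finrank ℝ W) := by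
  borelize W
  let μ : Measure W := Measure.addHaar
  let δ : ℝ := r / 2
  let R : ℝ := ρ + r / 2
  have Rpos : 0 < R := by positivity
  set A := ⋃ c ∈ s, ball (c : W) δ with hA
  have D : Set.Pairwise (s : Set W) (Function.onFun Disjoint fun c => ball (c : W) δ) := by
    rintro c hc d hd hcd
    apply ball_disjoint_ball
    rw [dist_eq_norm]
    have := h c hc d hd hcd
    simp only [δ]; linarith
  have A_subset : A ⊆ ball (0 : W) R := by
    refine Set.iUnion₂_subset fun x hx => ?_
    apply ball_subset_ball'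
    calc
      δ + dist x 0 ≤ δ + ρ := by rw [dist_zero_right]; exact add_le_add le_rfl (hs x hx)
      _ = R := by simp only [δ, R]; ring
  have I :
    (s.card : ℝ≥0∞) * ENNReal.ofReal (δ ^ Module.finrank ℝ W) * μ (ball 0 1) ≤
      ENNReal.ofReal (R ^ Module.finrank ℝ W) * μ (ball 0 1) :=
    calc
      (s.card : ℝ≥0∞) * ENNReal.ofReal (δ ^ Module.finrank ℝ W) * μ (ball 0 1) = μ A := by
        rw [hA, measure_biUnion_finset D fun c _ => measurableSet_ball]
        have I : 0 < δ := by positivity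
        simp only [μ.addHaar_ball_of_pos _ I]
        simp only [Finset.sum_const, nsmul_eq_mul, mul_assoc]
      _ ≤ μ (ball (0 : W) R) := measure_mono A_subset
      _ = ENNReal.ofReal (R ^ Module.finrank ℝ W) * μ (ball 0 1) := by
        simp only [μ.addHaar_ball_of_pos _ Rpos]
  have J : (s.card : ℝ≥0∞) * ENNReal.ofReal (δ ^ Module.finrank ℝ W) ≤
      ENNReal.ofReal (R ^ Module.finrank ℝ W) :=
    (ENNReal.mul_le_mul_iff_left (measure_ball_pos _ _ zero_lt_one).ne' measure_ball_lt_top.ne).1 I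
  have K : (s.card : ℝ) * δ ^ Module.finrank ℝ W ≤ R ^ Module.finrank ℝ W := by
    have := ENNReal.toReal_le_of_le_ofReal (pow_nonneg Rpos.le _) J
    rwa [ENNReal.toReal_mul, ENNReal.toReal_natCast, ENNReal.toReal_ofReal (by positivity)] at this
  have hδ : 0 < δ ^ Module.finrank ℝ W := by positivity
  rw [← le_div_iff₀ hδ, ← div_pow] at K
  have e : R / δ = 1 + 2 * ρ / r := by
    simp only [R, δ]; field_simp; ring
  rwa [e] at K

/-- net of a ball in a finite-dimensional normed space -/
theorem exists_net {W : Type*} [NormedAddCommGroup W] [NormedSpace ℝ W] [FiniteDimensional ℝ W]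
    {ρ r : ℝ} (hr : 0 < r) (hρ : 0 ≤ ρ) :
    ∃ t : Finset W, (t.card : ℝ) ≤ (1 + 2 * ρ / r) ^ (Module.finrank ℝ W) ∧
      ∀ w : W, ‖w‖ ≤ ρ → ∃ x ∈ t, ‖w - x‖ ≤ r := by
  classical
  let Q : Finset W → Prop := fun s => (∀ c ∈ s, ‖c‖ ≤ ρ) ∧ ∀ c ∈ s, ∀ d ∈ s, c ≠ d → r ≤ ‖c - d‖
  let P : ℕ → Prop := fun n => ∃ s : Finset W, s.card = n ∧ Q s
  obtain ⟨B, hB⟩ := exists_nat_gt ((1 + 2 * ρ / r) ^ (Module.finrank ℝ W))
  have hb : ∀ n, P n → n ≤ B := by
    rintro n ⟨s, hs, h1, h2⟩
    have := card_sep s hr hρ h1 h2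
    rw [hs] at this
    exact_mod_cast (this.trans hB.le)
  have h0 : P 0 := ⟨∅, rfl, by simp [Q]⟩
  obtain ⟨t, ht, hQ⟩ : P (Nat.findGreatest P B) := Nat.findGreatest_spec (m := 0) (Nat.zero_le _) h0
  refine ⟨t, card_sep t hr hρ hQ.1 hQ.2, fun w hw => ?_⟩
  by_contra hcon
  push Not at hcon
  have hwt : w ∉ t := fun hmem => by
    have := hcon w hmem
    simp at this
    linarith
  have hP : P (Nat.findGreatest P B + 1) := by
    refine ⟨insert w t, by rw [Finset.card_insert_of_notMem hwt, ht], ?_, ?_⟩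
    · intro c hc
      rcases Finset.mem_insert.1 hc with rfl | hc
      · exact hw
      · exact hQ.1 c hc
    · intro c hc d hd hcd
      rcases Finset.mem_insert.1 hc with rfl | hc
      · rcases Finset.mem_insert.1 hd with rfl | hd
        · exact absurd rfl hcd
        · exact (hcon d hd).le
      · rcases Finset.mem_insert.1 hd with hdw | hd
        · rw [hdw, norm_sub_rev]; exact (hcon c hc).le
        · exact hQ.2 c hc d hd hcd
  have := Nat.le_findGreatest (hb _ hP) hP
  omega

/-- C1 -/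
theorem cover_nbhd {V : Type*} [NormedAddCommGroup V] [InnerProductSpace ℝ V] [FiniteDimensional ℝ V]
    (H : AffineSubspace ℝ V) (hne : (H : Set V).Nonempty) (m : ℕ)
    (hm : Module.finrank ℝ H.direction ≤ m) (c : V) {ρ r : ℝ} (hr : 0 < r) (hρ : 0 ≤ ρ) :
    ∃ t : Finset V, (t.card : ℝ) ≤ (1 + 2 * ρ / r) ^ m ∧
      ∀ s, Metric.infDist s (H : Set V) ≤ r → dist s c ≤ ρ → ∃ x ∈ t, dist s x ≤ 2 * r := by
  classical
  have : Nonempty H := hne.to_subtype
  obtain ⟨t, ht, hnet⟩ := exists_net (W := H.direction) hr hρ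
  let p : V → H := fun x => EuclideanGeometry.orthogonalProjection H x
  refine ⟨t.image (fun w : H.direction => (w : V) + (p c : V)), ?_, fun s hs hsc => ?_⟩
  · refine le_trans (by exact_mod_cast Finset.card_image_le) (ht.trans ?_)
    exact pow_le_pow_right₀ (by have : 0 ≤ 2 * ρ / r := by positivity
                                linarith) hm
  · have h1 : dist s (p s : V) ≤ r := by
      rw [EuclideanGeometry.dist_orthogonalProjection_eq_infDist]; exact hs
    have h2 : dist (p s : V) (p c : V) ≤ ρ := by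
      refine le_trans ?_ hsc
      have e : ((p s : V) - (p c : V)) =
          ((H.direction.orthogonalProjectionOnto (s - c) : H.direction) : V) := by
        have := (EuclideanGeometry.orthogonalProjection H : V →ᵃ[ℝ] H).linearMap_vsub s c
        rw [EuclideanGeometry.orthogonalProjection_linear] at this
        have h' := congrArg (fun z : H.direction => (z : V)) this
        simpa using h'.symm
      rw [dist_eq_norm, dist_eq_norm, e]
      exact (H.direction.norm_orthogonalProjectionOnto_apply_le _)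
    have hmem : (p s : V) - (p c : V) ∈ H.direction := by
      have := AffineSubspace.vsub_mem_direction (p s).2 (p c).2
      simpa using this
    obtain ⟨x, hx, hxd⟩ := hnet ⟨(p s : V) - (p c : V), hmem⟩ (by
      rw [dist_eq_norm] at h2; exact h2)
    refine ⟨(x : V) + (p c : V), Finset.mem_image_of_mem _ hx, ?_⟩
    have h3 : dist (p s : V) ((x : V) + (p c : V)) ≤ r := by
      rw [dist_eq_norm]
      have : (p s : V) - ((x : V) + (p c : V)) = ((p s : V) - (p c : V)) - x := by abel
      rw [this]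
      exact hxd
    calc dist s ((x : V) + (p c : V)) ≤ dist s (p s : V) + dist (p s : V) ((x : V) + (p c : V)) :=
          dist_triangle _ _ _
      _ ≤ r + r := add_le_add h1 h3
      _ = 2 * r := by ring

instance unif_prob (d : ℕ) [NeZero d] : IsProbabilityMeasure (unif d) := by
  constructor
  rw [unif, Measure.smul_apply, smul_eq_mul]
  apply ENNReal.inv_mul_cancel
  · have : Nontrivial (E d) := by
      have : Nonempty (Fin d) := ⟨⟨0, Nat.pos_of_ne_zero (NeZero.ne d)⟩⟩
      infer_instance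
    have h := (volume : Measure (E d)).toSphere_ne_zero
    rwa [Ne, Measure.measure_univ_eq_zero]
  · exact measure_ne_top _ _

/-- C2 -/
theorem unif_ball_le (d : ℕ) (hd : 2 ≤ d) (z : E d) {r : ℝ} (hr : 0 < r) :
    unif d {s : Sph d | dist (s : E d) z ≤ r} ≤ ENNReal.ofReal ((2 * r) ^ (d - 1)) := by
  set A : Set (Sph d) := {s : Sph d | dist (s : E d) z ≤ r} with hA
  have hAm : MeasurableSet A := by
    apply IsClosed.measurableSet
    exact isClosed_le (by fun_prop) continuous_const
  let μ : Measure (E d) := volume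
  have hfr : Module.finrank ℝ (E d) = d := by simp
  set m : ℝ≥0∞ := μ (Set.Ioo (0:ℝ) 1 • ((↑) '' A : Set (E d))) with hm
  set b : ℝ≥0∞ := μ (Metric.ball 0 1) with hb
  have hb0 : b ≠ 0 := (Metric.measure_ball_pos μ _ one_pos).ne'
  have hbt : b ≠ ∞ := measure_ball_lt_top.ne
  have hmt : m ≠ ∞ := by
    refine ne_top_of_le_ne_top hbt (measure_mono ?_)
    rintro x ⟨t, ht, s, ⟨s', hs', rfl⟩, rfl⟩
    simp only [Metric.mem_ball, dist_zero_right, norm_smul, Real.norm_eq_abs, abs_of_pos ht.1,
      smul_eq_mul]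
    have : ‖(s' : E d)‖ = 1 := by simpa using s'.2
    rw [this]; linarith [ht.2]
  have h1 : μ.toSphere A = d * m := by
    rw [μ.toSphere_apply' hAm, hfr]
  have h2 : μ.toSphere Set.univ = d * b := by
    rw [μ.toSphere_apply_univ, hfr]
  -- main inequality
  have hsc : ENNReal.ofReal ((1 + r) ^ d) * m ≤ m + ENNReal.ofReal ((2 * r) ^ d) * b := by
    have e1 : ENNReal.ofReal ((1 + r) ^ d) * m =
        μ ((1 + r) • (Set.Ioo (0:ℝ) 1 • ((↑) '' A : Set (E d)))) := by
      rw [Measure.addHaar_smul, hfr, abs_of_nonneg (by positivity)]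
    have e2 : ENNReal.ofReal ((2 * r) ^ d) * b = μ (Metric.closedBall z (2 * r)) := by
      rw [Measure.addHaar_closedBall μ z (by positivity), hfr]
    rw [e1, e2]
    refine le_trans (measure_mono ?_) (measure_union_le _ _)
    rintro x ⟨y, ⟨t, ht, s, ⟨s', hs', rfl⟩, rfl⟩, rfl⟩
    have hn : ‖(s' : E d)‖ = 1 := by simpa using s'.2
    by_cases hlt : (1 + r) * t < 1
    · left
      refine ⟨(1 + r) * t, ⟨by have := ht.1; positivity, hlt⟩, (s' : E d), ⟨s', hs', rfl⟩, ?_⟩
      simp only [smul_smul, smul_eq_mul]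
    · right
      push Not at hlt
      rw [Metric.mem_closedBall]
      simp only [smul_smul, smul_eq_mul]
      calc dist (((1 + r) * t) • (s' : E d)) z ≤ dist (((1 + r) * t) • (s' : E d)) (s' : E d) +
            dist (s' : E d) z := dist_triangle _ _ _
        _ ≤ r + r := by
            refine add_le_add ?_ hs'
            rw [dist_eq_norm]
            have : ((1 + r) * t) • (s' : E d) - (s' : E d) = ((1 + r) * t - 1) • (s' : E d) := by
              rw [sub_smul, one_smul]
            rw [this, norm_smul, hn, mul_one, Real.norm_eq_abs, abs_of_nonneg (by linarith)]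
            nlinarith [ht.2]
        _ = 2 * r := by ring
  have hR : m.toReal * (d * r) ≤ (2 * r) ^ d * b.toReal := by
    have h3 : ((1 + r) ^ d) * m.toReal ≤ m.toReal + (2 * r) ^ d * b.toReal := by
      have h4 := ENNReal.toReal_mono (by
        exact ENNReal.add_ne_top.2 ⟨hmt, ENNReal.mul_ne_top ENNReal.ofReal_ne_top hbt⟩) hsc
      rw [ENNReal.toReal_add hmt (ENNReal.mul_ne_top ENNReal.ofReal_ne_top hbt),
        ENNReal.toReal_mul, ENNReal.toReal_mul, ENNReal.toReal_ofReal (by positivity),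
        ENNReal.toReal_ofReal (by positivity)] at h4
      exact h4
    have h5 : 1 + (d : ℝ) * r ≤ (1 + r) ^ d := one_add_mul_le_pow (by linarith) d
    have h6 : 0 ≤ m.toReal := ENNReal.toReal_nonneg
    nlinarith
  have hbr : 0 < b.toReal := ENNReal.toReal_pos hb0 hbt
  have hd0 : (2:ℝ) ≤ d := by exact_mod_cast hd
  have hfin : m.toReal / b.toReal ≤ (2 * r) ^ (d - 1) := by
    rw [div_le_iff₀ hbr]
    have e : (2 * r) ^ d = (2 * r) ^ (d - 1) * (2 * r) := by
      rw [← pow_succ]; congr 1; omega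
    rw [e] at hR
    have h7 : 0 < (2 * r) ^ (d - 1) * b.toReal := by positivity
    have h8 : m.toReal * (2 * r) ≤ m.toReal * (d * r) := by
      apply mul_le_mul_of_nonneg_left _ ENNReal.toReal_nonneg
      nlinarith
    have h9 : m.toReal * (2 * r) ≤ ((2 * r) ^ (d - 1) * b.toReal) * (2 * r) := by
      calc _ ≤ _ := h8
        _ ≤ _ := hR
        _ = _ := by ring
    exact le_of_mul_le_mul_right h9 (by positivity)
  have hval : unif d A = ENNReal.ofReal (m.toReal / b.toReal) := by
    have hdn : (d : ℝ≥0∞) ≠ 0 := by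
      have : d ≠ 0 := by omega
      exact_mod_cast this
    have hdt : (d : ℝ≥0∞) ≠ ∞ := ENNReal.natCast_ne_top d
    rw [unif, Measure.smul_apply, smul_eq_mul]
    change (μ.toSphere Set.univ)⁻¹ * μ.toSphere A = _
    rw [h1, h2, ENNReal.ofReal_div_of_pos hbr, ENNReal.ofReal_toReal hmt, ENNReal.ofReal_toReal hbt,
      ENNReal.mul_inv (Or.inl hdn) (Or.inl hdt), mul_comm (d : ℝ≥0∞)⁻¹, mul_assoc,
      ← mul_assoc (d : ℝ≥0∞)⁻¹, ENNReal.inv_mul_cancel hdn hdt, one_mul, mul_comm, div_eq_mul_inv]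
  rw [hval]
  exact ENNReal.ofReal_le_ofReal hfin

theorem integral_exp_sq_div_four : ∫ y, Real.exp (y ^ 2 / 4) ∂(gaussianReal 0 1) = √2 := by
  rw [integral_gaussianReal_eq_integral_smul one_ne_zero]
  have h : ∀ y : ℝ, gaussianPDFReal 0 1 y • Real.exp (y ^ 2 / 4) =
      (√(2 * Real.pi))⁻¹ * Real.exp (-(1 / 4) * y ^ 2) := by
    intro y
    rw [gaussianPDFReal, smul_eq_mul, mul_assoc, ← Real.exp_add]
    congr 2
    · simp
    · simp; ring
  simp_rw [h]
  rw [integral_const_mul, integral_gaussian, ← Real.sqrt_inv, ← Real.sqrt_mul (by positivity)]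
  congr 1
  have := Real.pi_ne_zero
  field_simp
  norm_num

/-- C3: chi-square tail -/
theorem chi_tail {V : Type*} [NormedAddCommGroup V] [InnerProductSpace ℝ V] [FiniteDimensional ℝ V]
    [MeasurableSpace V] [BorelSpace V] (k : ℕ) (v : V) (ρ : ℝ) (hρ : 0 < ρ) (hv : ‖v‖ ≤ ρ) :
    (Measure.pi fun _ : Fin k => stdGaussian V)
      {X | 4 * k * ρ ^ 2 < ∑ j, (inner ℝ (X j) v) ^ 2} ≤ ENNReal.ofReal (Real.exp (-(k : ℝ) / 2)) := by
  by_cases hv0 : v = 0
  · subst hv0
    have : {X : Fin k → V | 4 * k * ρ ^ 2 < ∑ j, (inner ℝ (X j) (0 : V)) ^ 2} = ∅ := by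
      ext X
      simp only [inner_zero_right, ne_eq, OfNat.ofNat_ne_zero, not_false_eq_true, zero_pow,
        Finset.sum_const_zero, Set.mem_ofPred_eq, Set.mem_empty_iff_false, iff_false, not_lt]
      positivity
    rw [this]; simp
  have hσ : 0 < ‖v‖ := norm_pos_iff.2 hv0
  set σ := ‖v‖ with hσd
  let u : V := (σ)⁻¹ • v
  have hu : ‖u‖ = 1 := by
    simp only [u, norm_smul, norm_inv, Real.norm_eq_abs, abs_of_pos hσ]
    rw [← hσd]; field_simp
  let L : StrongDual ℝ V := innerSL ℝ u
  have hL : ‖L‖ = 1 := by simp only [L, innerSL_apply_norm, hu]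
  have hmap : (stdGaussian V).map L = gaussianReal 0 1 := by
    rw [IsGaussian.map_eq_gaussianReal, variance_dual_stdGaussian, hL]
    simp
  let G : V → ℝ := fun x => Real.exp ((L x) ^ 2 / 4)
  have hG : ∫ x, G x ∂(stdGaussian V) = √2 := by
    have h := integral_map (μ := stdGaussian V) (φ := L) (f := fun y : ℝ => Real.exp (y ^ 2 / 4))
      (by fun_prop) (by
        apply Continuous.aestronglyMeasurable; fun_prop)
    rw [hmap, integral_exp_sq_div_four] at h
    exact h.symm
  have hGi : Integrable G (stdGaussian V) := by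
    by_contra hc
    rw [integral_undef hc] at hG
    have : (0:ℝ) < √2 := by positivity
    linarith
  have hprod : ∫ X : Fin k → V, ∏ j, G (X j) ∂(Measure.pi fun _ : Fin k => stdGaussian V) =
      (√2) ^ k := by
    rw [integral_fintype_prod_eq_pow, hG, Fintype.card_fin]
  have hint : Integrable (fun X : Fin k → V => ∏ j, G (X j))
      (Measure.pi fun _ : Fin k => stdGaussian V) :=
    Integrable.fintype_prod (fun _ => hGi)
  have hmarkov := mul_meas_ge_le_integral_of_nonneg (μ := Measure.pi fun _ : Fin k => stdGaussian V)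
    (f := fun X : Fin k → V => ∏ j, G (X j))
    (Filter.Eventually.of_forall fun X => Finset.prod_nonneg fun j _ => (Real.exp_pos _).le)
    hint (Real.exp k)
  rw [hprod] at hmarkov
  have hsub : {X : Fin k → V | 4 * k * ρ ^ 2 < ∑ j, (inner ℝ (X j) v) ^ 2} ⊆
      {X : Fin k → V | Real.exp k ≤ ∏ j, G (X j)} := by
    intro X hX
    simp only [Set.mem_ofPred_eq] at hX ⊢
    simp only [G]
    rw [← Real.exp_sum]
    apply Real.exp_le_exp.2
    have e : ∀ j, (L (X j)) ^ 2 / 4 = (inner ℝ (X j) v) ^ 2 / (4 * σ ^ 2) := by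
      intro j
      simp only [L, u, innerSL_apply_apply, inner_smul_left, real_inner_comm]
      simp
      field_simp
    simp_rw [e]
    rw [← Finset.sum_div, le_div_iff₀ (by positivity)]
    have : (k:ℝ) * (4 * σ ^ 2) ≤ 4 * k * ρ ^ 2 := by
      have h2 : σ ^ 2 ≤ ρ ^ 2 := by gcongr
      have h3 : (0:ℝ) ≤ k := Nat.cast_nonneg _
      nlinarith
    linarith
  rw [← ofReal_measureReal (measure_ne_top _ _)]
  apply ENNReal.ofReal_le_ofReal
  refine le_trans (measureReal_mono hsub (measure_ne_top _ _)) ?_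
  have h4 : (Measure.pi fun _ : Fin k => stdGaussian V).real
      {X : Fin k → V | Real.exp k ≤ ∏ j, G (X j)} ≤ (√2) ^ k / Real.exp k := by
    rw [le_div_iff₀ (Real.exp_pos _), mul_comm]; exact hmarkov
  refine h4.trans ?_
  have h5 : √2 ≤ Real.exp (1/2) := by
    have : √2 = Real.exp (Real.log 2 / 2) := by
      rw [Real.exp_half, Real.exp_log two_pos]
    rw [this]
    apply Real.exp_le_exp.2
    have := Real.log_two_lt_d9
    linarith
  calc (√2) ^ k / Real.exp k ≤ (Real.exp (1/2)) ^ k / Real.exp k := by gcongr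
    _ = Real.exp (-(k:ℝ) / 2) := by
      rw [← Real.exp_nat_mul, ← Real.exp_sub]
      congr 1; ring

end C
end Vale.Agent.P309
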