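import Vale.Agent.P309.AchDef
import Vale.Agent.P309.Cover

open MeasureTheory ProbabilityTheory

namespace Vale.Agent.P309

/-- joint measurability of the output of a learner. -/
theorem Learner.measurable_run {d M : ℕ} (L : Learner d M) (n : ℕ) : ∀ (t : ℕ) (q : Fin (2 ^ M)),
    letI := L.mΩ
    Measurable fun p : L.Ω × E d × (Fin n → E d) => L.run p.1 p.2.1 n t q p.2.2 := by
  let _ := L.mΩ
  induction n with
  | zero =>
    intro t q
    exact (L.measurable_out t q).comp measurable_fst
  | succ n ih =>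
    intro t q
    -- the transition
    have hg : Measurable fun p : L.Ω × E d × (Fin (n + 1) → E d) =>
        L.step t p.1 q (p.2.2 0) (inner ℝ (p.2.2 0) p.2.1) :=
      (L.measurable_step t q).comp (f := fun p : L.Ω × E d × (Fin (n + 1) → E d) =>
        (p.1, p.2.2 0, (inner ℝ (p.2.2 0) p.2.1 : ℝ))) (by fun_prop)
    -- the continuation, as a function of the transition
    let F : (L.Ω × E d × (Fin (n + 1) → E d)) × (Fin (2 ^ M) × Bool) → Sph d := fun w =>
      if w.2.2 = true then L.out (t + 1) w.1.1 w.2.1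
      else L.run w.1.1 w.1.2.1 n (t + 1) w.2.1 (Fin.tail w.1.2.2)
    have hF : Measurable F := by
      apply measurable_from_prod_countable_left
      rintro ⟨q', b⟩
      cases b
      · simp only [F, Bool.false_eq_true, if_false]
        have htail : Measurable fun x : Fin (n + 1) → E d => (Fin.tail x : Fin n → E d) :=
          measurable_pi_lambda _ fun j => measurable_pi_apply _
        exact (ih (t + 1) q').comp (f := fun p : L.Ω × E d × (Fin (n + 1) → E d) =>
          (p.1, p.2.1, (Fin.tail p.2.2 : Fin n → E d))) (by fun_prop)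
      · simp only [F, if_true]
        exact (L.measurable_out (t + 1) q').comp measurable_fst
    exact hF.comp (measurable_id.prodMk hg)

/-- joint measurability when the initial state is random too -/
theorem Learner.measurable_run_init {d M : ℕ} (L : Learner d M) (n : ℕ) :
    letI := L.mΩ
    Measurable fun p : L.Ω × (Fin n → E d) × Sph d =>
      L.run p.1 p.2.2 n 0 (L.init p.1) p.2.1 := by
  let _ := L.mΩ
  let F : (L.Ω × (Fin n → E d) × Sph d) × Fin (2 ^ M) → Sph d := fun w =>
      L.run w.1.1 w.1.2.2 n 0 w.2 w.1.2.1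
  have hF : Measurable F := by
    apply measurable_from_prod_countable_left
    intro q
    exact (L.measurable_run n 0 q).comp (f := fun p : L.Ω × (Fin n → E d) × Sph d =>
      (p.1, (p.2.2 : E d), p.2.1)) (by fun_prop)
  exact hF.comp (measurable_id.prodMk (L.measurable_init.comp measurable_fst))

/-- MODULE T4b (`Vale/Agent/P309/Fub.lean`) -/
theorem exists_coin {d M : ℕ} [NeZero d] (L : Learner d M) (T : ℕ) (ε : ℝ) (h : L.Succeeds T ε) :
    ∃ ω : L.Ω, 2 / 3 ≤ ∫ s, L.pr ω ε T 0 (L.init ω) s ∂(unif d) := by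
  let _ := L.mΩ
  have hprob : IsProbabilityMeasure L.P := L.prob
  unfold Learner.Succeeds at h
  have hmeas : MeasurableSet {p : L.Ω × (Fin T → E d) × Sph d |
      Real.arccos (inner ℝ (L.run p.1 p.2.2 T 0 (L.init p.1) p.2.1 : E d) (p.2.2 : E d)) ≤ ε} := by
    apply measurableSet_le _ measurable_const
    apply Real.measurable_arccos.comp
    have h1 := L.measurable_run_init T
    have h2 : Measurable fun p : L.Ω × (Fin T → E d) × Sph d =>
        (L.run p.1 p.2.2 T 0 (L.init p.1) p.2.1 : E d) := measurable_subtype_coe.comp h1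
    have h3 : Measurable fun p : L.Ω × (Fin T → E d) × Sph d => (p.2.2 : E d) := by fun_prop
    exact h2.inner h3
  rw [Measure.prod_apply hmeas] at h
  obtain ⟨ω, hω⟩ := exists_lintegral_le (μ := L.P)
    (f := fun ω => ((Measure.pi fun _ : Fin T => stdGaussian (E d)).prod (unif d))
      (Prod.mk ω ⁻¹' {p : L.Ω × (Fin T → E d) × Sph d |
      Real.arccos (inner ℝ (L.run p.1 p.2.2 T 0 (L.init p.1) p.2.1 : E d) (p.2.2 : E d)) ≤ ε}))
    (ne_top_of_le_ne_top ENNReal.one_ne_top (by
      calc _ ≤ ∫⁻ _, 1 ∂L.P := lintegral_mono fun ω => prob_le_one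
        _ = 1 := by simp))
  refine ⟨ω, ?_⟩
  have h1 := h.trans hω
  have hmω : MeasurableSet (Prod.mk ω ⁻¹' {p : L.Ω × (Fin T → E d) × Sph d |
      Real.arccos (inner ℝ (L.run p.1 p.2.2 T 0 (L.init p.1) p.2.1 : E d) (p.2.2 : E d)) ≤ ε}) :=
    measurable_prodMk_left hmeas
  rw [Measure.prod_apply_symm hmω] at h1
  have h2 : ∫ s, L.pr ω ε T 0 (L.init ω) s ∂(unif d) =
      (∫⁻ s, (Measure.pi fun _ : Fin T => stdGaussian (E d))
        ((fun x => (x, s)) ⁻¹' (Prod.mk ω ⁻¹' {p : L.Ω × (Fin T → E d) × Sph d |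
      Real.arccos (inner ℝ (L.run p.1 p.2.2 T 0 (L.init p.1) p.2.1 : E d) (p.2.2 : E d)) ≤ ε}))
        ∂(unif d)).toReal := by
    rw [← integral_toReal]
    · rfl
    · exact (measurable_measure_prodMk_right hmω).aemeasurable
    · exact Filter.Eventually.of_forall fun s => measure_lt_top _ _
  rw [h2]
  have h3 : (2 / 3 : ℝ) = (2 / 3 : ENNReal).toReal := by simp
  rw [h3]
  apply ENNReal.toReal_mono _ h1
  apply ne_top_of_le_ne_top ENNReal.one_ne_top
  calc _ ≤ ∫⁻ _, 1 ∂(unif d) := lintegral_mono fun ω => prob_le_one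
    _ = 1 := by simp

end Vale.Agent.P309
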