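import Vale.Agent.P309.AchDef
import Vale.Agent.P309.Fub

open MeasureTheory ProbabilityTheory
open scoped ENNReal

namespace Vale.Agent.P309

variable {d M : ℕ}

/-- the success event -/
def Learner.ev (L : Learner d M) (ω : L.Ω) (ε : ℝ) (n t : ℕ) (q : Fin (2 ^ M)) (s : Sph d) :
    Set (Fin n → E d) :=
  {x | Real.arccos (inner ℝ (L.run ω s n t q x : E d) (s : E d)) ≤ ε}

theorem Learner.measurableSet_ev (L : Learner d M) (ω : L.Ω) (ε : ℝ) (n t : ℕ)
    (q : Fin (2 ^ M)) (s : Sph d) : MeasurableSet (L.ev ω ε n t q s) := by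
  let _ := L.mΩ
  apply measurableSet_le _ measurable_const
  apply Real.measurable_arccos.comp
  have h1 : Measurable fun x : Fin n → E d => L.run ω s n t q x :=
    (L.measurable_run n t q).comp (f := fun x : Fin n → E d => (ω, (s : E d), x)) (by fun_prop)
  have h2 : Measurable fun x : Fin n → E d => (L.run ω s n t q x : E d) :=
    measurable_subtype_coe.comp h1
  exact h2.inner measurable_const

/-- success probability in `ℝ≥0∞` -/
noncomputable def Learner.prE (L : Learner d M) (ω : L.Ω) (ε : ℝ) (n t : ℕ)
    (q : Fin (2 ^ M)) (s : Sph d) : ℝ≥0∞ :=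
  (Measure.pi fun _ : Fin n => stdGaussian (E d)) (L.ev ω ε n t q s)

theorem Learner.pr_eq (L : Learner d M) (ω : L.Ω) (ε : ℝ) (n t : ℕ)
    (q : Fin (2 ^ M)) (s : Sph d) : L.pr ω ε n t q s = (L.prE ω ε n t q s).toReal := rfl

theorem Learner.prE_zero (L : Learner d M) (ω : L.Ω) (ε : ℝ) (t : ℕ)
    (q : Fin (2 ^ M)) (s : Sph d) :
    L.prE ω ε 0 t q s = (good d ε (L.out t ω q)).indicator 1 s := by
  unfold prE ev good
  by_cases h : Real.arccos (inner ℝ (L.out t ω q : E d) (s : E d)) ≤ ε
  · have : {x : Fin 0 → E d | Real.arccos (inner ℝ (L.run ω s 0 t q x : E d) (s : E d)) ≤ ε} =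
        Set.univ := by
      ext x; simp [Learner.run, h]
    rw [this, measure_univ, Set.indicator_of_mem (by simpa using h)]
    rfl
  · have : {x : Fin 0 → E d | Real.arccos (inner ℝ (L.run ω s 0 t q x : E d) (s : E d)) ≤ ε} =
        ∅ := by
      ext x; simp only [Learner.run, Set.mem_ofPred_eq, Set.mem_empty_iff_false, iff_false]; exact h
    rw [this, measure_empty, Set.indicator_of_notMem (by simpa using h)]

theorem Learner.prE_succ (L : Learner d M) (ω : L.Ω) (ε : ℝ) (n t : ℕ)
    (q : Fin (2 ^ M)) (s : Sph d) :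
    L.prE ω ε (n + 1) t q s = ∫⁻ x₀, (if (L.step t ω q x₀ (inner ℝ x₀ (s : E d))).2 = true then
      (good d ε (L.out (t + 1) ω (L.step t ω q x₀ (inner ℝ x₀ (s : E d))).1)).indicator 1 s
      else L.prE ω ε n (t + 1) (L.step t ω q x₀ (inner ℝ x₀ (s : E d))).1 s)
      ∂(stdGaussian (E d)) := by
  have h1 := (measurePreserving_piFinSuccAbove (fun _ : Fin (n + 1) => stdGaussian (E d)) 0).symm
  have hev := L.measurableSet_ev ω ε (n + 1) t q s
  unfold prE
  rw [← h1.measure_preimage hev.nullMeasurableSet, Measure.prod_apply (h1.measurable hev)]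
  congr 1
  ext x₀
  have hsec : ∀ x' : Fin n → E d, x' ∈ (Prod.mk x₀ ⁻¹' (⇑(MeasurableEquiv.piFinSuccAbove
      (fun _ : Fin (n + 1) => E d) 0).symm ⁻¹' (L.ev ω ε (n + 1) t q s))) ↔
      Real.arccos (inner ℝ ((if (L.step t ω q x₀ (inner ℝ x₀ (s : E d))).2 = true then
        L.out (t + 1) ω (L.step t ω q x₀ (inner ℝ x₀ (s : E d))).1
        else L.run ω s n (t + 1) (L.step t ω q x₀ (inner ℝ x₀ (s : E d))).1 x' : Sph d) : E d)
        (s : E d)) ≤ ε := by
    intro x'
    simp only [Set.mem_preimage, MeasurableEquiv.piFinSuccAbove_symm_apply, Fin.insertNthEquiv,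
      Equiv.coe_fn_mk, Fin.insertNth_zero, ev, Set.mem_ofPred_eq, run, Fin.cons_zero,
      Fin.tail_cons]
    exact Iff.rfl
  by_cases h : (L.step t ω q x₀ (inner ℝ x₀ (s : E d))).2 = true
  · rw [if_pos h]
    simp only [if_pos h] at hsec
    by_cases hg : s ∈ good d ε (L.out (t + 1) ω (L.step t ω q x₀ (inner ℝ x₀ (s : E d))).1)
    · rw [Set.indicator_of_mem hg]
      have : (Prod.mk x₀ ⁻¹' (⇑(MeasurableEquiv.piFinSuccAbove
        (fun _ : Fin (n + 1) => E d) 0).symm ⁻¹' (L.ev ω ε (n + 1) t q s))) = Set.univ := by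
        ext x'
        simp only [hsec, Set.mem_univ, iff_true]
        exact hg
      rw [this, measure_univ]
      rfl
    · rw [Set.indicator_of_notMem hg]
      have : (Prod.mk x₀ ⁻¹' (⇑(MeasurableEquiv.piFinSuccAbove
        (fun _ : Fin (n + 1) => E d) 0).symm ⁻¹' (L.ev ω ε (n + 1) t q s))) = ∅ := by
        ext x'
        simp only [hsec, Set.mem_empty_iff_false, iff_false]
        exact hg
      rw [this, measure_empty]
  · rw [if_neg h]
    simp only [if_neg h] at hsec
    congr 1
    ext x'
    exact hsec x'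

/-- one block of rows -/
def Learner.blk (L : Learner d M) (ω : L.Ω) : (k n t : ℕ) → Fin (2 ^ M) → (Fin k → E d × ℝ) →
    Fin (k + 1) × Fin (2 ^ M) × Bool
  | 0, _, _, q, _ => (0, q, true)
  | _ + 1, 0, _, q, _ => (0, q, false)
  | k + 1, n + 1, t, q, z =>
    if (L.step t ω q (z 0).1 (z 0).2).2 = true then (1, (L.step t ω q (z 0).1 (z 0).2).1, false)
    else ((L.blk ω k n (t + 1) (L.step t ω q (z 0).1 (z 0).2).1 (Fin.tail z)).1.succ,
      (L.blk ω k n (t + 1) (L.step t ω q (z 0).1 (z 0).2).1 (Fin.tail z)).2)

theorem Learner.measurable_blk (L : Learner d M) (ω : L.Ω) (k : ℕ) : ∀ (n t : ℕ)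
    (q : Fin (2 ^ M)), Measurable (L.blk ω k n t q) := by
  let _ := L.mΩ
  induction k with
  | zero =>
    intro n t q
    have : L.blk ω 0 n t q = fun _ => (0, q, true) := by ext1 z; simp only [blk]
    rw [this]
    exact measurable_const
  | succ k ih =>
    intro n t q
    cases n with
    | zero =>
      have : L.blk ω (k + 1) 0 t q = fun _ => (0, q, false) := by ext1 z; simp only [blk]
      rw [this]
      exact measurable_const
    | succ n =>
      have hg : Measurable fun z : Fin (k + 1) → E d × ℝ => L.step t ω q (z 0).1 (z 0).2 :=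
        (L.measurable_step t q).comp (f := fun z : Fin (k + 1) → E d × ℝ =>
          (ω, (z 0).1, (z 0).2)) (by fun_prop)
      let F : (Fin (k + 1) → E d × ℝ) × (Fin (2 ^ M) × Bool) →
          Fin (k + 2) × Fin (2 ^ M) × Bool := fun w =>
        if w.2.2 = true then (1, w.2.1, false)
        else ((L.blk ω k n (t + 1) w.2.1 (Fin.tail w.1)).1.succ,
          (L.blk ω k n (t + 1) w.2.1 (Fin.tail w.1)).2)
      have hF : Measurable F := by
        apply measurable_from_prod_countable_left
        rintro ⟨q', b⟩
        cases b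
        · simp only [F, Bool.false_eq_true, if_false]
          have htail : Measurable fun x : Fin (k + 1) → E d × ℝ => (Fin.tail x : Fin k → E d × ℝ) :=
            measurable_pi_lambda _ fun j => measurable_pi_apply _
          have h1 : Measurable fun x : Fin (k + 1) → E d × ℝ =>
            L.blk ω k n (t + 1) q' (Fin.tail x) := (ih n (t + 1) q').comp htail
          exact Measurable.comp (g := fun o : Fin (k + 1) × Fin (2 ^ M) × Bool => (o.1.succ, o.2))
            Measurable.of_discrete h1
        · simp only [F, if_true]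
          exact measurable_const
      have h3 : L.blk ω (k + 1) (n + 1) t q =
          fun z => F (z, L.step t ω q (z 0).1 (z 0).2) := by
        ext1 z
        simp only [F, blk]
      rw [h3]
      exact hF.comp (measurable_id.prodMk hg)

/-- value of an outcome -/
noncomputable def Learner.fv (L : Learner d M) (ω : L.Ω) (ε : ℝ) (k n t : ℕ)
    (o : Fin (k + 1) × Fin (2 ^ M) × Bool) (s : Sph d) : ℝ≥0∞ :=
  if o.2.2 = true then L.prE ω ε (n - k) (t + k) o.2.1 s
  else (good d ε (L.out (t + o.1) ω o.2.1)).indicator 1 s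

theorem Learner.prE_eq_blk (L : Learner d M) (ω : L.Ω) (ε : ℝ) (s : Sph d) (k : ℕ) :
    ∀ (n t : ℕ) (q : Fin (2 ^ M)), L.prE ω ε n t q s =
      ∫⁻ X, L.fv ω ε k n t (L.blk ω k n t q fun j => (X j, inner ℝ (X j) (s : E d))) s
        ∂(Measure.pi fun _ : Fin k => stdGaussian (E d)) := by
  induction k with
  | zero =>
    intro n t q
    simp [blk, fv]
  | succ k ih =>
    intro n t q
    cases n with
    | zero =>
      simp only [blk, fv, Bool.false_eq_true, if_false]
      rw [L.prE_zero]
      simp
    | succ n =>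
      have h1 := (measurePreserving_piFinSuccAbove (fun _ : Fin (k + 1) => stdGaussian (E d)) 0).symm
      have hX : Measurable fun X : Fin (k + 1) → E d =>
          L.fv ω ε (k + 1) (n + 1) t (L.blk ω (k + 1) (n + 1) t q
            fun j => (X j, inner ℝ (X j) (s : E d))) s := by
        have h2 : Measurable fun o : Fin (k + 1 + 1) × Fin (2 ^ M) × Bool =>
            L.fv ω ε (k + 1) (n + 1) t o s := Measurable.of_discrete
        exact h2.comp ((L.measurable_blk ω (k + 1) (n + 1) t q).comp
          (measurable_pi_lambda _ fun j => by fun_prop))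
      refine (L.prE_succ ω ε n t q s).trans ?_
      symm
      refine (h1.lintegral_comp hX).symm.trans ?_
      refine (lintegral_prod _ (hX.comp h1.measurable).aemeasurable).trans ?_
      congr 1
      ext x₀
      have hblk : ∀ x' : Fin k → E d, (L.blk ω (k + 1) (n + 1) t q fun j =>
          ((MeasurableEquiv.piFinSuccAbove (fun _ : Fin (k + 1) => E d) 0).symm (x₀, x') j,
            inner ℝ ((MeasurableEquiv.piFinSuccAbove (fun _ : Fin (k + 1) => E d) 0).symm
              (x₀, x') j) (s : E d))) =
          if (L.step t ω q x₀ (inner ℝ x₀ (s : E d))).2 = true then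
            (1, (L.step t ω q x₀ (inner ℝ x₀ (s : E d))).1, false)
          else ((L.blk ω k n (t + 1) (L.step t ω q x₀ (inner ℝ x₀ (s : E d))).1
              fun j => (x' j, inner ℝ (x' j) (s : E d))).1.succ,
            (L.blk ω k n (t + 1) (L.step t ω q x₀ (inner ℝ x₀ (s : E d))).1
              fun j => (x' j, inner ℝ (x' j) (s : E d))).2) := by
        intro x'
        rfl
      have hblk' : ∀ x' : Fin k → E d, ((fun X : Fin (k + 1) → E d =>
          L.fv ω ε (k + 1) (n + 1) t (L.blk ω (k + 1) (n + 1) t q
            fun j => (X j, inner ℝ (X j) (s : E d))) s) ∘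
          (MeasurableEquiv.piFinSuccAbove (fun _ : Fin (k + 1) => E d) 0).symm) (x₀, x') =
          L.fv ω ε (k + 1) (n + 1) t (if (L.step t ω q x₀ (inner ℝ x₀ (s : E d))).2 = true then
            (1, (L.step t ω q x₀ (inner ℝ x₀ (s : E d))).1, false)
          else ((L.blk ω k n (t + 1) (L.step t ω q x₀ (inner ℝ x₀ (s : E d))).1
              fun j => (x' j, inner ℝ (x' j) (s : E d))).1.succ,
            (L.blk ω k n (t + 1) (L.step t ω q x₀ (inner ℝ x₀ (s : E d))).1
              fun j => (x' j, inner ℝ (x' j) (s : E d))).2)) s := fun x' =>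
        congrArg (fun o => L.fv ω ε (k + 1) (n + 1) t o s) (hblk x')
      refine (lintegral_congr hblk').trans ?_
      by_cases h : (L.step t ω q x₀ (inner ℝ x₀ (s : E d))).2 = true
      · simp only [if_pos h, fv, Bool.false_eq_true, if_false]
        simp
      · simp only [if_neg h]
        rw [ih]
        apply lintegral_congr
        intro x'
        have e1 : n + 1 - (k + 1) = n - k := by omega
        have e2 : t + (k + 1) = t + 1 + k := by omega
        have e3 : ∀ i : Fin (k + 1), t + (i.succ : ℕ) = t + 1 + i := by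
          intro i
          rw [Fin.val_succ]
          omega
        simp only [fv, e1, e2, e3]

/-- MODULE T4a (`Vale/Agent/P309/Blocks.lean`) -/
theorem ach_of_learner {d M : ℕ} (L : Learner d M) (ω : L.Ω) (ε : ℝ) {k : ℕ} (_hk : 0 < k)
    (J n t : ℕ) (hn : n ≤ J * k) (q : Fin (2 ^ M)) :
    Ach d k (2 * (k + 1) * 2 ^ M) ε J (L.pr ω ε n t q) := by
  induction J generalizing n t q with
  | zero =>
    have hn0 : n = 0 := by omega
    subst hn0
    have : L.pr ω ε 0 t q = (good d ε (L.out t ω q)).indicator fun _ => 1 := by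
      ext s
      rw [L.pr_eq, L.prE_zero]
      by_cases h : s ∈ good d ε (L.out t ω q) <;> simp [h]
    rw [this]
    exact Ach.term 0 _
  | succ J ih =>
    have hfin : ∀ o s, L.fv ω ε k n t o s ≠ ∞ := by
      intro o s
      unfold Learner.fv
      split_ifs
      · exact measure_ne_top _ _
      · by_cases h : s ∈ good d ε (L.out (t + o.1) ω o.2.1) <;> simp [h]
    have key : L.pr ω ε n t q = fun s => ∑ o : Fin (k + 1) × Fin (2 ^ M) × Bool,
        gk d k ((L.blk ω k n t q) ⁻¹' {o}) s * (L.fv ω ε k n t o s).toReal := by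
      ext s
      rw [L.pr_eq, L.prE_eq_blk ω ε s k n t q]
      have hm : Measurable fun X : Fin k → E d => L.blk ω k n t q
          fun j => (X j, inner ℝ (X j) (s : E d)) :=
        (L.measurable_blk ω k n t q).comp (measurable_pi_lambda _ fun j => by fun_prop)
      have h2 : Measurable fun o : Fin (k + 1) × Fin (2 ^ M) × Bool =>
            L.fv ω ε k n t o s := Measurable.of_discrete
      have h3 := lintegral_map (μ := Measure.pi fun _ : Fin k => stdGaussian (E d)) h2 hm
      rw [← h3, lintegral_fintype, ENNReal.toReal_sum]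
      · apply Finset.sum_congr rfl
        intro o _
        rw [ENNReal.toReal_mul, mul_comm, Measure.map_apply hm (measurableSet_singleton o)]
        rfl
      · intro o _
        have hp : IsProbabilityMeasure (Measure.map (fun X : Fin k → E d => L.blk ω k n t q
          fun j => (X j, inner ℝ (X j) (s : E d))) (Measure.pi fun _ : Fin k =>
            stdGaussian (E d))) := Measure.isProbabilityMeasure_map hm.aemeasurable
        exact ENNReal.mul_ne_top (hfin o s) (measure_ne_top _ _)
    rw [key]
    refine Ach.block J (Fin (k + 1) × Fin (2 ^ M) × Bool) inferInstance ?_ (L.blk ω k n t q)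
      (fun o => L.measurable_blk ω k n t q (measurableSet_singleton o))
      (fun o s => (L.fv ω ε k n t o s).toReal) ?_
    · simp only [Fintype.card_prod, Fintype.card_fin, Fintype.card_bool]
      apply le_of_eq
      ring
    · rintro ⟨i, q', b⟩
      cases b
      · have : (fun s => (L.fv ω ε k n t (i, q', false) s).toReal) =
            (good d ε (L.out (t + i) ω q')).indicator fun _ => 1 := by
          ext s
          simp only [Learner.fv, Bool.false_eq_true, if_false]
          by_cases h : s ∈ good d ε (L.out (t + i) ω q') <;> simp [h]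
        rw [this]
        exact Ach.term J _
      · have : (fun s => (L.fv ω ε k n t (i, q', true) s).toReal) =
            L.pr ω ε (n - k) (t + k) q' := by
          ext s
          simp only [Learner.fv, if_true]
          rfl
        rw [this]
        apply ih
        rw [Nat.add_mul, one_mul] at hn
        omega

end Vale.Agent.P309
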