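import Mathlib

open MeasureTheory ProbabilityTheory

namespace Vale.Agent.P309

/-- Euclidean space `R^d`. -/
abbrev E (d : ℕ) := EuclideanSpace ℝ (Fin d)

/-- The unit sphere `S^(d-1)` of `R^d`. -/
abbrev Sph (d : ℕ) := Metric.sphere (0 : E d) 1

/-- The uniform probability measure on `S^(d-1)`: the surface measure, normalised. -/
noncomputable def unif (d : ℕ) : Measure (Sph d) :=
  ((volume : Measure (E d)).toSphere Set.univ)⁻¹ • (volume : Measure (E d)).toSphere

/-- A learner in dimension `d` with `M` bits of memory (the horizon `T` enters in `run`).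
`Ω` with the probability measure `P` is its source of randomness; every rule may look at all of
it (so fresh coins at each step, and also coins that are never forgotten, are allowed).
The memory holds one of `2 ^ M` states.  At index `t`, in state `q`, on reading the pair `(x, y)`
the learner moves to the state `(step t ω q x y).1` and it stops iff `(step t ω q x y).2 = true`.
If it halts after `t` samples in the state `q` it outputs `out t ω q`. -/
structure Learner (d M : ℕ) where
  Ω : Type
  mΩ : MeasurableSpace Ω
  P : Measure Ω
  prob : IsProbabilityMeasure P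
  init : Ω → Fin (2 ^ M)
  step : ℕ → Ω → Fin (2 ^ M) → E d → ℝ → Fin (2 ^ M) × Bool
  out : ℕ → Ω → Fin (2 ^ M) → Sph d
  measurable_init : Measurable init
  measurable_step : ∀ t q, Measurable fun p : Ω × E d × ℝ => step t p.1 q p.2.1 p.2.2
  measurable_out : ∀ t q, Measurable fun ω => out t ω q

/-- The output of the learner `L` with coins `ω`, when the signal is `s`, the memory state is `q`,
`t` samples have been read and the rows still to come are `x 0, x 1, ..., x (n-1)`. -/
noncomputable def Learner.run {d M : ℕ} (L : Learner d M) (ω : L.Ω) (s : E d) :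
    (n t : ℕ) → Fin (2 ^ M) → (Fin n → E d) → Sph d
  | 0, t, q, _ => L.out t ω q
  | n + 1, t, q, x =>
    if (L.step t ω q (x 0) (inner ℝ (x 0) s)).2 = true then
      L.out (t + 1) ω (L.step t ω q (x 0) (inner ℝ (x 0) s)).1
    else L.run ω s n (t + 1) (L.step t ω q (x 0) (inner ℝ (x 0) s)).1 (Fin.tail x)

/-- The learner `L` with horizon `T` succeeds at accuracy `ε`: if the coins `ω`, the rows
`x 0, ..., x (T-1)` (each with law `N(0, I_d)`) and the signal `s` (uniform on the sphere) are
independent, then with probability at least `2/3` the angle between output and signal is at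
most `ε`. -/
def Learner.Succeeds {d M : ℕ} (L : Learner d M) (T : ℕ) (ε : ℝ) : Prop :=
  letI := L.mΩ
  2 / 3 ≤ (L.P.prod ((Measure.pi fun _ : Fin T => stdGaussian (E d)).prod (unif d)))
    {p : L.Ω × (Fin T → E d) × Sph d |
      Real.arccos (inner ℝ (L.run p.1 p.2.2 T 0 (L.init p.1) p.2.1 : E d) (p.2.2 : E d)) ≤ ε}

end Vale.Agent.P309
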