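import Mathlib

open MeasureTheory
open scoped ENNReal NNReal

namespace Vale.Agent.P309

lemma xlog_ge {x t : ℝ} (hx : 0 ≤ x) (ht : 0 < t) :
    x * Real.log t + x - t ≤ x * Real.log x := by
  rcases hx.eq_or_lt with rfl | hx
  · simp [ht.le]
  · have h := Real.log_le_sub_one_of_pos (div_pos ht hx)
    rw [Real.log_div ht.ne' hx.ne'] at h
    have h2 := mul_le_mul_of_nonneg_left h hx.le
    have h3 : x * (t / x - 1) = t - x := by field_simp
    nlinarith

lemma abs_xlog_le {x : ℝ} (hx : 0 ≤ x) (hx1 : x ≤ 1) : |x * Real.log x| ≤ 1 := by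
  have h1 : x * Real.log x ≤ 0 :=
    mul_nonpos_of_nonneg_of_nonpos hx (Real.log_nonpos hx hx1)
  have h2 := xlog_ge hx (t := 1) one_pos
  rw [abs_of_nonpos h1]
  simp at h2
  linarith

variable {S : Type*} [MeasurableSpace S]

/-- admissible densities -/
structure Adm (f : S → ℝ) : Prop where
  meas : Measurable f
  nonneg : ∀ s, 0 ≤ f s
  le_one : ∀ s, f s ≤ 1

namespace Adm

variable {f g : S → ℝ} (σ : Measure S) [IsFiniteMeasure σ]

lemma integrable (hf : Adm f) : Integrable f σ :=
  Integrable.of_bound hf.meas.aestronglyMeasurable 1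
    (Filter.Eventually.of_forall fun s => by
      rw [Real.norm_eq_abs, abs_of_nonneg (hf.nonneg s)]; exact hf.le_one s)

lemma integrable_xlog (hf : Adm f) : Integrable (fun s => f s * Real.log (f s)) σ :=
  Integrable.of_bound
    (hf.meas.mul (Real.measurable_log.comp hf.meas)).aestronglyMeasurable 1
    (Filter.Eventually.of_forall fun s => by
      rw [Real.norm_eq_abs]; exact abs_xlog_le (hf.nonneg s) (hf.le_one s))

lemma mul (hf : Adm f) (hg : Adm g) : Adm (fun s => f s * g s) where
  meas := hf.meas.mul hg.meas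
  nonneg := fun s => mul_nonneg (hf.nonneg s) (hg.nonneg s)
  le_one := fun s => mul_le_one₀ (hf.le_one s) (hg.nonneg s) (hg.le_one s)

lemma indicator_one {B : Set S} (hB : MeasurableSet B) : Adm (B.indicator (fun _ => (1 : ℝ))) where
  meas := measurable_const.indicator hB
  nonneg := fun s => Set.indicator_nonneg (fun _ _ => zero_le_one) s
  le_one := fun s => Set.indicator_le' (fun _ _ => le_refl 1) (fun _ _ => zero_le_one) s

lemma indicator (hf : Adm f) {B : Set S} (hB : MeasurableSet B) : Adm (B.indicator f) where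
  meas := hf.meas.indicator hB
  nonneg := fun s => Set.indicator_nonneg (fun s _ => hf.nonneg s) s
  le_one := fun s => Set.indicator_le' (fun s _ => hf.le_one s) (fun _ _ => zero_le_one) s

end Adm

/-- the (unnormalised) relative entropy of the density `f` -/
noncomputable def Ent (σ : Measure S) (f : S → ℝ) : ℝ :=
  ∫ s, f s * Real.log (f s) ∂σ - (∫ s, f s ∂σ) * Real.log (∫ s, f s ∂σ)

variable (σ : Measure S) [IsProbabilityMeasure σ]

omit [IsProbabilityMeasure σ] in
lemma mass_nonneg {f : S → ℝ} (hf : Adm f) : 0 ≤ ∫ s, f s ∂σ := integral_nonneg hf.nonneg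

lemma mass_le_one {f : S → ℝ} (hf : Adm f) : ∫ s, f s ∂σ ≤ 1 := by
  calc ∫ s, f s ∂σ ≤ ∫ s, (1 : ℝ) ∂σ :=
        integral_mono (hf.integrable σ) (integrable_const _) hf.le_one
    _ = 1 := by simp

/-- lower bound for the integral of `f log f` over a set -/
lemma setIntegral_xlog_ge {f : S → ℝ} (hf : Adm f) {B : Set S} (hB : MeasurableSet B) {t : ℝ}
    (ht : 0 < t) :
    (∫ s in B, f s ∂σ) * Real.log t + (∫ s in B, f s ∂σ) - t * σ.real B ≤
      ∫ s in B, f s * Real.log (f s) ∂σ := by
  have h1 : ∫ s in B, (f s * Real.log t + f s - t) ∂σ ≤ ∫ s in B, f s * Real.log (f s) ∂σ := by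
    apply setIntegral_mono_on _ _ hB (fun s _ => xlog_ge (hf.nonneg s) ht)
    · exact ((((hf.integrable σ).mul_const _).add (hf.integrable σ)).sub
        (integrable_const t)).integrableOn
    · exact (hf.integrable_xlog σ).integrableOn
  have h2 : ∫ s in B, (f s * Real.log t + f s - t) ∂σ =
      (∫ s in B, f s ∂σ) * Real.log t + (∫ s in B, f s ∂σ) - t * σ.real B := by
    rw [integral_sub, integral_add, integral_mul_const, integral_const]
    · simp [mul_comm]
    · exact ((hf.integrable σ).mul_const _).integrableOn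
    · exact (hf.integrable σ).integrableOn
    · exact (((hf.integrable σ).mul_const _).add (hf.integrable σ)).integrableOn
    · exact (integrable_const t).integrableOn
  linarith

/-- entropy lower bound with two cells -/
lemma Ent_ge_two {f : S → ℝ} (hf : Adm f) {A B : Set S} (hA : MeasurableSet A)
    (hB : MeasurableSet B) (hsupp : ∀ s, s ∉ B → f s = 0) {u v : ℝ} (hu : 0 < u) (hv : 0 < v)
    (huA : σ.real A ≤ u) (hvB : σ.real B ≤ v) :
    (∫ s in A, f s ∂σ) * (-Real.log u) +
      ((∫ s, f s ∂σ) - ∫ s in A, f s ∂σ) * (-Real.log v) - (∫ s, f s ∂σ) * Real.log 2 ≤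
      Ent σ f := by
  set w := ∫ s, f s ∂σ with hw
  set p := ∫ s in A, f s ∂σ with hp
  have hw0 : 0 ≤ w := mass_nonneg σ hf
  rcases hw0.eq_or_lt with hw0 | hw0
  · have hf0 : f =ᵐ[σ] 0 := by
      rw [← integral_eq_zero_iff_of_nonneg hf.nonneg (hf.integrable σ)]
      exact hw0.symm
    have hp0 : p = 0 := by
      rw [hp, integral_eq_zero_of_ae]
      exact ae_restrict_of_ae hf0
    have h3 : ∫ s, f s * Real.log (f s) ∂σ = 0 := by
      rw [integral_eq_zero_of_ae]
      filter_upwards [hf0] with s hs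
      simp [hs]
    simp [Ent, ← hw, ← hw0, hp0, h3]
  · have hBA : MeasurableSet (B \ A) := hB.diff hA
    -- split
    have hsplit : ∫ s, f s * Real.log (f s) ∂σ =
        ∫ s in A, f s * Real.log (f s) ∂σ + ∫ s in B \ A, f s * Real.log (f s) ∂σ := by
      rw [← integral_add_compl hA (hf.integrable_xlog σ)]
      congr 1
      apply setIntegral_eq_of_subset_of_forall_sdiff_eq_zero hA.compl (fun s hs => hs.2)
      intro s hs
      have : s ∉ B := fun hsB => hs.2 ⟨hsB, hs.1⟩
      simp [hsupp s this]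
    have hsplit2 : w - p = ∫ s in B \ A, f s ∂σ := by
      have h := integral_add_compl hA (hf.integrable σ)
      have h' : ∫ s in Aᶜ, f s ∂σ = ∫ s in B \ A, f s ∂σ := by
        apply setIntegral_eq_of_subset_of_forall_sdiff_eq_zero hA.compl (fun s hs => hs.2)
        intro s hs
        have : s ∉ B := fun hsB => hs.2 ⟨hsB, hs.1⟩
        simp [hsupp s this]
      rw [hw, hp, ← h, h']; ring
    have e1 := setIntegral_xlog_ge σ hf hA (t := w / (2 * u)) (by positivity)
    have e2 := setIntegral_xlog_ge σ hf hBA (t := w / (2 * v)) (by positivity)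
    have e3 : w / (2 * u) * σ.real A ≤ w / 2 := by
      calc w / (2 * u) * σ.real A ≤ w / (2 * u) * u := by gcongr
        _ = w / 2 := by field_simp
    have e4 : w / (2 * v) * σ.real (B \ A) ≤ w / 2 := by
      have : σ.real (B \ A) ≤ v := le_trans (measureReal_mono Set.sdiff_subset) hvB
      calc w / (2 * v) * σ.real (B \ A) ≤ w / (2 * v) * v := by gcongr
        _ = w / 2 := by field_simp
    rw [← hsplit2] at e2
    rw [Real.log_div hw0.ne' (by positivity), Real.log_mul two_ne_zero hu.ne'] at e1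
    rw [Real.log_div hw0.ne' (by positivity), Real.log_mul two_ne_zero hv.ne'] at e2
    rw [Ent, ← hw, hsplit]
    nlinarith [e1, e2, e3, e4]

/-- splitting a density by finitely many likelihoods `G o`; `Q` is any reference sub-probability -/
lemma sum_Ent_le {O : Type*} [Fintype O] {f : S → ℝ} (hf : Adm f) {G : O → S → ℝ}
    (hG : ∀ o, Adm (G o)) (hsum : ∀ s, f s ≠ 0 → ∑ o, G o s = 1) {Q : O → ℝ} (hQ : ∀ o, 0 < Q o)
    (hQ1 : ∑ o, Q o ≤ 1) :
    ∑ o, Ent σ (fun s => f s * G o s) ≤
      Ent σ f + ∑ o, ∫ s, f s * (G o s * Real.log (G o s / Q o)) ∂σ := by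
  set w := ∫ s, f s ∂σ with hw
  have hw0 : 0 ≤ w := mass_nonneg σ hf
  have hfG : ∀ o, Adm (fun s => f s * G o s) := fun o => hf.mul (hG o)
  have hint : ∀ o, Integrable (fun s => f s * (G o s * Real.log (G o s))) σ := by
    intro o
    refine Integrable.of_bound (hf.meas.mul ((hG o).meas.mul
      (Real.measurable_log.comp (hG o).meas))).aestronglyMeasurable 1
      (Filter.Eventually.of_forall fun s => ?_)
    rw [Real.norm_eq_abs, abs_mul, abs_of_nonneg (hf.nonneg s)]
    exact mul_le_one₀ (hf.le_one s) (abs_nonneg _) (abs_xlog_le ((hG o).nonneg s) ((hG o).le_one s))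
  have hsumw : ∑ o, ∫ s, f s * G o s ∂σ = w := by
    rw [← integral_finsetSum _ (fun o _ => (hfG o).integrable σ), hw]
    congr 1; ext s
    by_cases h : f s = 0
    · simp [h]
    · rw [← Finset.mul_sum, hsum s h, mul_one]
  -- the first part
  have h1 : ∑ o, ∫ s, (f s * G o s) * Real.log (f s * G o s) ∂σ =
      ∫ s, f s * Real.log (f s) ∂σ + ∑ o, ∫ s, f s * (G o s * Real.log (G o s)) ∂σ := by
    rw [← integral_finsetSum _ (fun o _ => (hfG o).integrable_xlog σ),
      ← integral_finsetSum _ (fun o _ => hint o),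
      ← integral_add (hf.integrable_xlog σ) (integrable_finsetSum _ fun o _ => hint o)]
    congr 1; ext s
    by_cases h : f s = 0
    · simp [h]
    · have h2 : ∀ o, (f s * G o s) * Real.log (f s * G o s) =
          (f s * Real.log (f s)) * G o s + f s * (G o s * Real.log (G o s)) := by
        intro o
        by_cases h' : G o s = 0
        · simp [h']
        · rw [Real.log_mul h h']; ring
      rw [Finset.sum_congr rfl (fun o _ => h2 o), Finset.sum_add_distrib, ← Finset.mul_sum,
        hsum s h, mul_one]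
  have h2 : ∀ o, ∫ s, f s * (G o s * Real.log (G o s / Q o)) ∂σ =
      ∫ s, f s * (G o s * Real.log (G o s)) ∂σ - (∫ s, f s * G o s ∂σ) * Real.log (Q o) := by
    intro o
    rw [← integral_mul_const, ← integral_sub (hint o) (((hfG o).integrable σ).mul_const _)]
    congr 1; ext s
    by_cases h' : G o s = 0
    · simp [h']
    · rw [Real.log_div h' (hQ o).ne']; ring
  rcases hw0.eq_or_lt with hw0 | hw0
  · -- everything vanishes
    have hf0 : f =ᵐ[σ] 0 := by
      rw [← integral_eq_zero_iff_of_nonneg hf.nonneg (hf.integrable σ)]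
      exact hw0.symm
    have h3 : ∀ o, Ent σ (fun s => f s * G o s) = 0 := by
      intro o
      have a1 : ∫ s, f s * G o s ∂σ = 0 := by
        rw [integral_eq_zero_of_ae]; filter_upwards [hf0] with s hs; simp [hs]
      have a2 : ∫ s, (f s * G o s) * Real.log (f s * G o s) ∂σ = 0 := by
        rw [integral_eq_zero_of_ae]; filter_upwards [hf0] with s hs; simp [hs]
      simp [Ent, a1, a2]
    have h4 : ∀ o, ∫ s, f s * (G o s * Real.log (G o s / Q o)) ∂σ = 0 := by
      intro o
      rw [integral_eq_zero_of_ae]; filter_upwards [hf0] with s hs; simp [hs]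
    have h5 : ∫ s, f s * Real.log (f s) ∂σ = 0 := by
      rw [integral_eq_zero_of_ae]; filter_upwards [hf0] with s hs; simp [hs]
    rw [Finset.sum_eq_zero (fun o _ => h3 o), Finset.sum_eq_zero (fun o _ => h4 o)]
    simp [Ent, h5, ← hw, ← hw0]
  · have h3 : ∑ o, (∫ s, f s * G o s ∂σ) * Real.log (∫ s, f s * G o s ∂σ) ≥
        w * Real.log w + ∑ o, (∫ s, f s * G o s ∂σ) * Real.log (Q o) := by
      have h4 : ∀ o, (∫ s, f s * G o s ∂σ) * Real.log (∫ s, f s * G o s ∂σ) ≥
          (∫ s, f s * G o s ∂σ) * Real.log w + (∫ s, f s * G o s ∂σ) * Real.log (Q o) +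
            (∫ s, f s * G o s ∂σ) - w * Q o := by
        intro o
        have := xlog_ge (mass_nonneg σ (hfG o)) (t := w * Q o) (mul_pos hw0 (hQ o))
        rw [Real.log_mul hw0.ne' (hQ o).ne'] at this
        linarith
      have h5 := Finset.sum_le_sum (fun o (_ : o ∈ Finset.univ) => h4 o)
      rw [Finset.sum_sub_distrib, Finset.sum_add_distrib, Finset.sum_add_distrib, hsumw,
        ← Finset.sum_mul, hsumw, ← Finset.mul_sum] at h5
      have h6 : w * ∑ o, Q o ≤ w * 1 := mul_le_mul_of_nonneg_left hQ1 hw0.le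
      linarith
    have h4 : ∑ o, Ent σ (fun s => f s * G o s) =
        ∑ o, ∫ s, (f s * G o s) * Real.log (f s * G o s) ∂σ -
          ∑ o, (∫ s, f s * G o s ∂σ) * Real.log (∫ s, f s * G o s ∂σ) := by
      simp [Ent, Finset.sum_sub_distrib]
    rw [h4, h1, Finset.sum_congr rfl (fun o _ => h2 o), Finset.sum_sub_distrib, Ent, ← hw]
    linarith

end Vale.Agent.P309
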