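import Vale.Agent.P309.Assembly
import Vale.Agent.P309.Blocks
import Vale.Agent.P309.Fub

open MeasureTheory ProbabilityTheory
open scoped ENNReal NNReal

namespace Vale.Agent.P309

/-- bounding the cost of a block -/
lemma cost_le {d M : ℕ} (hd : 32 ≤ d) :
    cost (d / 32) (d / 16) (2 * (d / 32 + 1) * 2 ^ M) ≤ d * (1 + 160 * M / d ^ 2) := by
  set k := d / 32 with hk
  set q := d / 16 with hq
  have hk1 : 1 ≤ k := by omega
  have hkd : 32 * k ≤ d := by omega
  have hkd2 : d ≤ 64 * k := by omega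
  have hqd : d ≤ 16 * (q + 1) := by omega
  have hk1' : (1 : ℝ) ≤ k := by exact_mod_cast hk1
  have hkd' : 32 * (k : ℝ) ≤ d := by exact_mod_cast hkd
  have hkd2' : (d : ℝ) ≤ 64 * k := by exact_mod_cast hkd2
  have hqd' : (d : ℝ) ≤ 16 * (q + 1) := by exact_mod_cast hqd
  have hd' : (32 : ℝ) ≤ d := by exact_mod_cast hd
  have hd0 : (0 : ℝ) < d := by linarith
  have hM0 : (0 : ℝ) ≤ M := Nat.cast_nonneg M
  have hlog2 : Real.log 2 ≤ 1 := by
    have := Real.log_le_sub_one_of_pos (show (0 : ℝ) < 2 by norm_num)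
    linarith
  have hlog2' : 0 ≤ Real.log 2 := Real.log_nonneg (by norm_num)
  have hlogk : Real.log (k + 1) ≤ k := by
    have := Real.log_le_sub_one_of_pos (show (0 : ℝ) < k + 1 by linarith)
    linarith
  have hlogN : Real.log ((2 * (k + 1) * 2 ^ M : ℕ) : ℝ) ≤ 1 + k + M := by
    push_cast
    rw [Real.log_mul (by positivity) (by positivity), Real.log_mul (by positivity) (by positivity),
      Real.log_pow]
    nlinarith
  have hlogN0 : 0 ≤ Real.log ((2 * (k + 1) * 2 ^ M : ℕ) : ℝ) := by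
    apply Real.log_natCast_nonneg
  have hlog8 : Real.log 8 ≤ 3 := by
    have : (8 : ℝ) = 2 ^ 3 := by norm_num
    rw [this, Real.log_pow]; push_cast; linarith
  have hlog4 : Real.log 4 ≤ 2 := by
    have : (4 : ℝ) = 2 ^ 2 := by norm_num
    rw [this, Real.log_pow]; push_cast; linarith
  have hlog4N : Real.log (4 * ((2 * (k + 1) * 2 ^ M : ℕ) : ℝ)) ≤ 3 + k + M := by
    rw [Real.log_mul (by norm_num) (by positivity)]
    linarith
  have h1 : 2 / ((q : ℝ) + 1) ≤ 32 / d := by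
    rw [div_le_div_iff₀ (by positivity) hd0]
    linarith
  have h2 : Real.exp (-(k : ℝ) / 2) ≤ 2 / k := by
    rw [neg_div, Real.exp_neg, inv_le_comm₀ (Real.exp_pos _) (by positivity), inv_div]
    have := Real.add_one_le_exp ((k : ℝ) / 2)
    linarith
  have h3 : 2 / ((q : ℝ) + 1) * Real.log ((2 * (k + 1) * 2 ^ M : ℕ) : ℝ) ≤
      2 + 32 * M / d := by
    calc 2 / ((q : ℝ) + 1) * Real.log ((2 * (k + 1) * 2 ^ M : ℕ) : ℝ)
        ≤ 32 / d * (1 + k + M) := by gcongr
      _ = 32 * (1 + k) / d + 32 * M / d := by ring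
      _ ≤ 2 + 32 * M / d := by
          gcongr
          rw [div_le_iff₀ hd0]
          linarith
  have h4 : Real.exp (-(k : ℝ) / 2) * Real.log (4 * ((2 * (k + 1) * 2 ^ M : ℕ) : ℝ)) ≤
      8 + 128 * M / d := by
    calc Real.exp (-(k : ℝ) / 2) * Real.log (4 * ((2 * (k + 1) * 2 ^ M : ℕ) : ℝ))
        ≤ Real.exp (-(k : ℝ) / 2) * (3 + k + M) := by gcongr
      _ ≤ 2 / k * (3 + k + M) := by gcongr
      _ = 2 * (3 + k) / k + 2 * M / k := by ring
      _ ≤ 8 + 128 * M / d := by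
          gcongr ?_ + ?_
          · rw [div_le_iff₀ (by positivity)]; linarith
          · rw [div_le_div_iff₀ (by positivity) hd0]
            nlinarith
  have h5 : (d : ℝ) * (1 + 160 * M / d ^ 2) = d + 160 * M / d := by
    field_simp
  rw [cost, h5]
  have h6 : 32 * (M : ℝ) / d + 128 * M / d = 160 * M / d := by ring
  have h7 : (13 : ℝ) + 12 * k ≤ d := by nlinarith
  linarith

/-- The trade-off in explicit form. -/
theorem tradeoff {d : ℕ} (hd : 32 ≤ d) {ε : ℝ} (hε : 0 < ε) (hε1 : ε ≤ 1) {M T : ℕ}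
    (L : Learner d M) (hL : L.Succeeds T ε) :
    (d : ℝ) * (Real.log (1 / ε) - 13 * (1 + 160 * M / d ^ 2)) ≤
      384 * (1 + 160 * M / d ^ 2) * T := by
  have : NeZero d := ⟨by omega⟩
  obtain ⟨ω, hω⟩ := exists_coin L T ε hL
  set k := d / 32 with hk
  set q := d / 16 with hq
  have hk1 : 1 ≤ k := by omega
  set I := ⌊Real.log (1 / ε)⌋₊ with hI
  have hlog0 : 0 ≤ Real.log (1 / ε) := Real.log_nonneg (by rw [le_div_iff₀ hε]; linarith)
  have hI1 : (I : ℝ) ≤ Real.log (1 / ε) := Nat.floor_le hlog0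
  have hI2 : Real.log (1 / ε) < I + 1 := Nat.lt_floor_add_one _
  have hεI : ε ≤ Real.exp (-(I : ℝ)) := by
    rw [← Real.log_le_iff_le_exp hε]
    rw [one_div, Real.log_inv] at hI1
    linarith
  set J := T / k + 1 with hJ
  have hTJ : T ≤ J * k := by
    have := Nat.div_add_mod T k
    have h2 := Nat.mod_lt T (show 0 < k by omega)
    rw [hJ, add_mul, one_mul, mul_comm]
    omega
  have hach := ach_of_learner L ω ε (show 0 < k by omega) J T 0 hTJ (L.init ω)
  have hd' : (32 : ℝ) ≤ d := by exact_mod_cast hd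
  have hkd' : 32 * (k : ℝ) ≤ d := by
    have : 32 * k ≤ d := by omega
    exact_mod_cast this
  have hkd2' : (d : ℝ) ≤ 64 * k := by
    have : d ≤ 64 * k := by omega
    exact_mod_cast this
  have hqd' : 16 * (q : ℝ) ≤ d := by
    have : 16 * q ≤ d := by omega
    exact_mod_cast this
  have hdcast : ((d - 1 : ℕ) : ℝ) = d - 1 := by
    rw [Nat.cast_sub (by omega)]; simp
  have harith : ∀ l : ℕ, 4 ≤ l →
      8 * (k : ℝ) * l + 2 * q * (l + 2) + 4 ≤ ((d - 1 : ℕ) : ℝ) * (l - 1) := by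
    intro l hl
    rw [hdcast]
    have hl' : (4 : ℝ) ≤ l := by exact_mod_cast hl
    nlinarith
  have hb := ach_bound (by omega) hk1 (show 1 ≤ q by omega) (N := 2 * (k + 1) * 2 ^ M)
    (Nat.one_le_iff_ne_zero.2 (by positivity)) hεI harith (by omega) hach
  have hc := cost_le (M := M) hd
  rw [← hk, ← hq] at hc
  set B : ℝ := 1 + 160 * M / d ^ 2 with hB
  have hB1 : 1 ≤ B := by
    rw [hB]
    have : (0 : ℝ) ≤ 160 * M / d ^ 2 := by positivity
    linarith
  have hJ' : (J : ℝ) ≤ 64 * T / d + 1 := by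
    rw [hJ]
    push_cast
    have h1 : ((T / k : ℕ) : ℝ) ≤ T / k := Nat.cast_div_le
    have h2 : (T : ℝ) / k ≤ 64 * T / d := by
      rw [div_le_div_iff₀ (by exact_mod_cast (show 0 < k by omega)) (by linarith)]
      have : (0 : ℝ) ≤ T := Nat.cast_nonneg T
      nlinarith
    linarith
  have hT0 : (0 : ℝ) ≤ T := Nat.cast_nonneg T
  have hI0 : (0 : ℝ) ≤ I := Nat.cast_nonneg I
  rw [hdcast] at hb
  have h3 : ((d : ℝ) - 1) * I * (2 / 3) ≤ 2 * ((64 * T / d + 1) * (d * B) + 2 * (d - 1)) := by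
    calc ((d : ℝ) - 1) * I * (2 / 3) ≤ (d - 1) * I * ∫ s, L.pr ω ε T 0 (L.init ω) s ∂(unif d) := by
          gcongr
          have : (0 : ℝ) ≤ d - 1 := by linarith
          positivity
      _ ≤ _ := hb
      _ ≤ 2 * ((64 * T / d + 1) * (d * B) + 2 * (d - 1)) := by
          have : (0 : ℝ) ≤ cost k q (2 * (k + 1) * 2 ^ M) :=
            cost_nonneg _ _ (Nat.one_le_iff_ne_zero.2 (by positivity))
          gcongr
  have h4 : (64 * (T : ℝ) / d + 1) * (d * B) = (64 * T + d) * B := by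
    field_simp
  rw [h4] at h3
  -- `d * log (1/ε) ≤ d * (I + 1)`
  have h5 : (d : ℝ) * I ≤ 6 * ((64 * T + d) * B) + 6 * d := by
    have h6 : 0 ≤ (64 * (T : ℝ) + d) * B := by positivity
    -- `(d - 1) I ≤ 3 (64 T + d) B + 6 (d - 1)` and `d ≤ 2 (d - 1)`
    have h7 : ((d : ℝ) - 1) * I ≤ 3 * ((64 * T + d) * B) + 6 * (d - 1) := by linarith
    have h8 : (d : ℝ) * (((d : ℝ) - 1) * I) ≤ d * (3 * ((64 * T + d) * B) + 6 * (d - 1)) := by
      gcongr
    have h9 : (d : ℝ) * (3 * ((64 * T + d) * B)) ≤ (d - 1) * (6 * ((64 * T + d) * B)) := by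
      nlinarith
    have h10 : ((d : ℝ) - 1) * (d * I) ≤ (d - 1) * (6 * ((64 * T + d) * B) + 6 * d) := by
      nlinarith
    exact le_of_mul_le_mul_left h10 (by linarith)
  nlinarith

end Vale.Agent.P309
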