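import Vale.Agent.P309.Pi

open MeasureTheory ProbabilityTheory
open scoped ENNReal NNReal

namespace Vale.Agent.P309

variable {V : Type*} [NormedAddCommGroup V] [InnerProductSpace ℝ V] [FiniteDimensional ℝ V]
  [MeasurableSpace V] [BorelSpace V]

omit [FiniteDimensional ℝ V] in
lemma measurable_split (u : V) :
    Measurable fun p : V × ℝ => p.1 - inner ℝ p.1 u • u + p.2 • u := by
  have : Continuous fun p : V × ℝ => p.1 - inner ℝ p.1 u • u + p.2 • u := by fun_prop
  exact this.measurable

/-- refreshing the component of a standard Gaussian in the direction `u` -/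
theorem gauss_split {u : V} (hu : ‖u‖ = 1) :
    ((stdGaussian V).prod (gaussianReal 0 1)).map
      (fun p : V × ℝ => p.1 - inner ℝ p.1 u • u + p.2 • u) = stdGaussian V := by
  apply Measure.ext_of_charFun (E := V)
  ext t
  rw [charFun_stdGaussian, charFun_apply, integral_map (measurable_split u).aemeasurable
    (by fun_prop)]
  have h1 : ∀ p : V × ℝ,
      Complex.exp ((inner ℝ (p.1 - inner ℝ p.1 u • u + p.2 • u) t : ℝ) * Complex.I) =
      Complex.exp ((inner ℝ p.1 (t - inner ℝ u t • u) : ℝ) * Complex.I) *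
        Complex.exp ((inner ℝ u t : ℝ) * (p.2 : ℝ) * Complex.I) := by
    intro p
    rw [← Complex.exp_add]
    congr 1
    rw [inner_add_left, inner_sub_left, inner_sub_right, real_inner_smul_left, real_inner_smul_left,
      real_inner_smul_right]
    push_cast
    ring
  simp_rw [h1]
  rw [integral_prod_mul (μ := stdGaussian V) (ν := gaussianReal 0 1)
    (fun x : V => Complex.exp ((inner ℝ x (t - inner ℝ u t • u) : ℝ) * Complex.I))
    (fun y : ℝ => Complex.exp ((inner ℝ u t : ℝ) * (y : ℝ) * Complex.I)),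
    ← charFun_apply, ← charFun_apply_real, charFun_stdGaussian, charFun_gaussianReal,
    ← Complex.exp_add]
  congr 1
  have h2 : ‖t - inner ℝ u t • u‖ ^ 2 = ‖t‖ ^ 2 - (inner ℝ u t) ^ 2 := by
    rw [@norm_sub_sq_real, norm_smul, hu, real_inner_smul_right, real_inner_comm t u]
    rw [Real.norm_eq_abs, mul_one, sq_abs]
    ring
  have h3 : ((‖t - inner ℝ u t • u‖ : ℝ) : ℂ) ^ 2 = ((‖t‖ ^ 2 - (inner ℝ u t) ^ 2 : ℝ) : ℂ) := by
    rw [← h2]; push_cast; rfl
  rw [h3]
  push_cast
  ring

/-- integrating out one direction of a standard Gaussian -/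
theorem gauss_dir {u : V} (hu : ‖u‖ = 1) {A : V → ℝ≥0∞} {g : ℝ → ℝ≥0∞}
    (hA : Measurable A) (hg : Measurable g)
    (hA' : ∀ w (t : ℝ), A (w + t • u) = A w)
    {r : ℝ} (hr : 0 < r) (b : ℝ) :
    ∫⁻ w, A w * g (b - r * inner ℝ w u) ∂(stdGaussian V) ≤
      (ENNReal.ofReal (√(2 * Real.pi) * r))⁻¹ * (∫⁻ y, g y) * ∫⁻ w, A w ∂(stdGaussian V) := by
  have hmeas : Measurable fun w : V => A w * g (b - r * inner ℝ w u) := by
    apply hA.mul (hg.comp _)
    have : Continuous fun w : V => b - r * inner ℝ w u := by fun_prop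
    exact this.measurable
  have h1 : ∫⁻ w, A w * g (b - r * inner ℝ w u) ∂(stdGaussian V) =
      ∫⁻ p : V × ℝ, A p.1 * g (b - r * p.2) ∂((stdGaussian V).prod (gaussianReal 0 1)) := by
    conv_lhs => rw [← gauss_split hu]
    rw [lintegral_map hmeas (measurable_split u)]
    congr 1; ext p
    have e1 : A (p.1 - inner ℝ p.1 u • u + p.2 • u) = A p.1 := by
      have := hA' p.1 (p.2 - inner ℝ p.1 u)
      rw [← this, sub_smul]
      congr 1; abel
    have e2 : inner ℝ (p.1 - inner ℝ p.1 u • u + p.2 • u) u = p.2 := by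
      rw [inner_add_left, inner_sub_left, real_inner_smul_left, real_inner_smul_left,
        real_inner_self_eq_norm_sq, hu]
      ring
    rw [e1, e2]
  have h2 : ∫⁻ t, g (b - r * t) ∂(gaussianReal 0 1) ≤
      (ENNReal.ofReal (√(2 * Real.pi) * r))⁻¹ * ∫⁻ y, g y := by
    have hgm : Measurable fun t : ℝ => g (b - r * t) := hg.comp (by fun_prop)
    rw [gaussianReal_of_var_ne_zero _ one_ne_zero,
      lintegral_withDensity_eq_lintegral_mul _ (measurable_gaussianPDF 0 1) hgm]
    have h3 : ∀ t, (gaussianPDF 0 1 * fun t => g (b - r * t)) t ≤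
        (ENNReal.ofReal (√(2 * Real.pi)))⁻¹ * g (b - r * t) := by
      intro t
      rw [Pi.mul_apply]
      gcongr
      rw [gaussianPDF, ← ENNReal.ofReal_inv_of_pos (by positivity)]
      apply ENNReal.ofReal_le_ofReal
      rw [gaussianPDFReal]
      simp only [NNReal.coe_one, mul_one, sub_zero]
      have : Real.exp (-t ^ 2 / 2) ≤ 1 := by
        rw [Real.exp_le_one_iff]
        nlinarith [sq_nonneg t]
      exact mul_le_of_le_one_right (by positivity) this
    refine (lintegral_mono h3).trans ?_
    rw [lintegral_const_mul _ hgm]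
    have h4 : ∫⁻ t, g (b - r * t) = (ENNReal.ofReal r)⁻¹ * ∫⁻ y, g y := by
      have h5 : Measure.map (fun t => b - r * t) volume = ENNReal.ofReal |r⁻¹| • volume := by
        have e0 : (fun t => b - r * t) = (fun y => b - y) ∘ (fun t => r * t) := rfl
        rw [e0, ← Measure.map_map (by fun_prop) (by fun_prop), Real.map_volume_mul_left hr.ne',
          Measure.map_smul, (Measure.measurePreserving_sub_left volume b).map_eq]
      rw [← lintegral_map hg (by fun_prop), h5, lintegral_smul_measure, smul_eq_mul,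
        abs_of_pos (inv_pos.2 hr), ENNReal.ofReal_inv_of_pos hr]
    rw [h4, ← mul_assoc]
    gcongr
    rw [ENNReal.ofReal_mul (by positivity), ENNReal.mul_inv]
    · left; positivity
    · left; exact ENNReal.ofReal_ne_top
  have h7 : Measurable fun p : V × ℝ => A p.1 * g (b - r * p.2) :=
    (hA.comp measurable_fst).mul (hg.comp (by fun_prop : Measurable fun p : V × ℝ => b - r * p.2))
  rw [h1, lintegral_prod _ h7.aemeasurable]
  have h6 : ∀ x : V, ∫⁻ y, A (x, y).1 * g (b - r * (x, y).2) ∂(gaussianReal 0 1) =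
      A x * ∫⁻ y, g (b - r * y) ∂(gaussianReal 0 1) := by
    intro x
    have h8 : Measurable fun y : ℝ => g (b - r * y) :=
      hg.comp (by fun_prop : Measurable fun y : ℝ => b - r * y)
    exact lintegral_const_mul (A x) h8
  simp_rw [h6]
  rw [lintegral_mul_const _ hA, mul_comm]
  gcongr

/-- integrand of the one-row kernel of a list of points -/
noncomputable def kapI (v : ℝ≥0) (L : List V) (p : V × ℝ) : ℝ≥0∞ :=
  (L.map fun s => gaussianPDF (inner ℝ p.1 s) v p.2).prod

omit [FiniteDimensional ℝ V] [MeasurableSpace V] [BorelSpace V] in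
lemma kapI_cons (v : ℝ≥0) (s : V) (L : List V) (p : V × ℝ) :
    kapI v (s :: L) p = gaussianPDF (inner ℝ p.1 s) v p.2 * kapI v L p := by
  simp [kapI]

lemma measurable_gpdf (v : ℝ≥0) :
    Measurable fun q : V × V × ℝ => gaussianPDF (inner ℝ q.2.1 q.1) v q.2.2 := by
  have h1 : Measurable fun q : V × V × ℝ => (inner ℝ q.2.1 q.1, v, q.2.2) := by
    refine Measurable.prodMk ?_ (Measurable.prodMk measurable_const (by fun_prop))
    have : Continuous fun q : V × V × ℝ => inner ℝ q.2.1 q.1 := by fun_prop
    exact this.measurable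
  exact measurable_uncurry_gaussianPDF.comp h1

lemma measurable_kapI (v : ℝ≥0) (L : List V) : Measurable (kapI v L) := by
  induction L with
  | nil =>
    have h1 : kapI v ([] : List V) = fun _ => 1 := by ext p; simp [kapI]
    rw [h1]; exact measurable_const
  | cons s L ih =>
    have h1 : kapI v (s :: L) = fun p => gaussianPDF (inner ℝ p.1 s) v p.2 * kapI v L p := by
      ext p; exact kapI_cons v s L p
    rw [h1]
    exact ((measurable_gpdf v).comp (measurable_prodMk_left (x := s))).mul ih

omit [FiniteDimensional ℝ V] [MeasurableSpace V] [BorelSpace V] in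
lemma kapI_ne_top (v : ℝ≥0) (L : List V) (p : V × ℝ) : kapI v L p ≠ ∞ := by
  induction L with
  | nil => simp [kapI]
  | cons s L ih => rw [kapI_cons]; exact ENNReal.mul_ne_top gaussianPDF_ne_top ih

omit [FiniteDimensional ℝ V] [MeasurableSpace V] [BorelSpace V] in
lemma kapI_pos {v : ℝ≥0} (hv : v ≠ 0) (L : List V) (p : V × ℝ) : 0 < kapI v L p := by
  induction L with
  | nil => simp [kapI]
  | cons s L ih => rw [kapI_cons]; exact ENNReal.mul_pos (gaussianPDF_pos _ hv _).ne' ih.ne'

/-- one-row kernel of a list of points -/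
noncomputable def kap (v : ℝ≥0) (L : List V) : ℝ≥0∞ :=
  ∫⁻ p : V × ℝ, kapI v L p ∂((stdGaussian V).prod volume)

theorem kap_singleton {v : ℝ≥0} (hv : v ≠ 0) (s : V) : kap v [s] = 1 := by
  rw [kap, lintegral_prod _ (measurable_kapI v _).aemeasurable]
  simp only [kapI, List.map_cons, List.map_nil, List.prod_cons, List.prod_nil, mul_one]
  simp_rw [lintegral_gaussianPDF_eq_one _ hv]
  simp

omit [FiniteDimensional ℝ V] [MeasurableSpace V] [BorelSpace V] in
lemma kapI_translate (v : ℝ≥0) (L : List V) (p0 w : V) (y : ℝ) :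
    kapI v (L.map fun x => x - p0) (w, y) = kapI v L (w, y + inner ℝ w p0) := by
  simp only [kapI, List.map_map, Function.comp_def]
  congr 1
  apply List.map_congr_left
  intro x _
  rw [gaussianPDF, gaussianPDF, gaussianPDFReal_add, inner_sub_right]

lemma kap_translate (v : ℝ≥0) (L : List V) (p0 : V) :
    kap v (L.map fun x => x - p0) = kap v L := by
  rw [kap, kap, lintegral_prod _ (measurable_kapI v _).aemeasurable,
    lintegral_prod _ (measurable_kapI v _).aemeasurable]
  congr 1; ext w
  simp_rw [kapI_translate]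
  exact lintegral_add_right_eq_self (fun y => kapI v L (w, y)) _

lemma kap_ne_zero {v : ℝ≥0} (hv : v ≠ 0) (L : List V) : kap v L ≠ 0 := by
  intro h
  rw [kap, lintegral_eq_zero_iff (measurable_kapI v L)] at h
  have h1 : ∀ᵐ p : V × ℝ ∂((stdGaussian V).prod volume), False := by
    filter_upwards [h] with p hp
    exact (kapI_pos hv L p).ne' hp
  rw [Filter.eventually_false_iff_eq_bot, ae_eq_bot] at h1
  have h2 : ((stdGaussian V).prod (volume : Measure ℝ)) (Set.univ ×ˢ Set.univ) = 0 := by
    rw [h1]; simp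
  rw [Measure.prod_prod] at h2
  simp at h2

/-- the case where the first point is orthogonal to the others -/
lemma kap_cons_orth {v : ℝ≥0} (hv : v ≠ 0) {u : V} (hu : ‖u‖ = 1) {r : ℝ} (hr : 0 < r)
    (L : List V) (hL : ∀ x ∈ L, inner ℝ u x = 0) :
    kap v ((r • u) :: L) ≤ (ENNReal.ofReal (√(2 * Real.pi) * r))⁻¹ * kap v L := by
  rw [kap, lintegral_prod_symm _ (measurable_kapI v _).aemeasurable, kap,
    lintegral_prod_symm _ (measurable_kapI v _).aemeasurable, ← lintegral_const_mul]
  · apply lintegral_mono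
    intro y
    have h1 := gauss_dir hu (A := fun w => kapI v L (w, y)) (g := gaussianPDF 0 v)
      ((measurable_kapI v L).comp measurable_prodMk_right) (measurable_gaussianPDF 0 v)
      (by
        intro w t
        simp only [kapI]
        congr 1
        apply List.map_congr_left
        intro x hx
        rw [inner_add_left, real_inner_smul_left, hL x hx, mul_zero, add_zero]) hr y
    rw [lintegral_gaussianPDF_eq_one _ hv, mul_one] at h1
    refine le_trans (le_of_eq (lintegral_congr fun w => ?_)) h1
    rw [kapI_cons, mul_comm, gaussianPDF, gaussianPDF, gaussianPDFReal_sub, real_inner_smul_right,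
      zero_add]
  · exact (measurable_kapI v L).lintegral_prod_left'

theorem kap_cons_le {v : ℝ≥0} (hv : v ≠ 0) (s : V) (L : List V) (hL : L ≠ []) :
    kap v (s :: L) ≤
      (ENNReal.ofReal (√(2 * Real.pi) * Metric.infDist s (affineSpan ℝ {x | x ∈ L})))⁻¹ * kap v L := by
  set H := affineSpan ℝ {x | x ∈ L} with hH
  rcases (Metric.infDist_nonneg (s := (H : Set V)) (x := s)).eq_or_lt with h0 | h0
  · rw [← h0]
    simp [ENNReal.top_mul (kap_ne_zero hv L)]
  · have hne : ({x | x ∈ L} : Set V).Nonempty := by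
      obtain ⟨x, hx⟩ := List.exists_mem_of_ne_nil L hL
      exact ⟨x, hx⟩
    have : Nonempty H := (hne.mono (subset_affineSpan ℝ _)).to_subtype
    set p0 : V := (EuclideanGeometry.orthogonalProjection H s : V) with hp0
    set r := Metric.infDist s (H : Set V) with hr
    have hr' : ‖s - p0‖ = r := by
      rw [← dist_eq_norm, hp0, EuclideanGeometry.dist_orthogonalProjection_eq_infDist]
    set u := (r⁻¹) • (s - p0) with hu
    have hu1 : ‖u‖ = 1 := by
      rw [hu, norm_smul, hr', norm_inv, Real.norm_eq_abs, abs_of_pos h0, inv_mul_cancel₀ h0.ne']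
    have hs : r • u = s - p0 := by
      rw [hu, smul_smul, mul_inv_cancel₀ h0.ne', one_smul]
    have horth : ∀ x ∈ L.map (fun x => x - p0), inner ℝ u x = 0 := by
      intro x hx
      obtain ⟨x', hx', rfl⟩ := List.mem_map.1 hx
      rw [hu, real_inner_smul_left]
      have e1 : s -ᵥ p0 ∈ H.directionᗮ :=
        EuclideanGeometry.vsub_orthogonalProjection_mem_direction_orthogonal H s
      have e2 : x' -ᵥ p0 ∈ H.direction :=
        AffineSubspace.vsub_mem_direction (subset_affineSpan ℝ _ hx')
          (EuclideanGeometry.orthogonalProjection_mem s)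
      have e3 := (Submodule.mem_orthogonal' _ _).1 e1 _ e2
      rw [vsub_eq_sub, vsub_eq_sub] at e3
      rw [e3, mul_zero]
    have h1 := kap_cons_orth hv hu1 h0 (L.map fun x => x - p0) horth
    rw [kap_translate, hs] at h1
    have h2 := kap_translate v (s :: L) p0
    rw [List.map_cons] at h2
    rw [← h2]
    exact h1

end Vale.Agent.P309
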