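import Vale.Agent.P309.Gauss

open MeasureTheory ProbabilityTheory
open scoped ENNReal NNReal

namespace Vale.Agent.P309

variable {V : Type*} [NormedAddCommGroup V] [InnerProductSpace ℝ V] [FiniteDimensional ℝ V]
  [MeasurableSpace V] [BorelSpace V] {ι : Type*} [Fintype ι]

/-- the reference measure on `ι` rows and labels -/
noncomputable abbrev lam (V : Type*) [NormedAddCommGroup V] [InnerProductSpace ℝ V]
    [FiniteDimensional ℝ V] [MeasurableSpace V] [BorelSpace V] (ι : Type*) [Fintype ι] :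
    Measure (ι → V × ℝ) :=
  Measure.pi fun _ : ι => (stdGaussian V).prod (volume : Measure ℝ)

/-- kernel of a list -/
noncomputable def KL (v : ℝ≥0) (L : List V) (z : ι → V × ℝ) : ℝ≥0∞ := ∏ j, kapI v L (z j)

lemma measurable_KL (v : ℝ≥0) (L : List V) : Measurable (KL (ι := ι) v L) :=
  Finset.measurable_prod _ fun j _ => (measurable_kapI v L).comp (measurable_pi_apply j)

lemma lintegral_KL (v : ℝ≥0) (L : List V) :
    ∫⁻ z, KL v L z ∂(lam V ι) = kap v L ^ Fintype.card ι :=
  lintegral_pi_prod_pow _ _ (measurable_kapI v L)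

omit [FiniteDimensional ℝ V] [MeasurableSpace V] [BorelSpace V] in
lemma KL_cons (v : ℝ≥0) (s : V) (L : List V) (z : ι → V × ℝ) :
    KL v (s :: L) z = KL v [s] z * KL v L z := by
  simp only [KL, kapI_cons, Finset.prod_mul_distrib]
  congr 1
  simp [kapI]

lemma measurable_KL_single (v : ℝ≥0) :
    Measurable fun p : V × (ι → V × ℝ) => KL v [p.1] p.2 := by
  have h1 : (fun p : V × (ι → V × ℝ) => KL v [p.1] p.2) =
      fun p => ∏ j, gaussianPDF (inner ℝ (p.2 j).1 p.1) v (p.2 j).2 := by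
    ext p
    simp [KL, kapI]
  rw [h1]
  refine Finset.measurable_prod _ fun j _ => ?_
  exact (measurable_gpdf v).comp (f := fun p : V × (ι → V × ℝ) => (p.1, p.2 j)) (by fun_prop)

lemma measurable_KL_swap (v : ℝ≥0) :
    Measurable fun p : (ι → V × ℝ) × V => KL v [p.2] p.1 :=
  Measurable.comp (g := fun p : V × (ι → V × ℝ) => KL v [p.1] p.2) (f := Prod.swap)
    (measurable_KL_single v) measurable_swap

lemma measurable_KL_left (v : ℝ≥0) (z : ι → V × ℝ) : Measurable fun s : V => KL v [s] z :=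
  Measurable.comp (g := fun p : V × (ι → V × ℝ) => KL v [p.1] p.2) (f := fun s => (s, z))
    (measurable_KL_single v) measurable_prodMk_right

/-- the smoothed density -/
noncomputable def Fv (ν : Measure V) (v : ℝ≥0) (z : ι → V × ℝ) : ℝ≥0∞ := ∫⁻ s, KL v [s] z ∂ν

lemma measurable_Fv (ν : Measure V) [SFinite ν] (v : ℝ≥0) : Measurable (Fv (ι := ι) ν v) :=
  (measurable_KL_single v).lintegral_prod_left'

lemma lintegral_step {ν : Measure V} [IsProbabilityMeasure ν] {q : ℕ} {c : ℝ≥0∞}
    (hν : ∀ L : List V, L ≠ [] → L.length < q →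
      ∫⁻ s, ((ENNReal.ofReal (√(2 * Real.pi) * Metric.infDist s (affineSpan ℝ {x | x ∈ L})))⁻¹) ^
        (Fintype.card ι) ∂ν ≤ c) {v : ℝ≥0} (hv : v ≠ 0) (m : ℕ) (L : List V) (hL : L ≠ [])
    (hm : L.length + m ≤ q) :
    ∫⁻ z, KL v L z * Fv ν v z ^ m ∂(lam V ι) ≤ c ^ m * kap v L ^ Fintype.card ι := by
  induction m generalizing L with
  | zero => simp [lintegral_KL]
  | succ m ih =>
    have h1 : ∀ z : ι → V × ℝ, KL v L z * Fv ν v z ^ (m + 1) =
        ∫⁻ s, KL v (s :: L) z * Fv ν v z ^ m ∂ν := by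
      intro z
      have h2 : ∀ s, KL v (s :: L) z * Fv ν v z ^ m = KL v [s] z * (KL v L z * Fv ν v z ^ m) := by
        intro s
        rw [KL_cons]; ring
      simp_rw [h2]
      rw [lintegral_mul_const _ (measurable_KL_left v z), ← Fv]
      ring
    simp_rw [h1]
    rw [lintegral_lintegral_swap]
    · calc ∫⁻ s, ∫⁻ z, KL v (s :: L) z * Fv ν v z ^ m ∂(lam V ι) ∂ν
          ≤ ∫⁻ s, c ^ m * (((ENNReal.ofReal (√(2 * Real.pi) *
              Metric.infDist s (affineSpan ℝ {x | x ∈ L})))⁻¹) ^ (Fintype.card ι) *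
                kap v L ^ Fintype.card ι) ∂ν := by
            apply lintegral_mono
            intro s
            refine (ih (s :: L) (by simp) (by simp; omega)).trans ?_
            beta_reduce
            rw [← mul_pow]
            gcongr
            exact kap_cons_le hv s L hL
        _ ≤ c ^ (m + 1) * kap v L ^ Fintype.card ι := by
            have hmeas : Measurable fun s : V => ((ENNReal.ofReal (√(2 * Real.pi) *
              Metric.infDist s (affineSpan ℝ {x | x ∈ L})))⁻¹) ^ (Fintype.card ι) := by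
              refine Measurable.pow_const (Measurable.inv (ENNReal.measurable_ofReal.comp ?_)) _
              exact (Metric.continuous_infDist_pt _).measurable.const_mul _
            rw [lintegral_const_mul _ (hmeas.mul_const _), lintegral_mul_const _ hmeas, pow_succ,
              mul_assoc]
            gcongr
            exact hν L hL (by omega)
    · have h3 : (Function.uncurry fun (z : ι → V × ℝ) (s : V) => KL v (s :: L) z * Fv ν v z ^ m) =
          fun p : (ι → V × ℝ) × V => KL v [p.2] p.1 * KL v L p.1 * Fv ν v p.1 ^ m := by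
        ext p
        simp only [Function.uncurry]
        rw [KL_cons]
      rw [h3]
      apply Measurable.aemeasurable
      exact Measurable.mul (Measurable.mul (measurable_KL_swap v)
        ((measurable_KL v L).comp measurable_fst))
        (((measurable_Fv ν v).comp measurable_fst).pow_const m)

lemma lintegral_Fv_pow {ν : Measure V} [IsProbabilityMeasure ν] {q : ℕ} {c : ℝ≥0∞}
    (hν : ∀ L : List V, L ≠ [] → L.length < q + 1 →
      ∫⁻ s, ((ENNReal.ofReal (√(2 * Real.pi) * Metric.infDist s (affineSpan ℝ {x | x ∈ L})))⁻¹) ^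
        (Fintype.card ι) ∂ν ≤ c) {v : ℝ≥0} (hv : v ≠ 0) :
    ∫⁻ z, Fv ν v z ^ (q + 1) ∂(lam V ι) ≤ c ^ q := by
  have h1 : ∀ z : ι → V × ℝ, Fv ν v z ^ (q + 1) = ∫⁻ s, KL v [s] z * Fv ν v z ^ q ∂ν := by
    intro z
    rw [lintegral_mul_const _ (measurable_KL_left v z), ← Fv]
    ring
  simp_rw [h1]
  rw [lintegral_lintegral_swap]
  · calc ∫⁻ s, ∫⁻ z, KL v [s] z * Fv ν v z ^ q ∂(lam V ι) ∂ν ≤ ∫⁻ s, c ^ q ∂ν := by
          apply lintegral_mono
          intro s
          refine (lintegral_step hν hv q [s] (by simp) (by simp; omega)).trans ?_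
          rw [kap_singleton hv, one_pow, mul_one]
      _ = c ^ q := by simp
  · have h3 : (Function.uncurry fun (z : ι → V × ℝ) (s : V) => KL v [s] z * Fv ν v z ^ q) =
        fun p : (ι → V × ℝ) × V => KL v [p.2] p.1 * Fv ν v p.1 ^ q := by
      ext p; rfl
    rw [h3]
    apply Measurable.aemeasurable
    exact Measurable.mul (measurable_KL_swap v)
      (((measurable_Fv ν v).comp measurable_fst).pow_const q)

/-- Hölder -/
lemma holder_pow {α : Type*} [MeasurableSpace α] (μ : Measure α) {F : α → ℝ≥0∞}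
    (hF : Measurable F) (A : Set α) (q : ℕ) :
    (∫⁻ z in A, F z ∂μ) ^ (q + 1) ≤ μ A ^ q * ∫⁻ z, F z ^ (q + 1) ∂μ := by
  rcases Nat.eq_zero_or_pos q with rfl | hq
  · simpa using setLIntegral_le_lintegral A F
  · have hq1 : (0 : ℝ) < q := by exact_mod_cast hq
    have hconj : ((q : ℝ) + 1).HolderConjugate (((q : ℝ) + 1) / q) := by
      rw [Real.holderConjugate_iff]
      refine ⟨by linarith, ?_⟩
      field_simp
      ring
    have h1 := ENNReal.lintegral_mul_le_Lp_mul_Lq (μ.restrict A) hconj (f := F) (g := fun _ => 1)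
      hF.aemeasurable measurable_const.aemeasurable
    have h2 : (∫⁻ z in A, F z ∂μ) ≤
        (∫⁻ z in A, F z ^ ((q : ℝ) + 1) ∂μ) ^ (1 / ((q : ℝ) + 1)) *
          (μ A) ^ (1 / (((q : ℝ) + 1) / q)) := by
      simpa using h1
    calc (∫⁻ z in A, F z ∂μ) ^ (q + 1)
        ≤ ((∫⁻ z in A, F z ^ ((q : ℝ) + 1) ∂μ) ^ (1 / ((q : ℝ) + 1)) *
          (μ A) ^ (1 / (((q : ℝ) + 1) / q))) ^ (q + 1) := by gcongr
      _ = μ A ^ q * ∫⁻ z in A, F z ^ ((q : ℝ) + 1) ∂μ := by
          rw [mul_pow, ← ENNReal.rpow_mul_natCast, ← ENNReal.rpow_mul_natCast]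
          have e1 : 1 / ((q : ℝ) + 1) * ((q + 1 : ℕ) : ℝ) = 1 := by
            push_cast; field_simp
          have e2 : 1 / (((q : ℝ) + 1) / q) * ((q + 1 : ℕ) : ℝ) = (q : ℝ) := by
            push_cast; field_simp
          rw [e1, e2, ENNReal.rpow_one, ENNReal.rpow_natCast, mul_comm]
      _ ≤ μ A ^ q * ∫⁻ z, F z ^ (q + 1) ∂μ := by
          gcongr
          · exact Measure.restrict_le_self
          · exact le_of_eq (by rw [← ENNReal.rpow_natCast]; push_cast; rfl)

omit [FiniteDimensional ℝ V] in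
lemma measurable_row (s : V) (η : ℝ≥0) :
    Measurable fun p : V × ℝ => (p.1, inner ℝ p.1 s + η * p.2) := by
  have : Continuous fun p : V × ℝ => (p.1, inner ℝ p.1 s + η * p.2) := by fun_prop
  exact this.measurable

/-- one noisy row -/
lemma map_row (s : V) {η : ℝ≥0} (hη : η ≠ 0) :
    ((stdGaussian V).prod (gaussianReal 0 1)).map
      (fun p : V × ℝ => (p.1, inner ℝ p.1 s + η * p.2)) =
      ((stdGaussian V).prod (volume : Measure ℝ)).withDensity (kapI (η ^ 2) [s]) := by
  ext B hB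
  rw [Measure.map_apply (measurable_row s η) hB, withDensity_apply _ hB, ← lintegral_indicator hB,
    lintegral_prod _ ((measurable_kapI (η ^ 2) [s]).indicator hB).aemeasurable,
    Measure.prod_apply (measurable_row s η hB)]
  refine lintegral_congr fun w => ?_
  have h1 : (gaussianReal 0 1).map (fun t => inner ℝ w s + η * t) =
      gaussianReal (inner ℝ w s) (η ^ 2) := by
    have e0 : (fun t : ℝ => inner ℝ w s + η * t) = (fun y => inner ℝ w s + y) ∘ fun t => η * t :=
      rfl
    rw [e0, ← Measure.map_map (by fun_prop) (by fun_prop), gaussianReal_map_const_mul,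
      gaussianReal_map_const_add]
    congr 1
    · ring
    · rw [mul_one]; ext; simp
  have hBw : MeasurableSet {y | (w, y) ∈ B} := measurable_prodMk_left hB
  have h2 : Prod.mk w ⁻¹' ((fun p : V × ℝ => (p.1, inner ℝ p.1 s + η * p.2)) ⁻¹' B) =
      (fun t : ℝ => inner ℝ w s + η * t) ⁻¹' {y | (w, y) ∈ B} := by
    ext t; simp
  rw [h2, ← Measure.map_apply (by fun_prop) hBw, h1,
    gaussianReal_of_var_ne_zero _ (pow_ne_zero 2 hη), withDensity_apply _ hBw,
    ← lintegral_indicator hBw]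
  refine lintegral_congr fun y => ?_
  by_cases hy : (w, y) ∈ B
  · rw [Set.indicator_of_mem (by exact hy), Set.indicator_of_mem hy]
    simp [kapI]
  · rw [Set.indicator_of_notMem (by exact hy), Set.indicator_of_notMem hy]

lemma map_rows (s : V) {η : ℝ≥0} (hη : η ≠ 0) :
    (Measure.pi fun _ : ι => (stdGaussian V).prod (gaussianReal 0 1)).map
      (fun (W : ι → V × ℝ) j => ((W j).1, inner ℝ (W j).1 s + η * (W j).2)) =
      (lam V ι).withDensity (KL (η ^ 2) [s]) := by
  have h0 : IsProbabilityMeasure (((stdGaussian V).prod (gaussianReal 0 1)).map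
      (fun p : V × ℝ => (p.1, inner ℝ p.1 s + η * p.2))) :=
    Measure.isProbabilityMeasure_map (measurable_row s η).aemeasurable
  have h1 := Measure.pi_map_pi (ι := ι) (μ := fun _ => (stdGaussian V).prod (gaussianReal 0 1))
    (f := fun _ => fun p : V × ℝ => (p.1, inner ℝ p.1 s + η * p.2))
    (fun _ => (measurable_row s η).aemeasurable)
  rw [h1]
  rw [map_row s hη] at h0 ⊢
  exact pi_withDensity _ _ (measurable_kapI _ _)

lemma measurable_rows (η : ℝ≥0) :
    Measurable fun (p : V × (ι → V × ℝ)) (j : ι) =>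
      (((p.2 j).1, inner ℝ (p.2 j).1 p.1 + η * (p.2 j).2) : V × ℝ) := by
  refine measurable_pi_lambda _ fun j => ?_
  have : Continuous fun (p : V × (ι → V × ℝ)) =>
      (((p.2 j).1, inner ℝ (p.2 j).1 p.1 + η * (p.2 j).2) : V × ℝ) := by fun_prop
  exact this.measurable

lemma noisy_le {ν : Measure V} [IsProbabilityMeasure ν] {q : ℕ} {c : ℝ≥0∞}
    (hν : ∀ L : List V, L ≠ [] → L.length < q + 1 →
      ∫⁻ s, ((ENNReal.ofReal (√(2 * Real.pi) * Metric.infDist s (affineSpan ℝ {x | x ∈ L})))⁻¹) ^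
        (Fintype.card ι) ∂ν ≤ c) {η : ℝ≥0} (hη : η ≠ 0) {A : Set (ι → V × ℝ)}
    (hA : MeasurableSet A) :
    ((ν.prod (Measure.pi fun _ : ι => (stdGaussian V).prod (gaussianReal 0 1)))
      {p : V × (ι → V × ℝ) | (fun j => (((p.2 j).1, inner ℝ (p.2 j).1 p.1 + η * (p.2 j).2) : V × ℝ))
        ∈ A}) ^ (q + 1) ≤ (c * lam V ι A) ^ q := by
  have h1 : (ν.prod (Measure.pi fun _ : ι => (stdGaussian V).prod (gaussianReal 0 1)))
      {p : V × (ι → V × ℝ) | (fun j => (((p.2 j).1, inner ℝ (p.2 j).1 p.1 + η * (p.2 j).2) : V × ℝ))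
        ∈ A} = ∫⁻ z in A, Fv ν (η ^ 2) z ∂(lam V ι) := by
    have hm : MeasurableSet {p : V × (ι → V × ℝ) |
        (fun j => (((p.2 j).1, inner ℝ (p.2 j).1 p.1 + η * (p.2 j).2) : V × ℝ)) ∈ A} :=
      measurable_rows η hA
    rw [Measure.prod_apply hm]
    simp only [Fv]
    rw [lintegral_lintegral_swap]
    · refine lintegral_congr fun s => ?_
      rw [← withDensity_apply _ hA, ← map_rows s hη, Measure.map_apply _ hA]
      · rfl
      · exact (measurable_rows η).comp (measurable_prodMk_left (x := s))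
    · exact (measurable_KL_swap (η ^ 2)).aemeasurable
  rw [h1]
  refine (holder_pow _ (measurable_Fv ν _) A q).trans ?_
  rw [mul_pow, mul_comm]
  gcongr
  exact lintegral_Fv_pow hν (pow_ne_zero 2 hη)

lemma open_le {ν : Measure V} [IsProbabilityMeasure ν] {q : ℕ} {c : ℝ≥0∞}
    (hν : ∀ L : List V, L ≠ [] → L.length < q + 1 →
      ∫⁻ s, ((ENNReal.ofReal (√(2 * Real.pi) * Metric.infDist s (affineSpan ℝ {x | x ∈ L})))⁻¹) ^
        (Fintype.card ι) ∂ν ≤ c) {U : Set (ι → V × ℝ)} (hU : IsOpen U) :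
    ((ν.prod (Measure.pi fun _ : ι => (stdGaussian V).prod (gaussianReal 0 1)))
      {p : V × (ι → V × ℝ) | (fun j => (((p.2 j).1, inner ℝ (p.2 j).1 p.1) : V × ℝ))
        ∈ U}) ^ (q + 1) ≤ (c * lam V ι U) ^ q := by
  set P := ν.prod (Measure.pi fun _ : ι => (stdGaussian V).prod (gaussianReal 0 1)) with hP
  set η : ℕ → ℝ≥0 := fun n => 1 / ((n : ℝ≥0) + 1) with hη
  set En : ℕ → Set (V × (ι → V × ℝ)) := fun n =>
    {p | (fun j => (((p.2 j).1, inner ℝ (p.2 j).1 p.1 + η n * (p.2 j).2) : V × ℝ)) ∈ U} with hEn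
  set S : ℕ → Set (V × (ι → V × ℝ)) := fun m => ⋂ n ≥ m, En n with hS
  have hmono : Monotone S := by
    intro a b hab p hp
    simp only [hS, Set.mem_iInter] at hp ⊢
    intro n hn
    exact hp n (le_trans hab hn)
  have hsub : {p : V × (ι → V × ℝ) | (fun j => (((p.2 j).1, inner ℝ (p.2 j).1 p.1) : V × ℝ))
      ∈ U} ⊆ ⋃ m, S m := by
    intro p hp
    have ht : Filter.Tendsto (fun n : ℕ => fun j =>
        (((p.2 j).1, inner ℝ (p.2 j).1 p.1 + η n * (p.2 j).2) : V × ℝ)) Filter.atTop
        (nhds (fun j => (((p.2 j).1, inner ℝ (p.2 j).1 p.1) : V × ℝ))) := by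
      rw [tendsto_pi_nhds]
      intro j
      have h3 : Filter.Tendsto (fun n : ℕ => ((η n : ℝ≥0) : ℝ)) Filter.atTop (nhds 0) := by
        have := tendsto_one_div_add_atTop_nhds_zero_nat (𝕜 := ℝ)
        simpa [hη] using this
      have h4 : Filter.Tendsto (fun n : ℕ => inner ℝ (p.2 j).1 p.1 + ((η n : ℝ≥0) : ℝ) * (p.2 j).2)
          Filter.atTop (nhds (inner ℝ (p.2 j).1 p.1 + 0 * (p.2 j).2)) :=
        tendsto_const_nhds.add (h3.mul_const _)
      rw [zero_mul, add_zero] at h4
      exact tendsto_const_nhds.prodMk_nhds h4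
    have h5 := ht.eventually (hU.mem_nhds hp)
    obtain ⟨m, hm⟩ := Filter.eventually_atTop.1 h5
    rw [Set.mem_iUnion]
    refine ⟨m, ?_⟩
    simp only [hS, Set.mem_iInter]
    intro n hn
    exact hm n hn
  have hb : ∀ n, P (En n) ≤ ((c * lam V ι U) ^ q) ^ (((q + 1 : ℕ) : ℝ)⁻¹) := by
    intro n
    have hηn : η n ≠ 0 := by simp [hη]
    have h6 := noisy_le hν hηn hU.measurableSet
    rw [ENNReal.le_rpow_inv_iff (by positivity), ENNReal.rpow_natCast]
    exact h6
  have h7 : P {p : V × (ι → V × ℝ) | (fun j => (((p.2 j).1, inner ℝ (p.2 j).1 p.1) : V × ℝ))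
      ∈ U} ≤ ((c * lam V ι U) ^ q) ^ (((q + 1 : ℕ) : ℝ)⁻¹) := by
    refine (measure_mono hsub).trans ?_
    rw [hmono.measure_iUnion]
    refine iSup_le fun m => ?_
    refine (measure_mono ?_).trans (hb m)
    intro p hp
    simp only [hS, Set.mem_iInter] at hp
    exact hp m le_rfl
  rw [ENNReal.le_rpow_inv_iff (by positivity), ENNReal.rpow_natCast] at h7
  exact h7

lemma map_fst_rows :
    (Measure.pi fun _ : ι => (stdGaussian V).prod (gaussianReal 0 1)).map
      (fun (W : ι → V × ℝ) j => (W j).1) = Measure.pi fun _ : ι => stdGaussian V := by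
  have h1 : ((stdGaussian V).prod (gaussianReal 0 1)).map Prod.fst = stdGaussian V := by
    rw [Measure.map_fst_prod]; simp
  have h0 : SigmaFinite (((stdGaussian V).prod (gaussianReal 0 1)).map Prod.fst) := by
    rw [h1]; infer_instance
  have h2 := Measure.pi_map_pi (ι := ι) (μ := fun _ => (stdGaussian V).prod (gaussianReal 0 1))
    (f := fun _ => fun p : V × ℝ => p.1) (hμ := fun _ => h0)
    (fun _ => measurable_fst.aemeasurable)
  rw [h2]
  congr 1
  ext1 _
  exact h1

/-- The `L^q` estimate. -/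
theorem radon_Lq {ν : Measure V} [IsProbabilityMeasure ν] {q : ℕ} {c : ℝ≥0∞} (hc : c ≠ ∞)
    (hν : ∀ L : List V, L ≠ [] → L.length < q + 1 →
      ∫⁻ s, ((ENNReal.ofReal (√(2 * Real.pi) * Metric.infDist s (affineSpan ℝ {x | x ∈ L})))⁻¹) ^
        (Fintype.card ι) ∂ν ≤ c) {A : Set (ι → V × ℝ)} (hA : MeasurableSet A) :
    (∫⁻ s, (Measure.pi fun _ : ι => stdGaussian V)
      {X : ι → V | (fun j => ((X j, inner ℝ (X j) s) : V × ℝ)) ∈ A} ∂ν) ^ (q + 1) ≤
        (c * lam V ι A) ^ q := by
  have hmeas : Measurable fun (p : V × (ι → V)) (j : ι) =>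
      ((p.2 j, inner ℝ (p.2 j) p.1) : V × ℝ) := by
    refine measurable_pi_lambda _ fun j => ?_
    have : Continuous fun (p : V × (ι → V)) =>
        ((p.2 j, inner ℝ (p.2 j) p.1) : V × ℝ) := by fun_prop
    exact this.measurable
  have key : ∀ U : Set (ι → V × ℝ), IsOpen U → A ⊆ U →
      (∫⁻ s, (Measure.pi fun _ : ι => stdGaussian V)
        {X : ι → V | (fun j => ((X j, inner ℝ (X j) s) : V × ℝ)) ∈ A} ∂ν) ^ (q + 1) ≤
        (c * lam V ι U) ^ q := by
    intro U hU hAU
    refine le_trans ?_ (open_le hν hU)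
    gcongr
    have hmU : MeasurableSet {p : V × (ι → V × ℝ) |
        (fun j => (((p.2 j).1, inner ℝ (p.2 j).1 p.1) : V × ℝ)) ∈ U} := by
      have := measurable_rows (V := V) (ι := ι) 0 hU.measurableSet
      simpa [Set.preimage] using this
    rw [Measure.prod_apply hmU]
    apply lintegral_mono
    intro s
    beta_reduce
    have hm2 : MeasurableSet {X : ι → V | (fun j => ((X j, inner ℝ (X j) s) : V × ℝ)) ∈ A} :=
      (hmeas.comp (measurable_prodMk_left (x := s))) hA
    rw [← map_fst_rows, Measure.map_apply (by fun_prop) hm2]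
    apply measure_mono
    intro W hW
    exact hAU hW
  have hlim : Filter.Tendsto (fun δ : ℝ≥0∞ => (c * (lam V ι A + δ)) ^ q) (nhdsWithin 0 {0}ᶜ)
      (nhds ((c * (lam V ι A + 0)) ^ q)) := by
    refine Filter.Tendsto.mono_left ?_ nhdsWithin_le_nhds
    have h1 : Continuous fun δ : ℝ≥0∞ => (c * (lam V ι A + δ)) ^ q := by
      refine (ENNReal.continuous_pow q).comp ?_
      exact (ENNReal.continuous_const_mul hc).comp (continuous_const.add continuous_id)
    exact h1.tendsto 0
  rw [add_zero] at hlim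
  refine ge_of_tendsto hlim ?_
  rw [eventually_nhdsWithin_iff]
  refine Filter.Eventually.of_forall fun δ hδ => ?_
  obtain ⟨U, hAU, hU, hUle⟩ := A.exists_isOpen_le_add (lam V ι) (ε := δ) (by simpa using hδ)
  refine (key U hU hAU).trans ?_
  gcongr

end Vale.Agent.P309
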