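import Vale.Agent.P309.AchDef
import Vale.Agent.P309.Ent
import Vale.Agent.P309.Radon
import Vale.Agent.P309.Cover

open MeasureTheory ProbabilityTheory
open scoped ENNReal NNReal

namespace Vale.Agent.P309

variable {d k : ℕ}

lemma measurable_pair (ι : Type*) [Fintype ι] : Measurable fun (p : E d × (ι → E d)) (j : ι) =>
    ((p.2 j, inner ℝ (p.2 j) p.1) : E d × ℝ) := by
  refine measurable_pi_lambda _ fun j => ?_
  have : Continuous fun (p : E d × (ι → E d)) => ((p.2 j, inner ℝ (p.2 j) p.1) : E d × ℝ) := by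
    fun_prop
  exact this.measurable

/-- law of `k` rows with labels -/
noncomputable def rowLaw (d k : ℕ) (s : E d) : Measure (Fin k → E d × ℝ) :=
  (Measure.pi fun _ : Fin k => stdGaussian (E d)).map
    (fun X j => ((X j, inner ℝ (X j) s) : E d × ℝ))

lemma measurable_rowmap (s : E d) :
    Measurable fun (X : Fin k → E d) (j : Fin k) => ((X j, inner ℝ (X j) s) : E d × ℝ) :=
  (measurable_pair (Fin k)).comp (measurable_prodMk_left (x := s))

instance (s : E d) : IsProbabilityMeasure (rowLaw d k s) :=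
  Measure.isProbabilityMeasure_map (measurable_rowmap s).aemeasurable

lemma gk_eq {A : Set (Fin k → E d × ℝ)} (hA : MeasurableSet A) (s : Sph d) :
    gk d k A s = (rowLaw d k s).real A := by
  rw [gk, rowLaw, map_measureReal_apply (measurable_rowmap _) hA]
  rfl

lemma gk_nonneg (A : Set (Fin k → E d × ℝ)) (s : Sph d) : 0 ≤ gk d k A s := measureReal_nonneg

lemma gk_le_one (A : Set (Fin k → E d × ℝ)) (s : Sph d) : gk d k A s ≤ 1 := measureReal_le_one

lemma measurable_gk {A : Set (Fin k → E d × ℝ)} (hA : MeasurableSet A) :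
    Measurable (gk d k A) := by
  have h1 : MeasurableSet {p : E d × (Fin k → E d) |
      (fun j => ((p.2 j, inner ℝ (p.2 j) p.1) : E d × ℝ)) ∈ A} := (measurable_pair (Fin k)) hA
  have h2 := measurable_measure_prodMk_left (ν := Measure.pi fun _ : Fin k => stdGaussian (E d)) h1
  exact (h2.comp measurable_subtype_coe).ennreal_toReal

lemma adm_gk {A : Set (Fin k → E d × ℝ)} (hA : MeasurableSet A) : Adm (gk d k A) where
  meas := measurable_gk hA
  nonneg := gk_nonneg A
  le_one := gk_le_one A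

lemma gk_univ (s : Sph d) : gk d k Set.univ s = 1 := by
  rw [gk_eq MeasurableSet.univ]; simp

lemma gk_mono {A B : Set (Fin k → E d × ℝ)} (h : A ⊆ B) (s : Sph d) :
    gk d k A s ≤ gk d k B s :=
  measureReal_mono (fun _ hX => h hX)

lemma gk_inter_add {A B : Set (Fin k → E d × ℝ)} (hA : MeasurableSet A) (hB : MeasurableSet B)
    (s : Sph d) : gk d k (A ∩ B) s + gk d k (A ∩ Bᶜ) s = gk d k A s := by
  rw [gk_eq (hA.inter hB), gk_eq (hA.inter hB.compl), gk_eq hA, ← Set.sdiff_eq]
  exact measureReal_inter_add_sdiff hB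

lemma sum_gk {O : Type*} [Fintype O] {φ : (Fin k → E d × ℝ) → O}
    (hφ : ∀ o, MeasurableSet (φ ⁻¹' {o})) {B : Set (Fin k → E d × ℝ)} (hB : MeasurableSet B)
    (s : Sph d) : ∑ o, gk d k (φ ⁻¹' {o} ∩ B) s = gk d k B s := by
  have h1 : ∀ o, gk d k (φ ⁻¹' {o} ∩ B) s = (rowLaw d k s).real (φ ⁻¹' {o} ∩ B) :=
    fun o => gk_eq ((hφ o).inter hB) s
  rw [Finset.sum_congr rfl fun o _ => h1 o, gk_eq hB, ← measureReal_biUnion_finset]
  · congr 1
    ext z
    simp
  · intro o _ o' _ hoo'
    rw [Function.onFun, Set.disjoint_left]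
    rintro z ⟨hz, _⟩ ⟨hz', _⟩
    exact hoo' (hz.symm.trans hz')
  · exact fun o _ => (hφ o).inter hB

end Vale.Agent.P309
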