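import Vale.Agent.P309.Base

open MeasureTheory ProbabilityTheory
open scoped ENNReal NNReal

namespace Vale.Agent.P309

variable {d : ℕ}

lemma Ent_indicator {S : Type*} [MeasurableSpace S] (σ : Measure S) (f : S → ℝ)
    {R : Set S} (hR : MeasurableSet R) :
    Ent σ (R.indicator f) = ∫ s in R, f s * Real.log (f s) ∂σ -
      (∫ s in R, f s ∂σ) * Real.log (∫ s in R, f s ∂σ) := by
  rw [Ent, integral_indicator hR, ← integral_indicator (f := fun s => f s * Real.log (f s)) hR]
  congr 2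
  ext s
  by_cases h : s ∈ R
  · simp [h]
  · simp [h]

/-- the quantity controlled on subsets -/
def IneqR (d k q N : ℕ) (I J i : ℕ) (p f : Sph d → ℝ) (R : Set (Sph d)) : Prop :=
  ((d - 1 : ℕ) : ℝ) * I * ∫ s in R, f s * p s ∂(unif d) ≤
    2 * (∫ s in R, f s * Real.log (f s) ∂(unif d) -
      (∫ s in R, f s ∂(unif d)) * Real.log (∫ s, f s ∂(unif d))) -
      ((d - 1 : ℕ) : ℝ) * i * (∫ s in R, f s ∂(unif d)) +
      2 * ((J + 1 : ℕ) * cost k q N + 2 * ((d - 1 : ℕ) : ℝ)) * (∫ s in R, f s ∂(unif d)) +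
      4 * ((∫ s, f s ∂(unif d)) - ∫ s in R, f s ∂(unif d))

/-- the estimate when no thin neighbourhood of a flat is too heavy -/
lemma ineqR_regular [NeZero d] {k q N : ℕ} (hk : 1 ≤ k) (hq : 1 ≤ q) (hN : 1 ≤ N)
    {ε : ℝ} {I J i : ℕ} (hJ : Claim d k q N ε I J i) {O : Type} [Fintype O]
    (hcard : Fintype.card O ≤ N) {φ : (Fin k → E d × ℝ) → O}
    (hφ : ∀ o, MeasurableSet (φ ⁻¹' {o})) {p : O → Sph d → ℝ} (hp : ∀ o, Ach d k N ε J (p o))
    {f : Sph d → ℝ} (hf : Adm f) {c : E d}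
    (hsupp : ∀ s, f s ≠ 0 → dist (s : E d) c ≤ Real.exp (-(i : ℝ)))
    {R : Set (Sph d)} (hR : MeasurableSet R) (hwR : 0 < ∫ s in R, f s ∂(unif d))
    (hreg : ∀ L : List (E d), L ≠ [] → L.length < q + 1 → ∀ l : ℕ, 4 ≤ l →
      ∫ s in R ∩ {s : Sph d | Metric.infDist (s : E d) (affineSpan ℝ {x | x ∈ L}) ≤
        Real.exp (-(i : ℝ)) * Real.exp (-l)}, f s ∂(unif d) ≤
          Real.exp (-(4 * k * l)) * ∫ s, f s ∂(unif d)) :
    IneqR d k q N I J i (fun s => ∑ o, gk d k (φ ⁻¹' {o}) s * p o s) f R := by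
  set w0 := ∫ s, f s ∂(unif d) with hw0'
  set wR := ∫ s in R, f s ∂(unif d) with hwR'
  have hle : wR ≤ w0 := setIntegral_le_integral (hf.integrable _)
    (Filter.Eventually.of_forall hf.nonneg)
  have hw0 : 0 < w0 := lt_of_lt_of_le hwR hle
  set g := R.indicator f with hg
  have hgadm : Adm g := hf.indicator hR
  have hgw : ∫ s, g s ∂(unif d) = wR := by rw [hg, integral_indicator hR]
  set θ := w0 / wR with hθ'
  have hθ : 1 ≤ θ := by rw [hθ', le_div_iff₀ hwR]; linarith
  have hgsupp : ∀ s, g s ≠ 0 → dist (s : E d) c ≤ Real.exp (-(i : ℝ)) := by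
    intro s hs
    apply hsupp s
    intro h0
    apply hs
    by_cases hsR : s ∈ R
    · rw [hg, Set.indicator_of_mem hsR, h0]
    · rw [hg, Set.indicator_of_notMem hsR]
  have hfr : ∀ L : List (E d), L ≠ [] → L.length < q + 1 → ∀ l : ℕ, 4 ≤ l →
      ∫ s in {s : Sph d | Metric.infDist (s : E d) (affineSpan ℝ {x | x ∈ L}) ≤
        Real.exp (-(i : ℝ)) * Real.exp (-l)}, g s ∂(unif d) ≤
          Real.exp (-(4 * k * l)) * (θ * ∫ s, g s ∂(unif d)) := by
    intro L hL hLq l hl
    rw [hgw, hθ', div_mul_cancel₀ _ hwR.ne', hg, setIntegral_indicator hR, Set.inter_comm]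
    exact hreg L hL hLq l hl
  have hent := block_entropy hgadm (by rw [hgw]; exact hwR) (Real.exp_pos (-(i : ℝ))) hθ hk hq hfr
    hgsupp hN hcard hφ
  rw [hgw, Ent_indicator _ _ hR, ← hwR'] at hent
  set G := fun ob : O × Bool => likG φ c (Real.exp (-(i : ℝ))) ob with hG
  have hGadm : ∀ ob, Adm (G ob) := fun ob => adm_likG hφ ob
  have hcl : ∀ ob : O × Bool, ((d - 1 : ℕ) : ℝ) * I * ∫ s, (g s * G ob s) * p ob.1 s ∂(unif d) ≤
      2 * Ent (unif d) (fun s => g s * G ob s) -
        ((d - 1 : ℕ) : ℝ) * i * (∫ s, g s * G ob s ∂(unif d)) +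
        2 * (J * cost k q N + 2 * ((d - 1 : ℕ) : ℝ)) * ∫ s, g s * G ob s ∂(unif d) := by
    intro ob
    refine hJ (p ob.1) (hp ob.1) _ (hgadm.mul (hGadm ob)) c fun s hs => hgsupp s fun h0 => hs ?_
    rw [h0, zero_mul]
  have hsum := Finset.sum_le_sum fun ob (_ : ob ∈ Finset.univ) => hcl ob
  rw [← Finset.mul_sum, Finset.sum_add_distrib, Finset.sum_sub_distrib, ← Finset.mul_sum,
    ← Finset.mul_sum, ← Finset.mul_sum] at hsum
  have hmass : ∑ ob, ∫ s, g s * G ob s ∂(unif d) = wR := by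
    rw [← integral_finsetSum _ fun ob _ => (hgadm.mul (hGadm ob)).integrable _, ← hgw]
    congr 1; ext s
    rw [← Finset.mul_sum]
    have := sum_likG (c := c) (ρ := Real.exp (-(i : ℝ))) hφ s
    rw [hG]
    simp only
    rw [this, mul_one]
  have hmain : ∑ ob : O × Bool, ∫ s, (g s * G ob s) * p ob.1 s ∂(unif d) =
      ∫ s in R, f s * (∑ o, gk d k (φ ⁻¹' {o}) s * p o s) ∂(unif d) := by
    rw [← integral_finsetSum _ fun ob _ =>
      ((hgadm.mul (hGadm ob)).mul (hp ob.1).adm).integrable _, ← integral_indicator hR]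
    congr 1; ext s
    rw [Fintype.sum_prod_type]
    simp only [Fintype.sum_bool]
    have h1 : ∀ o, g s * G (o, true) s * p o s + g s * G (o, false) s * p o s =
        g s * (gk d k (φ ⁻¹' {o}) s * p o s) := by
      intro o
      rw [← likG_add (c := c) (ρ := Real.exp (-(i : ℝ))) hφ o s]
      ring
    rw [Finset.sum_congr rfl fun o _ => h1 o, ← Finset.mul_sum, hg]
    by_cases h : s ∈ R
    · simp [h]
    · simp [h]
  rw [hmass, hmain] at hsum
  have hlog : Real.log θ = Real.log w0 - Real.log wR := Real.log_div hw0.ne' hwR.ne'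
  have hlogle : wR * Real.log θ ≤ w0 - wR := by
    have h1 := Real.log_le_sub_one_of_pos (show 0 < θ by positivity)
    have h2 := mul_le_mul_of_nonneg_left h1 hwR.le
    refine h2.trans (le_of_eq ?_)
    rw [hθ']; field_simp
  rw [IneqR, ← hwR', ← hw0']
  push_cast
  rw [hlog] at hent hlogle
  nlinarith [hsum, hent, hlogle]

/-- measurable cells for a covered set -/
lemma exists_cells (t : Finset (E d)) {r : ℝ} {P : Set (Sph d)} (hP : MeasurableSet P)
    (hcov : ∀ s ∈ P, ∃ x ∈ t, dist (s : E d) x ≤ r) :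
    ∃ C : E d → Set (Sph d), (∀ x ∈ t, MeasurableSet (C x)) ∧
      (∀ x ∈ t, ∀ s ∈ C x, dist (s : E d) x ≤ r) ∧ (t : Set (E d)).PairwiseDisjoint C ∧
      (⋃ x ∈ t, C x) = P := by
  classical
  induction t using Finset.induction_on generalizing P with
  | empty =>
    refine ⟨fun _ => ∅, by simp, by simp, by simp, ?_⟩
    simp only [Finset.notMem_empty, Set.iUnion_of_empty, Set.iUnion_empty]
    symm
    rw [Set.eq_empty_iff_forall_notMem]
    intro s hs
    obtain ⟨x, hx, _⟩ := hcov s hs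
    simp at hx
  | insert x t hx ih =>
    set B := {s : Sph d | dist (s : E d) x ≤ r} with hB
    have hBm : MeasurableSet B := measurableSet_cball x r
    obtain ⟨C, h1, h2, h3, h4⟩ := ih (P := P \ B) (hP.diff hBm) (by
      rintro s ⟨hs, hsB⟩
      obtain ⟨y, hy, hd⟩ := hcov s hs
      rcases Finset.mem_insert.1 hy with rfl | hy
      · exact absurd hd hsB
      · exact ⟨y, hy, hd⟩)
    have hCsub : ∀ y ∈ t, C y ⊆ P \ B := by
      intro y hy
      rw [← h4]
      exact Set.subset_biUnion_of_mem (u := C) (by exact hy)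
    set C' : E d → Set (Sph d) := Function.update C x (P ∩ B) with hC'
    have hCx : C' x = P ∩ B := by rw [hC', Function.update_self]
    have hCy : ∀ y ∈ t, C' y = C y := by
      intro y hy
      rw [hC', Function.update_of_ne (fun h : y = x => hx (h ▸ hy))]
    refine ⟨C', ?_, ?_, ?_, ?_⟩
    · intro y hy
      rcases Finset.mem_insert.1 hy with rfl | hy
      · rw [hCx]; exact hP.inter hBm
      · rw [hCy y hy]; exact h1 y hy
    · intro y hy s hs
      rcases Finset.mem_insert.1 hy with rfl | hy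
      · rw [hCx] at hs; exact hs.2
      · rw [hCy y hy] at hs; exact h2 y hy s hs
    · intro y hy z hz hyz
      rw [Function.onFun]
      rcases Finset.mem_insert.1 (Finset.mem_coe.1 hy) with rfl | hy'
      · rcases Finset.mem_insert.1 (Finset.mem_coe.1 hz) with rfl | hz'
        · exact absurd rfl hyz
        · rw [hCx, hCy z hz', Set.disjoint_left]
          intro s hs hs'
          exact (hCsub z hz' hs').2 hs.2
      · rcases Finset.mem_insert.1 (Finset.mem_coe.1 hz) with rfl | hz'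
        · rw [hCx, hCy y hy', Set.disjoint_left]
          intro s hs hs'
          exact (hCsub y hy' hs).2 hs'.2
        · rw [hCy y hy', hCy z hz']
          exact h3 (Finset.mem_coe.2 hy') (Finset.mem_coe.2 hz') hyz
    · rw [Finset.set_biUnion_insert, hCx]
      have h5 : (⋃ y ∈ t, C' y) = ⋃ y ∈ t, C y := Set.iUnion₂_congr fun y hy => hCy y hy
      rw [h5, h4, Set.inter_union_sdiff]

/-- the estimate on a set covered by few small balls -/
lemma covered_bound [NeZero d] {k q N : ℕ} {ε : ℝ} {I J i : ℕ} (hcl : Claim d k q N ε I J i)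
    {p : Sph d → ℝ} (hp : Ach d k N ε J p) {f : Sph d → ℝ} (hf : Adm f) {P : Set (Sph d)}
    (hP : MeasurableSet P) (hwP : 0 < ∫ s in P, f s ∂(unif d)) (t : Finset (E d))
    (hcov : ∀ s ∈ P, ∃ x ∈ t, dist (s : E d) x ≤ Real.exp (-(i : ℝ))) :
    ((d - 1 : ℕ) : ℝ) * I * ∫ s in P, f s * p s ∂(unif d) ≤
      2 * ∫ s in P, f s * Real.log (f s) ∂(unif d) -
      2 * ((∫ s in P, f s ∂(unif d)) * Real.log (∫ s in P, f s ∂(unif d))) +
      2 * (∫ s in P, f s ∂(unif d)) * Real.log t.card -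
      ((d - 1 : ℕ) : ℝ) * i * (∫ s in P, f s ∂(unif d)) +
      2 * (J * cost k q N + 2 * ((d - 1 : ℕ) : ℝ)) * (∫ s in P, f s ∂(unif d)) := by
  obtain ⟨C, h1, h2, h3, h4⟩ := exists_cells t hP hcov
  have hsplit : ∀ g : Sph d → ℝ, Integrable g (unif d) →
      ∫ s in P, g s ∂(unif d) = ∑ x ∈ t, ∫ s in C x, g s ∂(unif d) := by
    intro g hg
    rw [← h4]
    exact integral_biUnion_finset t h1 h3 fun x _ => hg.integrableOn
  have htne : t.Nonempty := by
    by_contra h
    rw [Finset.not_nonempty_iff_eq_empty] at h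
    rw [hsplit f (hf.integrable _), h, Finset.sum_empty] at hwP
    exact lt_irrefl _ hwP
  have hcard : (0 : ℝ) < t.card := by exact_mod_cast htne.card_pos
  set wP := ∫ s in P, f s ∂(unif d) with hwP'
  have hcell : ∀ x ∈ t, ((d - 1 : ℕ) : ℝ) * I * ∫ s in C x, f s * p s ∂(unif d) ≤
      2 * (∫ s in C x, f s * Real.log (f s) ∂(unif d)) -
      2 * ((∫ s in C x, f s ∂(unif d)) * Real.log (∫ s in C x, f s ∂(unif d))) -
      ((d - 1 : ℕ) : ℝ) * i * (∫ s in C x, f s ∂(unif d)) +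
      2 * (J * cost k q N + 2 * ((d - 1 : ℕ) : ℝ)) * (∫ s in C x, f s ∂(unif d)) := by
    intro x hx
    have h5 := hcl p hp ((C x).indicator f) (hf.indicator (h1 x hx)) x (by
      intro s hs
      have : s ∈ C x := by
        by_contra h
        exact hs (Set.indicator_of_notMem h f)
      exact h2 x hx s this)
    rw [Ent_indicator _ _ (h1 x hx), integral_indicator (h1 x hx)] at h5
    have h6 : ∫ s, (C x).indicator f s * p s ∂(unif d) = ∫ s in C x, f s * p s ∂(unif d) := by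
      rw [← integral_indicator (h1 x hx)]
      congr 1; ext s
      by_cases h : s ∈ C x
      · simp [h]
      · simp [h]
    rw [h6] at h5
    linarith
  have hsum := Finset.sum_le_sum hcell
  rw [← Finset.mul_sum, Finset.sum_add_distrib, Finset.sum_sub_distrib, Finset.sum_sub_distrib,
    ← Finset.mul_sum, ← Finset.mul_sum, ← Finset.mul_sum, ← Finset.mul_sum,
    ← hsplit _ ((hf.mul hp.adm).integrable _), ← hsplit _ (hf.integrable_xlog _),
    ← hsplit _ (hf.integrable _), ← hwP'] at hsum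
  have hlog : wP * Real.log wP - wP * Real.log t.card ≤
      ∑ x ∈ t, (∫ s in C x, f s ∂(unif d)) * Real.log (∫ s in C x, f s ∂(unif d)) := by
    have h7 : ∀ x ∈ t, (∫ s in C x, f s ∂(unif d)) * Real.log (wP / t.card) +
        (∫ s in C x, f s ∂(unif d)) - wP / t.card ≤
        (∫ s in C x, f s ∂(unif d)) * Real.log (∫ s in C x, f s ∂(unif d)) := fun x _ =>
      xlog_ge (integral_nonneg hf.nonneg) (by positivity)
    have h8 := Finset.sum_le_sum h7
    rw [Finset.sum_sub_distrib, Finset.sum_add_distrib, ← Finset.sum_mul,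
      ← hsplit _ (hf.integrable _), ← hwP', Real.log_div hwP.ne' hcard.ne'] at h8
    simp only [Finset.sum_const, nsmul_eq_mul] at h8
    have h9 : (t.card : ℝ) * (wP / t.card) = wP := by field_simp
    rw [h9] at h8
    linarith
  linarith

lemma finrank_list_le {V : Type*} [NormedAddCommGroup V] [InnerProductSpace ℝ V] (L : List V)
    (hL : L ≠ []) {q : ℕ} (hLq : L.length < q + 1) :
    Module.finrank ℝ (affineSpan ℝ {x | x ∈ L}).direction ≤ q := by
  rw [direction_affineSpan]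
  have h1 : {x | x ∈ L} = Set.range L.get := by
    ext x
    rw [Set.mem_range]
    exact List.mem_iff_get
  have hpos : 0 < L.length := List.length_pos_of_ne_nil hL
  rw [h1]
  have h2 := finrank_vectorSpan_range_le ℝ L.get (n := L.length - 1) (by
    rw [Fintype.card_fin]; omega)
  omega

lemma list_span_nonempty {V : Type*} [NormedAddCommGroup V] [InnerProductSpace ℝ V] (L : List V)
    (hL : L ≠ []) : ((affineSpan ℝ {x | x ∈ L} : AffineSubspace ℝ V) : Set V).Nonempty := by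
  obtain ⟨x, hx⟩ := List.exists_mem_of_ne_nil L hL
  exact ⟨x, subset_affineSpan ℝ _ hx⟩

/-- the estimate on a heavy thin neighbourhood of a flat -/
lemma heavy_bound (hd : 2 ≤ d) [NeZero d] {k q N : ℕ} {ε : ℝ} {I J i : ℕ}
    (harith : ∀ l : ℕ, 4 ≤ l →
      8 * (k : ℝ) * l + 2 * q * (l + 2) + 4 ≤ ((d - 1 : ℕ) : ℝ) * (l - 1))
    (hcl : ∀ i', i + 1 ≤ i' → Claim d k q N ε I J i')
    {p : Sph d → ℝ} (hp : Ach d k N ε J p) {f : Sph d → ℝ} (hf : Adm f) {c : E d}
    {L : List (E d)} (hL : L ≠ []) (hLq : L.length < q + 1) {l : ℕ} (hl : 4 ≤ l)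
    {P : Set (Sph d)} (hP : MeasurableSet P)
    (hPc : ∀ s ∈ P, dist (s : E d) c ≤ Real.exp (-(i : ℝ)))
    (hPL : ∀ s ∈ P, Metric.infDist (s : E d) (affineSpan ℝ {x | x ∈ L}) ≤
      Real.exp (-(i : ℝ)) * Real.exp (-(l : ℝ)))
    (hw0 : 0 < ∫ s, f s ∂(unif d))
    (hheavy : Real.exp (-(4 * k * l)) * (∫ s, f s ∂(unif d)) < ∫ s in P, f s ∂(unif d)) :
    ((d - 1 : ℕ) : ℝ) * I * ∫ s in P, f s * p s ∂(unif d) ≤
      2 * (∫ s in P, f s * Real.log (f s) ∂(unif d) -
        (∫ s in P, f s ∂(unif d)) * Real.log (∫ s, f s ∂(unif d))) -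
      ((d - 1 : ℕ) : ℝ) * i * (∫ s in P, f s ∂(unif d)) +
      2 * (J * cost k q N + 2 * ((d - 1 : ℕ) : ℝ)) * (∫ s in P, f s ∂(unif d)) -
      4 * (∫ s in P, f s ∂(unif d)) ∧
    (∫ s in P, f s ∂(unif d)) ≤ (Real.exp (l + 2)) ^ q * (4 * Real.exp (-(l : ℝ))) ^ (d - 1) := by
  set w0 := ∫ s, f s ∂(unif d) with hw0'
  set wP := ∫ s in P, f s ∂(unif d) with hwP'
  have hwP : 0 < wP := lt_trans (by positivity) hheavy
  have hr : 0 < Real.exp (-(i : ℝ)) * Real.exp (-(l : ℝ)) := by positivity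
  obtain ⟨t, htcard, htcov⟩ := cover_nbhd (affineSpan ℝ {x | x ∈ L}) (list_span_nonempty L hL) q
    (finrank_list_le L hL hLq) c hr (Real.exp_pos (-(i : ℝ))).le
  have e1 : 1 + 2 * Real.exp (-(i : ℝ)) / (Real.exp (-(i : ℝ)) * Real.exp (-(l : ℝ))) ≤
      Real.exp (l + 2) := by
    have h1 : 2 * Real.exp (-(i : ℝ)) / (Real.exp (-(i : ℝ)) * Real.exp (-(l : ℝ))) =
        2 * Real.exp l := by
      rw [Real.exp_neg (l : ℝ)]
      field_simp
    rw [h1, Real.exp_add]
    have h2 : (1 : ℝ) ≤ Real.exp l := Real.one_le_exp (by positivity)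
    have h3 : (3 : ℝ) ≤ Real.exp 2 := by
      have := Real.add_one_le_exp (2 : ℝ); linarith
    nlinarith
  have htcard' : (t.card : ℝ) ≤ (Real.exp (l + 2)) ^ q := by
    refine htcard.trans ?_
    gcongr
  have hlog : Real.log t.card ≤ q * (l + 2) := by
    rcases Nat.eq_zero_or_pos t.card with h0 | h0
    · rw [h0]; simp; positivity
    · have h1 := Real.log_le_log (by exact_mod_cast h0) htcard'
      rwa [Real.log_pow, Real.log_exp] at h1
  have hlogw : Real.log w0 - 4 * k * l ≤ Real.log wP := by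
    have h1 := Real.log_le_log (by positivity) hheavy.le
    rw [Real.log_mul (Real.exp_pos _).ne' hw0.ne', Real.log_exp] at h1
    linarith
  obtain ⟨l', hl'⟩ : ∃ l', l = l' + 1 := ⟨l - 1, by omega⟩
  have hcov : ∀ s ∈ P, ∃ x ∈ t, dist (s : E d) x ≤ 2 * (Real.exp (-(i : ℝ)) * Real.exp (-(l : ℝ))) :=
    fun s hs => htcov s (hPL s hs) (hPc s hs)
  have e2 : 2 * (Real.exp (-(i : ℝ)) * Real.exp (-(l : ℝ))) ≤ Real.exp (-((i + l' : ℕ) : ℝ)) := by
    rw [hl']
    push_cast
    rw [← Real.exp_add]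
    have h1 : -((i : ℝ) + l') = (-(i : ℝ) + -((l' : ℝ) + 1)) + 1 := by ring
    rw [h1, Real.exp_add _ 1]
    have h2 : (2 : ℝ) ≤ Real.exp 1 := by
      have := Real.add_one_le_exp (1 : ℝ); linarith
    nlinarith [Real.exp_pos (-(i : ℝ) + -((l' : ℝ) + 1))]
  constructor
  · have h5 := covered_bound (hcl (i + l') (by omega)) hp hf hP hwP t (fun s hs => by
      obtain ⟨x, hx, hxd⟩ := hcov s hs
      exact ⟨x, hx, hxd.trans e2⟩)
    have h6 := harith l hl
    have h7 : ((i + l' : ℕ) : ℝ) = i + (l - 1) := by rw [hl']; push_cast; ring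
    rw [h7, ← hwP'] at h5
    have h8 : wP * Real.log t.card ≤ wP * (q * (l + 2)) := by gcongr
    have h9 : wP * (Real.log w0 - 4 * k * l) ≤ wP * Real.log wP := by gcongr
    have h10 : wP * (8 * (k : ℝ) * l + 2 * q * (l + 2) + 4) ≤
      wP * (((d - 1 : ℕ) : ℝ) * (l - 1)) := by gcongr
    nlinarith [h5, h8, h9, h10]
  · have h5 : wP ≤ (unif d).real P := by
      have h6 : wP ≤ ∫ s in P, (1 : ℝ) ∂(unif d) :=
        integral_mono (hf.integrable _).integrableOn (integrable_const _) hf.le_one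
      simpa using h6
    have h7 : (unif d).real P ≤ t.card * (4 * Real.exp (-(l : ℝ))) ^ (d - 1) := by
      have h8 : P ⊆ ⋃ x ∈ t, {s : Sph d | dist (s : E d) x ≤
          2 * (Real.exp (-(i : ℝ)) * Real.exp (-(l : ℝ)))} := by
        intro s hs
        obtain ⟨x, hx, hxd⟩ := hcov s hs
        simp only [Set.mem_iUnion]
        exact ⟨x, hx, hxd⟩
      refine (measureReal_mono h8 (measure_ne_top _ _)).trans ((measureReal_biUnion_finset_le _ _).trans ?_)
      rw [← nsmul_eq_mul]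
      refine Finset.sum_le_card_nsmul _ _ _ fun x _ => ?_
      refine (real_ball_le hd x (by positivity)).trans ?_
      apply pow_le_pow_left₀ (by positivity)
      have h9 : Real.exp (-(i : ℝ)) ≤ 1 := by
        rw [Real.exp_le_one_iff]; linarith [(Nat.cast_nonneg i : (0 : ℝ) ≤ i)]
      have h10 := Real.exp_pos (-(l : ℝ))
      nlinarith
    refine h5.trans (h7.trans ?_)
    gcongr

end Vale.Agent.P309
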