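import Vale.Agent.P309.Fub

/-!
The trivial memory bound: with `M` bits of memory a fixed run of the coins leaves at most `2 ^ M`
possible outputs.
-/

open MeasureTheory ProbabilityTheory
open scoped ENNReal NNReal

namespace Vale.Agent.P309

variable {d M : ℕ}

lemma Learner.run_mem (L : Learner d M) (hout : ∀ t t' ω q, L.out t ω q = L.out t' ω q)
    (ω : L.Ω) (s : E d) (n : ℕ) : ∀ (t : ℕ) (q : Fin (2 ^ M)) (x : Fin n → E d),
    ∃ q', L.run ω s n t q x = L.out 0 ω q' := by
  induction n with
  | zero => intro t q x; exact ⟨q, hout _ _ _ _⟩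
  | succ n ih =>
    intro t q x
    simp only [Learner.run]
    split_ifs
    · exact ⟨_, hout _ _ _ _⟩
    · exact ih _ _ _

lemma good_subset_ball {ε : ℝ} (hε : 0 < ε) (z : Sph d) :
    good d ε z ⊆ {s : Sph d | dist (s : E d) z ≤ ε} := by
  intro s hs
  have hs' : Real.arccos (inner ℝ (z : E d) (s : E d)) ≤ ε := hs
  set x := inner ℝ (z : E d) (s : E d) with hx
  have hz : ‖(z : E d)‖ = 1 := by simp
  have hsn : ‖(s : E d)‖ = 1 := by simp
  have hx1 : x ≤ 1 := by
    have := real_inner_le_norm (z : E d) (s : E d)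
    rw [hz, hsn] at this; linarith
  have hx2 : -1 ≤ x := by
    have := neg_le_of_abs_le (abs_real_inner_le_norm (z : E d) (s : E d))
    rw [hz, hsn] at this; linarith
  have hcos : Real.cos (Real.arccos x) = x := Real.cos_arccos hx2 hx1
  have h1 := Real.one_sub_sq_div_two_le_cos (x := Real.arccos x)
  rw [hcos] at h1
  have h2 : dist (s : E d) z ^ 2 = 2 - 2 * x := by
    rw [dist_eq_norm, @norm_sub_sq_real, hz, hsn, real_inner_comm, ← hx]; ring
  have h4 : Real.arccos x ^ 2 ≤ ε ^ 2 := pow_le_pow_left₀ (Real.arccos_nonneg x) hs' 2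
  have h5 : dist (s : E d) z ^ 2 ≤ ε ^ 2 := by rw [h2]; linarith
  exact (pow_le_pow_iff_left₀ dist_nonneg hε.le two_ne_zero).1 h5

/-- MODULE I (`Vale/Agent/P309/Info.lean`): the trivial memory bound. -/
theorem info_bound {d M : ℕ} (hd : 2 ≤ d) (L : Learner d M) (T : ℕ) {ε : ℝ} (hε : 0 < ε)
    (hout : ∀ t t' ω q, L.out t ω q = L.out t' ω q) (h : L.Succeeds T ε) :
    ((d : ℝ) - 1) * Real.logb 2 (1 / (2 * ε)) - 1 ≤ M := by
  have hNZ : NeZero d := ⟨by omega⟩
  obtain ⟨ω, hω⟩ := exists_coin L T ε h
  set U : Set (Sph d) := ⋃ q : Fin (2 ^ M), good d ε (L.out 0 ω q) with hU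
  have hgm : ∀ z : Sph d, MeasurableSet (good d ε z) := by
    intro z
    have h1 : Continuous fun s : Sph d => Real.arccos (inner ℝ (z : E d) (s : E d)) := by
      fun_prop
    exact measurableSet_le h1.measurable measurable_const
  have hUm : MeasurableSet U := MeasurableSet.iUnion fun q => hgm _
  have h1 : ∀ s : Sph d, L.pr ω ε T 0 (L.init ω) s ≤ U.indicator (fun _ => (1 : ℝ)) s := by
    intro s
    by_cases hs : s ∈ U
    · rw [Set.indicator_of_mem hs]
      exact measureReal_le_one
    · rw [Set.indicator_of_notMem hs, Learner.pr]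
      have h2 : {x : Fin T → E d | Real.arccos (inner ℝ (L.run ω s T 0 (L.init ω) x : E d)
          (s : E d)) ≤ ε} = ∅ := by
        ext x
        simp only [Set.mem_ofPred_eq, Set.mem_empty_iff_false, iff_false]
        intro hx
        obtain ⟨q', hq'⟩ := L.run_mem hout ω s T 0 (L.init ω) x
        rw [hq'] at hx
        exact hs (Set.mem_iUnion.2 ⟨q', hx⟩)
      rw [h2]
      simp
  have h2 : ∫ s, L.pr ω ε T 0 (L.init ω) s ∂(unif d) ≤ (unif d).real U := by
    calc ∫ s, L.pr ω ε T 0 (L.init ω) s ∂(unif d)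
        ≤ ∫ s, U.indicator (fun _ => (1 : ℝ)) s ∂(unif d) := by
          refine integral_mono_of_nonneg (Filter.Eventually.of_forall fun s => measureReal_nonneg)
            ((integrable_const _).indicator hUm) (Filter.Eventually.of_forall h1)
      _ = (unif d).real U := by
          rw [integral_indicator hUm]; simp
  have h3 : (unif d).real U ≤ 2 ^ M * (2 * ε) ^ (d - 1) := by
    have h4 : unif d U ≤ ∑ _q : Fin (2 ^ M), ENNReal.ofReal ((2 * ε) ^ (d - 1)) := by
      refine (measure_iUnion_le _).trans ?_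
      rw [tsum_fintype]
      exact Finset.sum_le_sum fun q _ =>
        (measure_mono (good_subset_ball hε _)).trans (unif_ball_le d hd _ hε)
    apply ENNReal.toReal_le_of_le_ofReal (by positivity)
    refine h4.trans (le_of_eq ?_)
    rw [Finset.sum_const, Finset.card_univ, Fintype.card_fin, nsmul_eq_mul,
      ENNReal.ofReal_mul (by positivity)]
    congr 1
    rw [← ENNReal.ofReal_natCast]
    push_cast
    rfl
  have h5 : (1 : ℝ) / 2 ≤ 2 ^ M * (2 * ε) ^ (d - 1) := by
    have := hω.trans (h2.trans h3)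
    linarith
  have h6 := Real.logb_le_logb_of_le (b := 2) (by norm_num) (by norm_num) h5
  rw [Real.logb_mul (by positivity) (by positivity), ← Real.rpow_natCast, ← Real.rpow_natCast,
    Real.logb_rpow (by norm_num) (by norm_num), Real.logb_rpow_eq_mul_logb_of_pos (by positivity),
    one_div, Real.logb_inv, Real.logb_self_eq_one (by norm_num)] at h6
  rw [one_div, Real.logb_inv]
  have h7 : ((d - 1 : ℕ) : ℝ) = d - 1 := by
    rw [Nat.cast_sub (by omega)]; simp
  rw [h7] at h6
  linarith

end Vale.Agent.P309
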