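import Vale.Agent.P309.Fub
import Vale.Agent.P309.Gauss

/-!
The analytic facts behind the quantised Kaczmarz learner: one Kaczmarz step contracts the error
in mean, and a measurable quantiser.
-/

open MeasureTheory ProbabilityTheory
open scoped ENNReal NNReal

namespace Vale.Agent.P309

variable {V : Type*} [NormedAddCommGroup V] [InnerProductSpace ℝ V] [FiniteDimensional ℝ V]
  [MeasurableSpace V] [BorelSpace V]

omit [FiniteDimensional ℝ V] in
lemma measurable_ratio (e : V) : Measurable fun x : V => (inner ℝ x e : ℝ) ^ 2 / ‖x‖ ^ 2 := by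
  have h1 : Measurable fun x : V => (inner ℝ x e : ℝ) := by
    have : Continuous fun x : V => (inner ℝ x e : ℝ) := by fun_prop
    exact this.measurable
  fun_prop

omit [FiniteDimensional ℝ V] [MeasurableSpace V] [BorelSpace V] in
lemma ratio_le (e x : V) : (inner ℝ x e : ℝ) ^ 2 / ‖x‖ ^ 2 ≤ ‖e‖ ^ 2 := by
  rcases eq_or_ne x 0 with rfl | hx
  · simp
  · have h0 : 0 < ‖x‖ := norm_pos_iff.2 hx
    rw [div_le_iff₀ (by positivity), ← mul_pow, mul_comm]
    have := abs_real_inner_le_norm x e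
    rw [← sq_abs]
    exact pow_le_pow_left₀ (abs_nonneg _) this 2

lemma integrable_ratio (e : V) :
    Integrable (fun x : V => (inner ℝ x e : ℝ) ^ 2 / ‖x‖ ^ 2) (stdGaussian V) := by
  refine Integrable.of_bound (measurable_ratio e).aestronglyMeasurable (‖e‖ ^ 2)
    (Filter.Eventually.of_forall fun x => ?_)
  rw [Real.norm_eq_abs, abs_of_nonneg (by positivity)]
  exact ratio_le e x

lemma integral_ratio_eq {e f : V} (h : ‖e‖ = ‖f‖) :
    ∫ x, (inner ℝ x e : ℝ) ^ 2 / ‖x‖ ^ 2 ∂(stdGaussian V) =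
      ∫ x, (inner ℝ x f : ℝ) ^ 2 / ‖x‖ ^ 2 ∂(stdGaussian V) := by
  set R := Submodule.reflection (ℝ ∙ (e - f))ᗮ with hR
  have h1 : R e = f := Submodule.reflection_sub h
  conv_rhs => rw [← stdGaussian_map R]
  rw [integral_map (by fun_prop) ((measurable_ratio f).aestronglyMeasurable)]
  congr 1; ext x
  rw [R.norm_map, ← h1, R.inner_map_map]

lemma stdGaussian_singleton_zero [Nontrivial V] : (stdGaussian V) {0} = 0 := by
  obtain ⟨u, hu⟩ := exists_norm_eq V (zero_le_one (α := ℝ))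
  have h1 := gauss_split hu
  rw [← h1, Measure.map_apply (measurable_split u) (measurableSet_singleton 0)]
  have hm : MeasurableSet ((fun p : V × ℝ => p.1 - (inner ℝ p.1 u : ℝ) • u + p.2 • u) ⁻¹' {0}) :=
    measurable_split u (measurableSet_singleton 0)
  rw [Measure.prod_apply hm]
  rw [lintegral_eq_zero_iff (measurable_measure_prodMk_left hm)]
  refine Filter.Eventually.of_forall fun x => ?_
  simp only [Pi.zero_apply]
  refine measure_mono_null (t := {0}) ?_ ?_
  · intro y hy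
    have hy' : x - (inner ℝ x u : ℝ) • u + y • u = 0 := hy
    have h2 : inner ℝ (x - (inner ℝ x u : ℝ) • u + y • u) u = (0 : ℝ) := by
      rw [hy', inner_zero_left]
    rw [inner_add_left, inner_sub_left, real_inner_smul_left, real_inner_smul_left,
      real_inner_self_eq_norm_sq, hu] at h2
    simp at h2
    simpa using h2
  · have := nullSingletonClass_gaussianReal (μ := 0) (v := 1) one_ne_zero
    exact measure_singleton 0

lemma integral_ratio [Nontrivial V] (e : V) :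
    ∫ x, (inner ℝ x e : ℝ) ^ 2 / ‖x‖ ^ 2 ∂(stdGaussian V) = ‖e‖ ^ 2 / Module.finrank ℝ V := by
  have hd : 0 < Module.finrank ℝ V := Module.finrank_pos
  set b := stdOrthonormalBasis ℝ V
  have h1 : ∀ i, ∫ x, (inner ℝ x e : ℝ) ^ 2 / ‖x‖ ^ 2 ∂(stdGaussian V) =
      ‖e‖ ^ 2 * ∫ x, (inner ℝ x (b i) : ℝ) ^ 2 / ‖x‖ ^ 2 ∂(stdGaussian V) := by
    intro i
    rw [integral_ratio_eq (e := e) (f := ‖e‖ • b i) (by simp [norm_smul]), ← integral_const_mul]
    congr 1; ext x
    rw [real_inner_smul_right]; ring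
  have h2 : ∑ i, ∫ x, (inner ℝ x (b i) : ℝ) ^ 2 / ‖x‖ ^ 2 ∂(stdGaussian V) = 1 := by
    rw [← integral_finsetSum _ fun i _ => integrable_ratio (b i)]
    have h3 : ∀ᵐ x ∂(stdGaussian V), ∑ i, (inner ℝ x (b i) : ℝ) ^ 2 / ‖x‖ ^ 2 = 1 := by
      have h4 : ∀ᵐ x ∂(stdGaussian V), x ≠ 0 := by
        rw [ae_iff]
        simpa using stdGaussian_singleton_zero (V := V)
      filter_upwards [h4] with x hx
      rw [← Finset.sum_div, b.sum_sq_inner_left, div_self]
      have := norm_pos_iff.2 hx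
      positivity
    rw [integral_congr_ae h3]
    simp
  have h5 : (Module.finrank ℝ V : ℝ) * ∫ x, (inner ℝ x e : ℝ) ^ 2 / ‖x‖ ^ 2 ∂(stdGaussian V) =
      ‖e‖ ^ 2 := by
    have : ∑ i : Fin (Module.finrank ℝ V),
        ∫ x, (inner ℝ x e : ℝ) ^ 2 / ‖x‖ ^ 2 ∂(stdGaussian V) = ‖e‖ ^ 2 := by
      rw [Finset.sum_congr rfl fun i _ => h1 i, ← Finset.mul_sum, h2, mul_one]
    simpa using this
  field_simp
  linarith

/-- one Kaczmarz step on the error vector -/
noncomputable def kerr (x e : V) : V := e - ((inner ℝ x e : ℝ) / ‖x‖ ^ 2) • x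

omit [FiniteDimensional ℝ V] [MeasurableSpace V] [BorelSpace V] in
lemma norm_kerr_sq (x e : V) : ‖kerr x e‖ ^ 2 = ‖e‖ ^ 2 - (inner ℝ x e : ℝ) ^ 2 / ‖x‖ ^ 2 := by
  rcases eq_or_ne x 0 with rfl | hx
  · simp [kerr]
  · have h0 : ‖x‖ ≠ 0 := (norm_pos_iff.2 hx).ne'
    rw [kerr, @norm_sub_sq_real, real_inner_smul_right, norm_smul, real_inner_comm e x]
    rw [Real.norm_eq_abs, mul_pow, sq_abs]
    field_simp
    ring

omit [FiniteDimensional ℝ V] [MeasurableSpace V] [BorelSpace V] in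
lemma norm_kerr_le {x e : V} (he : e ≠ 0) :
    ‖kerr x e‖ ≤ ‖e‖ - (inner ℝ x e : ℝ) ^ 2 / ‖x‖ ^ 2 / (2 * ‖e‖) := by
  have h0 : 0 < ‖e‖ := norm_pos_iff.2 he
  have h1 := norm_kerr_sq x e
  have h2 : 0 ≤ (‖kerr x e‖ - ‖e‖) ^ 2 := sq_nonneg _
  rw [le_sub_iff_add_le, ← le_sub_iff_add_le', div_le_iff₀ (by positivity)]
  nlinarith

/-- a Kaczmarz step contracts the error in mean -/
theorem kerr_contract [Nontrivial V] (e : V) :
    ∫⁻ x, ENNReal.ofReal ‖kerr x e‖ ∂(stdGaussian V) ≤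
      ENNReal.ofReal ((1 - 1 / (2 * Module.finrank ℝ V)) * ‖e‖) := by
  rcases eq_or_ne e 0 with rfl | he
  · simp [kerr]
  have h0 : 0 < ‖e‖ := norm_pos_iff.2 he
  have hd : (0 : ℝ) < Module.finrank ℝ V := by exact_mod_cast Module.finrank_pos
  calc ∫⁻ x, ENNReal.ofReal ‖kerr x e‖ ∂(stdGaussian V)
      ≤ ∫⁻ x, ENNReal.ofReal (‖e‖ - (inner ℝ x e : ℝ) ^ 2 / ‖x‖ ^ 2 / (2 * ‖e‖))
          ∂(stdGaussian V) :=
        lintegral_mono fun x => ENNReal.ofReal_le_ofReal (norm_kerr_le he)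
    _ = ENNReal.ofReal (∫ x, (‖e‖ - (inner ℝ x e : ℝ) ^ 2 / ‖x‖ ^ 2 / (2 * ‖e‖))
          ∂(stdGaussian V)) := by
        rw [ofReal_integral_eq_lintegral_ofReal]
        · exact (integrable_const _).sub ((integrable_ratio e).div_const _)
        · exact Filter.Eventually.of_forall fun x => (norm_nonneg _).trans (norm_kerr_le he)
    _ = ENNReal.ofReal ((1 - 1 / (2 * Module.finrank ℝ V)) * ‖e‖) := by
        rw [integral_sub (integrable_const _) ((integrable_ratio e).div_const _),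
          integral_div, integral_ratio]
        congr 1
        simp
        field_simp

/-- radial projection onto the unit ball -/
noncomputable def rad (v : V) : V := (max 1 ‖v‖)⁻¹ • v

omit [FiniteDimensional ℝ V] in
lemma measurable_rad : Measurable (rad : V → V) := by
  have : Continuous (rad : V → V) := by
    unfold rad
    refine Continuous.smul (Continuous.inv₀ (by fun_prop) fun v => ?_) continuous_id
    have : (1 : ℝ) ≤ max 1 ‖v‖ := le_max_left _ _
    positivity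
  exact this.measurable

omit [FiniteDimensional ℝ V] [MeasurableSpace V] [BorelSpace V] in
lemma norm_rad_le (v : V) : ‖rad v‖ ≤ 1 := by
  have h1 : (1 : ℝ) ≤ max 1 ‖v‖ := le_max_left _ _
  have h2 : ‖v‖ ≤ max 1 ‖v‖ := le_max_right _ _
  rw [rad, norm_smul, norm_inv, Real.norm_eq_abs, abs_of_pos (by positivity), inv_mul_le_iff₀
    (by positivity)]
  linarith

omit [FiniteDimensional ℝ V] [MeasurableSpace V] [BorelSpace V] in
lemma norm_rad_sub_le (v : V) {s : V} (hs : ‖s‖ ≤ 1) : ‖rad v - s‖ ≤ ‖v - s‖ := by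
  rcases le_total ‖v‖ 1 with h | h
  · rw [rad, max_eq_left h]; simp
  · rw [rad, max_eq_right h]
    have h0 : 0 < ‖v‖ := by linarith
    apply le_of_sq_le_sq _ (norm_nonneg _)
    rw [@norm_sub_sq_real, @norm_sub_sq_real, norm_smul, real_inner_smul_left, norm_inv, norm_norm,
      inv_mul_cancel₀ h0.ne']
    have h3 : inner ℝ v s ≤ ‖v‖ := by
      have := real_inner_le_norm v s
      nlinarith
    have h4 : (inner ℝ v s : ℝ) * (1 - ‖v‖⁻¹) ≤ ‖v‖ * (1 - ‖v‖⁻¹) := by
      apply mul_le_mul_of_nonneg_right h3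
      rw [sub_nonneg]
      exact inv_le_one_of_one_le₀ h
    have h5 : ‖v‖ * (1 - ‖v‖⁻¹) = ‖v‖ - 1 := by field_simp
    nlinarith [sq_nonneg (‖v‖ - 1)]

/-- a measurable quantiser of the unit ball -/
theorem exists_quant {n : ℕ} (hn : n ≠ 0) {δ : ℝ} (hδ : 0 < δ)
    (hcard : (1 + 2 / δ) ^ (Module.finrank ℝ V) ≤ n) :
    ∃ (Q : V → Fin n) (D : Fin n → V), Measurable Q ∧ ∀ v, ‖v‖ ≤ 1 → ‖D (Q v) - v‖ ≤ δ := by
  obtain ⟨t, ht, hnet⟩ := exists_net (W := V) (ρ := 1) hδ zero_le_one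
  have hc : t.card ≤ n := by
    have : (t.card : ℝ) ≤ n := ht.trans (by simpa using hcard)
    exact_mod_cast this
  obtain ⟨N, rfl⟩ : ∃ N, n = N + 1 := ⟨n - 1, by omega⟩
  let e : ℕ → V := fun k => if h : k < t.card then (t.equivFin.symm ⟨k, h⟩ : V) else 0
  refine ⟨fun v => Fin.ofNat (N + 1) (SimpleFunc.nearestPtInd e N v), fun i => e i, ?_, ?_⟩
  · exact (measurable_from_nat (f := fun k => Fin.ofNat (N + 1) k)).comp
      (SimpleFunc.nearestPtInd e N).measurable
  · intro v hv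
    obtain ⟨x, hx, hxv⟩ := hnet v hv
    set k := t.equivFin ⟨x, hx⟩ with hk
    have hek : e k = x := by
      simp only [e, k.2, dif_pos, Fin.eta]
      rw [hk, Equiv.symm_apply_apply]
    have hkN : (k : ℕ) ≤ N := by have := k.2; omega
    have h1 := SimpleFunc.edist_nearestPt_le e v hkN
    rw [hek] at h1
    have h2 : (Fin.ofNat (N + 1) (SimpleFunc.nearestPtInd e N v) : ℕ) =
        SimpleFunc.nearestPtInd e N v := by
      rw [Fin.val_ofNat]
      exact Nat.mod_eq_of_lt (Nat.lt_succ_of_le (SimpleFunc.nearestPtInd_le e N v))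
    beta_reduce
    rw [h2]
    have h3 : SimpleFunc.nearestPt e N v = e (SimpleFunc.nearestPtInd e N v) := rfl
    rw [h3, edist_dist, edist_dist, ENNReal.ofReal_le_ofReal_iff dist_nonneg, dist_eq_norm,
      dist_eq_norm, norm_sub_rev x v] at h1
    exact h1.trans hxv

end Vale.Agent.P309
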