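import Mathlib

open MeasureTheory ProbabilityTheory

namespace Vale.Agent.P309.Model

/-- Euclidean space `R^d`. -/
abbrev Vec (d : ℕ) := EuclideanSpace ℝ (Fin d)

/-- The unit sphere `S^(d-1)` of `R^d`. -/
abbrev Sphere (d : ℕ) := Metric.sphere (0 : Vec d) 1

/-- The uniform probability measure on `S^(d-1)`: the surface measure, normalised. -/
noncomputable def uniformSphere (d : ℕ) : Measure (Sphere d) :=
  ((volume : Measure (Vec d)).toSphere Set.univ)⁻¹ • (volume : Measure (Vec d)).toSphere

/-- A learner with `M` bits in dimension `d`.  The persistent state is one of `2 ^ M` elements.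
Every random decision uses a fresh coin, a point of the probability space `(Coin, P)`.
`init` is the initial state, `step t q x y c = (new state, stop?)` is the reaction at index `t` in
state `q` to the pair `(x, y)` with the coin `c`, and `out q c` is the output in final state `q`
with the coin `c`. -/
structure Learner (d M : ℕ) where
  Coin : Type
  coinSpace : MeasurableSpace Coin
  P : Measure Coin
  prob : IsProbabilityMeasure P
  init : Coin → Fin (2 ^ M)
  step : ℕ → Fin (2 ^ M) → Vec d → ℝ → Coin → Fin (2 ^ M) × Bool
  out : Fin (2 ^ M) → Coin → Sphere d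
  measurable_init : Measurable init
  measurable_step : ∀ t q, Measurable fun p : Vec d × ℝ × Coin => step t q p.1 p.2.1 p.2.2
  measurable_out : ∀ q, Measurable (out q)

/-- The final state of the learner `L` for the signal `s`, started at index `t` in state `q`, when
at most `n` more pairs are read: the rows to come are `x 0, ..., x (n-1)`, the labels are
`⟨x i, s⟩`, and the coins used are `c 0, ..., c (n-1)`. -/
noncomputable def Learner.final {d M : ℕ} (L : Learner d M) (s : Vec d) :
    (n t : ℕ) → Fin (2 ^ M) → (Fin n → Vec d) → (Fin n → L.Coin) → Fin (2 ^ M)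
  | 0, _, q, _, _ => q
  | n + 1, t, q, x, c =>
    if (L.step t q (x 0) (inner ℝ (x 0) s) (c 0)).2 = true then
      (L.step t q (x 0) (inner ℝ (x 0) s) (c 0)).1
    else L.final s n (t + 1) (L.step t q (x 0) (inner ℝ (x 0) s) (c 0)).1 (Fin.tail x) (Fin.tail c)

/-- The learner `L` with horizon `T` succeeds at accuracy `ε`.  The independent data are: the coin
`a` for the initial state, the coin `b` for the output, the coins `c 0, ..., c (T-1)` for the
steps, the rows `x 0, ..., x (T-1)` with law `N(0, I_d)` and the signal `s`, uniform on the sphere.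
With probability at least `2/3` the angle between the output and the signal is at most `ε`. -/
def Learner.Succeeds {d M : ℕ} (L : Learner d M) (T : ℕ) (ε : ℝ) : Prop :=
  letI := L.coinSpace
  2 / 3 ≤ (((L.P.prod L.P).prod (Measure.pi fun _ : Fin T => L.P)).prod
      ((Measure.pi fun _ : Fin T => stdGaussian (Vec d)).prod (uniformSphere d)))
    {p : ((L.Coin × L.Coin) × (Fin T → L.Coin)) × (Fin T → Vec d) × Sphere d |
      Real.arccos (inner ℝ
        (L.out (L.final p.2.2 T 0 (L.init p.1.1.1) p.2.1 p.1.2) p.1.1.2 : Vec d)
        (p.2.2 : Vec d)) ≤ ε}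

/-- Some learner with `M` bits and horizon `T` succeeds at accuracy `ε`. -/
def Solvable (d M T : ℕ) (ε : ℝ) : Prop :=
  ∃ L : Learner d M, L.Succeeds T ε

/-- The least horizon (`⊤` if no learner succeeds). -/
noncomputable def leastHorizon (d M : ℕ) (ε : ℝ) : ℕ∞ :=
  ⨅ T : ℕ, ⨅ _ : Solvable d M T ε, (T : ℕ∞)

end Vale.Agent.P309.Model
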