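import Vale.Agent.P309.Gk

open MeasureTheory ProbabilityTheory
open scoped ENNReal NNReal

namespace Vale.Agent.P309

variable {d k : ℕ}

/-- the rows whose labels are compatible with a signal near `c` -/
def near (d k : ℕ) (c : E d) (ρ : ℝ) : Set (Fin k → E d × ℝ) :=
  {z | ∑ j, ((z j).2 - inner ℝ (z j).1 c) ^ 2 ≤ 4 * k * ρ ^ 2}

lemma measurableSet_near (c : E d) (ρ : ℝ) : MeasurableSet (near d k c ρ) := by
  have h1 : Continuous fun z : Fin k → E d × ℝ => ∑ j, ((z j).2 - inner ℝ (z j).1 c) ^ 2 := by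
    fun_prop
  exact measurableSet_le h1.measurable measurable_const

lemma lam_near_le (c : E d) {ρ : ℝ} (hρ : 0 < ρ) :
    lam (E d) (Fin k) (near d k c ρ) ≤
      ENNReal.ofReal ((Real.exp 2 * (√(2 * Real.pi) * ρ)) ^ k) := by
  set ρn : ℝ≥0 := ⟨ρ, hρ.le⟩ with hρn
  have hρ0 : ρn ^ 2 ≠ 0 := by
    refine pow_ne_zero 2 fun h => hρ.ne' ?_
    have : (ρn : ℝ) = 0 := by rw [h]; rfl
    exact this
  set K := ENNReal.ofReal (Real.exp 2 * (√(2 * Real.pi) * ρ)) with hK
  have h1 : ∀ z, (near d k c ρ).indicator (fun _ => (1 : ℝ≥0∞)) z ≤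
      ∏ j : Fin k, (K * kapI (ρn ^ 2) [c] (z j)) := by
    intro z
    by_cases hz : z ∈ near d k c ρ
    · rw [Set.indicator_of_mem hz]
      have h2 : ∀ j, K * kapI (ρn ^ 2) [c] (z j) =
          ENNReal.ofReal (Real.exp (2 - ((z j).2 - inner ℝ (z j).1 c) ^ 2 / (2 * ρ ^ 2))) := by
        intro j
        rw [hK, kapI, List.map_singleton, List.prod_singleton, gaussianPDF,
          ← ENNReal.ofReal_mul (by positivity)]
        congr 1
        rw [gaussianPDFReal]
        have e1 : ((ρn ^ 2 : ℝ≥0) : ℝ) = ρ ^ 2 := by rw [NNReal.coe_pow]; rfl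
        rw [e1, Real.sqrt_mul (by positivity : (0 : ℝ) ≤ 2 * Real.pi) (ρ ^ 2),
          Real.sqrt_sq hρ.le, sub_eq_add_neg 2, Real.exp_add, neg_div]
        have h3 : √(2 * Real.pi) ≠ 0 := by positivity
        field_simp
      rw [Finset.prod_congr rfl fun j _ => h2 j, ← ENNReal.ofReal_prod_of_nonneg
        (fun j _ => (Real.exp_pos _).le), ← Real.exp_sum]
      rw [← ENNReal.ofReal_one]
      apply ENNReal.ofReal_le_ofReal
      rw [← Real.exp_zero]
      apply Real.exp_le_exp.2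
      rw [Finset.sum_sub_distrib, ← Finset.sum_div]
      simp only [Finset.sum_const, Finset.card_univ, Fintype.card_fin, nsmul_eq_mul]
      have h4 : (∑ j, ((z j).2 - inner ℝ (z j).1 c) ^ 2) ≤ 4 * k * ρ ^ 2 := hz
      have h5 : (∑ j, ((z j).2 - inner ℝ (z j).1 c) ^ 2) / (2 * ρ ^ 2) ≤ k * 2 := by
        rw [div_le_iff₀ (by positivity)]
        linarith
      linarith
    · rw [Set.indicator_of_notMem hz]; exact bot_le
  calc lam (E d) (Fin k) (near d k c ρ)
      = ∫⁻ z, (near d k c ρ).indicator (fun _ => (1 : ℝ≥0∞)) z ∂(lam (E d) (Fin k)) := by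
        rw [lintegral_indicator (measurableSet_near c ρ)]; simp
    _ ≤ ∫⁻ z, ∏ j : Fin k, (K * kapI (ρn ^ 2) [c] (z j)) ∂(lam (E d) (Fin k)) :=
        lintegral_mono h1
    _ = (∫⁻ p, K * kapI (ρn ^ 2) [c] p ∂((stdGaussian (E d)).prod volume)) ^ k := by
        rw [lintegral_pi_prod_pow _ _ ((measurable_kapI _ _).const_mul _), Fintype.card_fin]
    _ = K ^ k := by
        rw [lintegral_const_mul _ (measurable_kapI _ _), ← kap, kap_singleton hρ0, mul_one]
    _ = ENNReal.ofReal ((Real.exp 2 * (√(2 * Real.pi) * ρ)) ^ k) := by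
        rw [hK, ENNReal.ofReal_pow (by positivity)]

lemma gk_near_compl_le (c : E d) {ρ : ℝ} (hρ : 0 < ρ) (s : Sph d) (hs : dist (s : E d) c ≤ ρ) :
    gk d k (near d k c ρ)ᶜ s ≤ Real.exp (-(k : ℝ) / 2) := by
  rw [gk, Measure.real]
  refine ENNReal.toReal_le_of_le_ofReal (Real.exp_pos _).le ?_
  refine le_trans (le_of_eq ?_) (chi_tail k ((s : E d) - c) ρ hρ (by rwa [← dist_eq_norm]))
  congr 1
  ext X
  simp only [near, Set.mem_ofPred_eq, Set.mem_compl_iff, not_le, inner_sub_right]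

/-- layer-cake bound for a negative moment -/
lemma moment_le {α : Type*} [MeasurableSpace α] (ν : Measure α) [IsProbabilityMeasure ν]
    {D : α → ℝ} (hD : Measurable D) {ρ θ : ℝ} (hρ : 0 < ρ) (hθ : 1 ≤ θ) (hk : 1 ≤ k)
    (h : ∀ l : ℕ, 4 ≤ l → ν {s | D s ≤ ρ * Real.exp (-l)} ≤
      ENNReal.ofReal (θ * Real.exp (-(4 * k * l)))) :
    ∫⁻ s, ((ENNReal.ofReal (√(2 * Real.pi) * D s))⁻¹) ^ (2 * k) ∂ν ≤
      ENNReal.ofReal (((2 * Real.pi) ^ k * ρ ^ (2 * k))⁻¹ * (2 * θ * Real.exp (8 * k))) := by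
  set C : ℝ := ((2 * Real.pi) ^ k * ρ ^ (2 * k))⁻¹ with hC
  have hC0 : 0 < C := by positivity
  set a : ℕ → ℝ≥0∞ := fun l => ENNReal.ofReal (C * Real.exp (2 * k * l)) with ha
  have ha_eq : ∀ l : ℕ, a l = ((ENNReal.ofReal (√(2 * Real.pi) * (ρ * Real.exp (-l))))⁻¹) ^ (2 * k) := by
    intro l
    have e1 : (√(2 * Real.pi) * (ρ * Real.exp (-l))) ^ (2 * k) =
        (2 * Real.pi) ^ k * ρ ^ (2 * k) * Real.exp (-(2 * k * l)) := by
      rw [mul_pow, mul_pow, pow_mul (√(2 * Real.pi)), Real.sq_sqrt (by positivity),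
        ← Real.exp_nat_mul, ← mul_assoc]
      congr 2
      push_cast; ring
    rw [← ENNReal.ofReal_inv_of_pos (by positivity), ← ENNReal.ofReal_pow (by positivity),
      inv_pow, e1, mul_inv _ (Real.exp _), ← Real.exp_neg, neg_neg]
  have hbound : ∀ (l : ℕ) (s : α), ρ * Real.exp (-l) ≤ D s →
      ((ENNReal.ofReal (√(2 * Real.pi) * D s))⁻¹) ^ (2 * k) ≤ a l := by
    intro l s hs
    rw [ha_eq]
    gcongr
  have hpt : ∀ s, ((ENNReal.ofReal (√(2 * Real.pi) * D s))⁻¹) ^ (2 * k) ≤
      a 4 + ∑' i : ℕ, a (i + 5) * ({s | D s ≤ ρ * Real.exp (-((i + 4 : ℕ) : ℝ))} : Set α).indicator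
        (fun _ => 1) s := by
    intro s
    rcases le_or_gt (D s) 0 with h0 | h0
    · -- all indicators are one
      have h1 : ∑' i : ℕ, a (i + 5) *
          ({s | D s ≤ ρ * Real.exp (-((i + 4 : ℕ) : ℝ))} : Set α).indicator (fun _ => 1) s = ∞ := by
        rw [eq_top_iff]
        calc (∞ : ℝ≥0∞) = ∑' _ : ℕ, a 0 := by
              rw [ENNReal.tsum_const_eq_top_of_ne_zero]
              rw [ha]
              simp only [ne_eq, ENNReal.ofReal_eq_zero, not_le]
              positivity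
          _ ≤ _ := by
              refine ENNReal.tsum_le_tsum fun i => ?_
              rw [Set.indicator_of_mem, mul_one]
              · simp only [ha]
                apply ENNReal.ofReal_le_ofReal
                gcongr
                exact Nat.cast_le.2 (Nat.zero_le _)
              · exact h0.trans (by positivity)
      rw [h1, add_top]; exact le_top
    · rcases le_or_gt (D s) (ρ * Real.exp (-((4 : ℕ) : ℝ))) with h4 | h4
      · obtain ⟨i, hi1, hi2⟩ : ∃ i : ℕ, ρ * Real.exp (-((i + 5 : ℕ) : ℝ)) ≤ D s ∧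
            D s ≤ ρ * Real.exp (-((i + 4 : ℕ) : ℝ)) := by
          set x := Real.log (ρ / D s) with hx
          have hx4 : (4 : ℝ) ≤ x := by
            rw [hx, Real.le_log_iff_exp_le (by positivity), le_div_iff₀ h0]
            have := mul_le_mul_of_nonneg_left h4 (Real.exp_pos 4).le
            calc Real.exp 4 * D s ≤ Real.exp 4 * (ρ * Real.exp (-((4 : ℕ) : ℝ))) := this
              _ = ρ := by
                rw [mul_left_comm, ← Real.exp_add]; norm_num
          have hDx : D s = ρ * Real.exp (-x) := by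
            rw [hx, Real.exp_neg, Real.exp_log (by positivity)]
            field_simp
          have hfl : (4 : ℕ) ≤ ⌊x⌋₊ := Nat.le_floor (by exact_mod_cast hx4)
          obtain ⟨i, hi⟩ := Nat.exists_eq_add_of_le hfl
          have h6 := Nat.floor_le (by linarith : (0 : ℝ) ≤ x)
          have h7 := Nat.lt_floor_add_one x
          rw [hi] at h6 h7
          push_cast at h6 h7
          refine ⟨i, ?_, ?_⟩
          · rw [hDx]; gcongr; push_cast; linarith
          · rw [hDx]; gcongr; push_cast; linarith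
        refine (hbound (i + 5) s hi1).trans ?_
        refine le_trans ?_ le_add_self
        refine le_trans ?_ (ENNReal.le_tsum i)
        have hi3 : s ∈ {s | D s ≤ ρ * Real.exp (-((i + 4 : ℕ) : ℝ))} := hi2
        rw [Set.indicator_of_mem hi3, mul_one]
      · exact (hbound 4 s h4.le).trans le_self_add
  refine (lintegral_mono hpt).trans ?_
  have hmeas : ∀ i : ℕ, MeasurableSet {s | D s ≤ ρ * Real.exp (-((i + 4 : ℕ) : ℝ))} :=
    fun i => measurableSet_le hD measurable_const
  rw [lintegral_add_left measurable_const, lintegral_const, measure_univ, mul_one,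
    lintegral_tsum (fun i => ((measurable_const.indicator (hmeas i)).const_mul _).aemeasurable)]
  have hterm : ∀ i : ℕ, ∫⁻ s, a (i + 5) *
      ({s | D s ≤ ρ * Real.exp (-((i + 4 : ℕ) : ℝ))} : Set α).indicator (fun _ => 1) s ∂ν ≤
      ENNReal.ofReal (C * θ * (1 / 2 / 2 ^ i)) := by
    intro i
    rw [lintegral_const_mul _ (measurable_const.indicator (hmeas i)),
      lintegral_indicator (hmeas i)]
    simp only [lintegral_const, MeasurableSet.univ, Measure.restrict_apply, Set.univ_inter, one_mul]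
    refine (mul_le_mul_right (h (i + 4) (by omega)) _).trans ?_
    rw [ha, ← ENNReal.ofReal_mul (by positivity)]
    apply ENNReal.ofReal_le_ofReal
    have hk1 : (1 : ℝ) ≤ k := by exact_mod_cast hk
    have e2 : C * Real.exp (2 * k * ((i + 5 : ℕ) : ℝ)) *
        (θ * Real.exp (-(4 * k * ((i + 4 : ℕ) : ℝ)))) =
        C * θ * Real.exp (-(6 * k + 2 * k * i)) := by
      rw [mul_mul_mul_comm, ← Real.exp_add]
      congr 2
      push_cast; ring
    rw [e2]
    gcongr
    have e3 : (1 : ℝ) / 2 / 2 ^ i = (2 ^ (i + 1))⁻¹ := by rw [pow_succ]; field_simp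
    rw [e3, Real.exp_neg]
    apply inv_anti₀ (by positivity)
    have e4 : (2 : ℝ) ≤ Real.exp 1 := by
      have := Real.add_one_le_exp (1 : ℝ); linarith
    calc (2 : ℝ) ^ (i + 1) ≤ (Real.exp 1) ^ (i + 1) := by gcongr
      _ = Real.exp (i + 1) := by rw [← Real.exp_nat_mul]; push_cast; ring_nf
      _ ≤ Real.exp (6 * k + 2 * k * i) := by
          apply Real.exp_le_exp.2
          have : (0 : ℝ) ≤ i := Nat.cast_nonneg i
          nlinarith
  have hsum : ∑' i : ℕ, ENNReal.ofReal (C * θ * (1 / 2 / 2 ^ i)) = ENNReal.ofReal (C * θ) := by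
    rw [← ENNReal.ofReal_tsum_of_nonneg (fun i => by positivity)
      ((summable_geometric_two' 1).mul_left (C * θ)), tsum_mul_left, tsum_geometric_two' 1, mul_one]
  calc a 4 + ∑' i : ℕ, ∫⁻ s, a (i + 5) *
        ({s | D s ≤ ρ * Real.exp (-((i + 4 : ℕ) : ℝ))} : Set α).indicator (fun _ => 1) s ∂ν
      ≤ a 4 + ∑' i : ℕ, ENNReal.ofReal (C * θ * (1 / 2 / 2 ^ i)) := by
        gcongr
        exact hterm _
    _ = ENNReal.ofReal (C * Real.exp (8 * k) + C * θ) := by
        rw [hsum, ENNReal.ofReal_add (by positivity) (by positivity), ha]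
        congr 4
        push_cast; ring_nf
    _ ≤ ENNReal.ofReal (C * (2 * θ * Real.exp (8 * k))) := by
        apply ENNReal.ofReal_le_ofReal
        have e5 : 1 ≤ Real.exp (8 * k) := Real.one_le_exp (by positivity)
        have e6 : Real.exp (8 * k) + θ ≤ 2 * θ * Real.exp (8 * k) := by nlinarith
        calc C * Real.exp (8 * k) + C * θ = C * (Real.exp (8 * k) + θ) := by ring
          _ ≤ _ := by gcongr

end Vale.Agent.P309
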