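import Vale.Agent.P309.Kacz

/-!
The quantised Kaczmarz learner: `d log₂ (C d / ε)` bits and `C d log (C / ε)` rows suffice.
-/

open MeasureTheory ProbabilityTheory
open scoped ENNReal NNReal

namespace Vale.Agent.P309

/-- The learner `L` uses no coins and its output depends on the final state only. -/
def Learner.Plain {d M : ℕ} (L : Learner d M) : Prop :=
  (∀ ω ω', L.init ω = L.init ω') ∧ (∀ t ω ω' q x y, L.step t ω q x y = L.step t ω' q x y) ∧
    ∀ t t' ω ω' q, L.out t ω q = L.out t' ω' q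

variable {d M : ℕ}

/-- the new estimate after one row, before rounding -/
noncomputable def knew (z x : E d) (y : ℝ) : E d :=
  rad (z + ((y - (inner ℝ x z : ℝ)) / ‖x‖ ^ 2) • x)

lemma norm_knew_le (z x : E d) (y : ℝ) : ‖knew z x y‖ ≤ 1 := norm_rad_le _

lemma norm_knew_sub_le (z x : E d) {s : E d} (hs : ‖s‖ ≤ 1) :
    ‖knew z x (inner ℝ x s) - s‖ ≤ ‖kerr x (z - s)‖ := by
  refine (norm_rad_sub_le _ hs).trans (le_of_eq ?_)
  congr 1
  rw [kerr, inner_sub_right]
  have : ((inner ℝ x s : ℝ) - inner ℝ x z) / ‖x‖ ^ 2 = -((inner ℝ x z - inner ℝ x s) / ‖x‖ ^ 2) := by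
    ring
  rw [this, neg_smul]
  abel

lemma measurable_knew (z : E d) : Measurable fun p : E d × ℝ => knew z p.1 p.2 := by
  unfold knew
  have h1 : Measurable fun p : E d × ℝ => (inner ℝ p.1 z : ℝ) := by
    have : Continuous fun p : E d × ℝ => (inner ℝ p.1 z : ℝ) := by fun_prop
    exact this.measurable
  refine measurable_rad.comp ?_
  fun_prop

/-- normalisation -/
noncomputable def nrm (e0 : Sph d) (z : E d) : Sph d :=
  if h : z = 0 then e0 else ⟨‖z‖⁻¹ • z, by
    rw [mem_sphere_zero_iff_norm, norm_smul, norm_inv, norm_norm,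
      inv_mul_cancel₀ (norm_ne_zero_iff.2 h)]⟩

lemma arccos_nrm_le (e0 : Sph d) {z s : E d} (hs : ‖s‖ = 1) {ε : ℝ} (hε : 0 < ε) (hε1 : ε ≤ 1)
    (h : ‖z - s‖ ≤ ε / 4) : Real.arccos (inner ℝ (nrm e0 z : E d) s) ≤ ε := by
  have hz : z ≠ 0 := by
    rintro rfl
    rw [zero_sub, norm_neg, hs] at h
    linarith
  have hz0 : ‖z‖ ≠ 0 := norm_ne_zero_iff.2 hz
  have hzs : |‖z‖ - 1| ≤ ε / 4 := by
    have := abs_norm_sub_norm_le z s
    rw [hs] at this
    linarith
  set u : E d := ‖z‖⁻¹ • z with hu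
  have hu1 : ‖u‖ = 1 := by
    rw [hu, norm_smul, norm_inv, norm_norm, inv_mul_cancel₀ hz0]
  have huz : ‖u - z‖ ≤ ε / 4 := by
    have h1 : u - z = (1 - ‖z‖) • u := by
      rw [sub_smul, one_smul, hu, smul_smul, mul_inv_cancel₀ hz0, one_smul]
    rw [h1, norm_smul, hu1, mul_one, Real.norm_eq_abs, abs_sub_comm]
    exact hzs
  have hus : ‖u - s‖ ≤ ε / 2 := by
    have := norm_sub_le_norm_sub_add_norm_sub u z s
    linarith
  have h2 : (inner ℝ u s : ℝ) = 1 - ‖u - s‖ ^ 2 / 2 := by
    rw [@norm_sub_sq_real, hu1, hs]; ring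
  have h3 : Real.cos ε ≤ inner ℝ u s := by
    rw [h2]
    have h4 : |ε| ≤ Real.pi := by
      rw [abs_of_pos hε]; linarith [Real.pi_gt_three]
    have h5 := Real.cos_le_one_sub_mul_cos_sq h4
    have h6 : ‖u - s‖ ^ 2 ≤ ε ^ 2 / 4 := by
      have := norm_nonneg (u - s)
      nlinarith
    have h7 : ε ^ 2 / 8 ≤ 2 / Real.pi ^ 2 * ε ^ 2 := by
      have h8 : (1 : ℝ) / 8 ≤ 2 / Real.pi ^ 2 := by
        rw [div_le_div_iff₀ (by norm_num) (by positivity)]
        nlinarith [Real.pi_le_four, Real.pi_pos]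
      nlinarith [sq_nonneg ε]
    linarith
  have h9 : (nrm e0 z : E d) = u := by
    rw [nrm, dif_neg hz]
  rw [h9]
  calc Real.arccos (inner ℝ u s) ≤ Real.arccos (Real.cos ε) := Real.arccos_le_arccos h3
    _ = ε := Real.arccos_cos hε.le (by linarith [Real.pi_gt_three])

/-- the quantised Kaczmarz learner -/
noncomputable def kL (Q : E d → Fin (2 ^ M)) (D : Fin (2 ^ M) → E d) (hQ : Measurable Q)
    (e0 : Sph d) : Learner d M where
  Ω := Unit
  mΩ := inferInstance
  P := Measure.dirac ()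
  prob := inferInstance
  init := fun _ => Q 0
  step := fun _ _ q x y => (Q (knew (D q) x y), false)
  out := fun _ _ q => nrm e0 (D q)
  measurable_init := measurable_const
  measurable_step := fun _ q => (hQ.comp ((measurable_knew (D q)).comp
    (f := fun p : Unit × E d × ℝ => (p.2.1, p.2.2)) (by fun_prop))).prodMk measurable_const
  measurable_out := fun _ _ => measurable_const

/-- the final state of the quantised Kaczmarz learner -/
noncomputable def kfin (Q : E d → Fin (2 ^ M)) (D : Fin (2 ^ M) → E d) (s : E d) :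
    (n : ℕ) → Fin (2 ^ M) → (Fin n → E d) → Fin (2 ^ M)
  | 0, q, _ => q
  | n + 1, q, x => kfin Q D s n (Q (knew (D q) (x 0) (inner ℝ (x 0) s))) (Fin.tail x)

lemma run_kL (Q : E d → Fin (2 ^ M)) (D : Fin (2 ^ M) → E d) (hQ : Measurable Q)
    (e0 : Sph d) (s : E d) (n : ℕ) : ∀ (t : ℕ) (q : Fin (2 ^ M)) (x : Fin n → E d),
    (kL Q D hQ e0).run () s n t q x = nrm e0 (D (kfin Q D s n q x)) := by
  induction n with
  | zero => intro t q x; rfl
  | succ n ih =>
    intro t q x
    have h1 := ih (t + 1) (Q (knew (D q) (x 0) (inner ℝ (x 0) s))) (Fin.tail x)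
    rw [kfin, ← h1]
    simp only [Learner.run]
    rfl

lemma measurable_kfin {Q : E d → Fin (2 ^ M)} (D : Fin (2 ^ M) → E d) (hQ : Measurable Q)
    (s : E d) (n : ℕ) : ∀ q, Measurable (kfin Q D s n q) := by
  induction n with
  | zero => intro q; exact measurable_const
  | succ n ih =>
    intro q
    let F : (Fin (n + 1) → E d) × Fin (2 ^ M) → Fin (2 ^ M) := fun w =>
      kfin Q D s n w.2 (Fin.tail w.1)
    have hF : Measurable F := by
      apply measurable_from_prod_countable_left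
      intro q'
      have htail : Measurable fun x : Fin (n + 1) → E d => (Fin.tail x : Fin n → E d) :=
        measurable_pi_lambda _ fun j => measurable_pi_apply _
      exact (ih q').comp htail
    have hG : Measurable fun x : Fin (n + 1) → E d =>
        Q (knew (D q) (x 0) (inner ℝ (x 0) s)) := by
      refine hQ.comp ((measurable_knew (D q)).comp
        (f := fun x : Fin (n + 1) → E d => (x 0, (inner ℝ (x 0) s : ℝ))) ?_)
      have : Continuous fun x : Fin (n + 1) → E d => (x 0, (inner ℝ (x 0) s : ℝ)) := by fun_prop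
      exact this.measurable
    exact hF.comp (measurable_id.prodMk hG)

theorem kfin_bound (hd : 1 ≤ d) {Q : E d → Fin (2 ^ M)} (D : Fin (2 ^ M) → E d)
    (hQ : Measurable Q) {δ : ℝ} (hδ : 0 < δ) (hD : ∀ v, ‖v‖ ≤ 1 → ‖D (Q v) - v‖ ≤ δ)
    {s : E d} (hs : ‖s‖ ≤ 1) (n : ℕ) : ∀ q,
    ∫⁻ x, ENNReal.ofReal ‖D (kfin Q D s n q x) - s‖ ∂(Measure.pi fun _ : Fin n => stdGaussian (E d)) ≤
      ENNReal.ofReal ((1 - 1 / (2 * d)) ^ n * ‖D q - s‖ + (1 - (1 - 1 / (2 * d)) ^ n) * (2 * d * δ))
    := by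
  have hd' : (1 : ℝ) ≤ d := by exact_mod_cast hd
  have ha0 : (0 : ℝ) ≤ 1 - 1 / (2 * d) := by
    rw [sub_nonneg, div_le_one (by positivity)]; linarith
  have ha1 : (1 : ℝ) - 1 / (2 * d) ≤ 1 := by
    have : (0 : ℝ) ≤ 1 / (2 * d) := by positivity
    linarith
  set a : ℝ := 1 - 1 / (2 * d) with ha
  have : Nontrivial (E d) := by
    have : Nonempty (Fin d) := ⟨⟨0, hd⟩⟩
    infer_instance
  induction n with
  | zero => intro q; simp [kfin]
  | succ n ih =>
    intro q
    have h1 := (measurePreserving_piFinSuccAbove (fun _ : Fin (n + 1) => stdGaussian (E d)) 0).symm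
    have hm : Measurable fun x : Fin (n + 1) → E d =>
        ENNReal.ofReal ‖D (kfin Q D s (n + 1) q x) - s‖ :=
      (measurable_of_countable fun q : Fin (2 ^ M) => ENNReal.ofReal ‖D q - s‖).comp
        (measurable_kfin D hQ s (n + 1) q)
    rw [← h1.lintegral_comp hm]
    refine (lintegral_prod _ (hm.comp h1.measurable).aemeasurable).trans_le ?_
    have hsec : ∀ (x₀ : E d) (x' : Fin n → E d),
        kfin Q D s (n + 1) q ((MeasurableEquiv.piFinSuccAbove
          (fun _ : Fin (n + 1) => E d) 0).symm (x₀, x')) =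
        kfin Q D s n (Q (knew (D q) x₀ (inner ℝ x₀ s))) x' := by
      intro x₀ x'
      simp only [MeasurableEquiv.piFinSuccAbove_symm_apply, Fin.insertNthEquiv,
        Equiv.coe_fn_mk, Fin.insertNth_zero, kfin, Fin.cons_zero, Fin.tail_cons]
      rfl
    have ha_n : 0 ≤ a ^ n := pow_nonneg ha0 n
    have ha_n1 : a ^ n ≤ 1 := pow_le_one₀ ha0 ha1
    have hδ' : 0 ≤ 2 * d * δ := by positivity
    calc ∫⁻ x₀, ∫⁻ x', ENNReal.ofReal ‖D (kfin Q D s (n + 1) q ((MeasurableEquiv.piFinSuccAbove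
          (fun _ : Fin (n + 1) => E d) 0).symm (x₀, x'))) - s‖
          ∂(Measure.pi fun _ : Fin n => stdGaussian (E d)) ∂(stdGaussian (E d))
        = ∫⁻ x₀, ∫⁻ x', ENNReal.ofReal
            ‖D (kfin Q D s n (Q (knew (D q) x₀ (inner ℝ x₀ s))) x') - s‖
            ∂(Measure.pi fun _ : Fin n => stdGaussian (E d)) ∂(stdGaussian (E d)) := by
          simp_rw [hsec]
      _ ≤ ∫⁻ x₀, ENNReal.ofReal (a ^ n * ‖D (Q (knew (D q) x₀ (inner ℝ x₀ s))) - s‖ +
            (1 - a ^ n) * (2 * d * δ)) ∂(stdGaussian (E d)) :=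
          lintegral_mono fun x₀ => ih _
      _ ≤ ∫⁻ x₀, ENNReal.ofReal (a ^ n) * ENNReal.ofReal ‖kerr x₀ (D q - s)‖ +
            ENNReal.ofReal (a ^ n * δ + (1 - a ^ n) * (2 * d * δ)) ∂(stdGaussian (E d)) := by
          refine lintegral_mono fun x₀ => ?_
          beta_reduce
          rw [← ENNReal.ofReal_mul ha_n, ← ENNReal.ofReal_add (by positivity)
            (add_nonneg (by positivity) (mul_nonneg (by linarith) hδ'))]
          apply ENNReal.ofReal_le_ofReal
          have e1 := hD _ (norm_knew_le (D q) x₀ (inner ℝ x₀ s))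
          have e2 := norm_knew_sub_le (D q) x₀ hs
          have e3 := norm_sub_le_norm_sub_add_norm_sub (D (Q (knew (D q) x₀ (inner ℝ x₀ s))))
            (knew (D q) x₀ (inner ℝ x₀ s)) s
          have e4 : ‖D (Q (knew (D q) x₀ (inner ℝ x₀ s))) - s‖ ≤ ‖kerr x₀ (D q - s)‖ + δ := by
            linarith
          nlinarith
      _ = ENNReal.ofReal (a ^ n) * ∫⁻ x₀, ENNReal.ofReal ‖kerr x₀ (D q - s)‖ ∂(stdGaussian (E d)) +
            ENNReal.ofReal (a ^ n * δ + (1 - a ^ n) * (2 * d * δ)) := by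
          rw [lintegral_add_right _ measurable_const, lintegral_const_mul' _ _ ENNReal.ofReal_ne_top]
          simp
      _ ≤ ENNReal.ofReal (a ^ n) * ENNReal.ofReal (a * ‖D q - s‖) +
            ENNReal.ofReal (a ^ n * δ + (1 - a ^ n) * (2 * d * δ)) := by
          gcongr
          have := kerr_contract (V := E d) (D q - s)
          rwa [finrank_euclideanSpace_fin, ← ha] at this
      _ = ENNReal.ofReal (a ^ (n + 1) * ‖D q - s‖ + (1 - a ^ (n + 1)) * (2 * d * δ)) := by
          rw [← ENNReal.ofReal_mul ha_n, ← ENNReal.ofReal_add (by positivity)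
            (add_nonneg (by positivity) (mul_nonneg (by linarith) hδ'))]
          congr 1
          have e5 : δ = (1 - a) * (2 * d * δ) := by rw [ha]; field_simp; ring
          have e6 : a ^ n * δ = a ^ n * ((1 - a) * (2 * d * δ)) := by rw [← e5]
          rw [pow_succ, e6]
          ring

/-- it suffices to bound the failure probability for each signal and all coins -/
lemma succeeds_of [NeZero d] (L : Learner d M) (T : ℕ) (ε : ℝ)
    (key : ∀ (ω : L.Ω) (s : Sph d), (Measure.pi fun _ : Fin T => stdGaussian (E d))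
      {x | ¬ Real.arccos (inner ℝ (L.run ω s T 0 (L.init ω) x : E d) (s : E d)) ≤ ε} ≤ 1 / 3) :
    L.Succeeds T ε := by
  let _ := L.mΩ
  have hprob : IsProbabilityMeasure L.P := L.prob
  unfold Learner.Succeeds
  set A : Set (L.Ω × (Fin T → E d) × Sph d) := {p |
      Real.arccos (inner ℝ (L.run p.1 p.2.2 T 0 (L.init p.1) p.2.1 : E d) (p.2.2 : E d)) ≤ ε} with hA
  have hmeas : MeasurableSet A := by
    apply measurableSet_le _ measurable_const
    apply Real.measurable_arccos.comp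
    have h1 := L.measurable_run_init T
    have h2 : Measurable fun p : L.Ω × (Fin T → E d) × Sph d =>
        (L.run p.1 p.2.2 T 0 (L.init p.1) p.2.1 : E d) := measurable_subtype_coe.comp h1
    have h3 : Measurable fun p : L.Ω × (Fin T → E d) × Sph d => (p.2.2 : E d) := by fun_prop
    exact h2.inner h3
  set μ := (L.P.prod ((Measure.pi fun _ : Fin T => stdGaussian (E d)).prod (unif d))) with hμ
  have hcompl : μ Aᶜ ≤ 1 / 3 := by
    rw [hμ, Measure.prod_apply hmeas.compl]
    calc _ ≤ ∫⁻ _ : L.Ω, 1 / 3 ∂L.P := by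
          refine lintegral_mono fun ω => ?_
          beta_reduce
          rw [Measure.prod_apply_symm (measurable_prodMk_left hmeas.compl)]
          calc _ ≤ ∫⁻ _ : Sph d, 1 / 3 ∂(unif d) := lintegral_mono fun s => key ω s
            _ ≤ 1 / 3 := by simp
      _ = 1 / 3 := by simp
  have hprobμ : IsProbabilityMeasure μ := inferInstance
  have h13 : μ A + μ Aᶜ = 1 := prob_add_prob_compl hmeas
  have h14 : 1 ≤ μ A + 1 / 3 := h13.symm.le.trans (by gcongr)
  have h15 : (1 : ℝ≥0∞) = 2 / 3 + 1 / 3 := by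
    rw [← ENNReal.add_div]
    norm_num
    rw [ENNReal.div_self (by norm_num) (by norm_num)]
  have h16 : (2 : ℝ≥0∞) / 3 + 1 / 3 ≤ μ A + 1 / 3 := h15.symm.le.trans h14
  exact (ENNReal.add_le_add_iff_right (by simp)).1 h16

/-- MODULE U: the quantised Kaczmarz learner succeeds. -/
theorem upper_bound : ∃ C : ℝ, 0 < C ∧ ∀ d : ℕ, 2 ≤ d → ∀ ε : ℝ, 0 < ε → ε ≤ 1 → ∀ M T : ℕ,
    (d : ℝ) * Real.logb 2 (C * d / ε) ≤ M → C * d * Real.log (C / ε) ≤ T →
      ∃ L : Learner d M, L.Plain ∧ L.Succeeds T ε := by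
  refine ⟨97, by norm_num, fun d hd ε hε hε1 M T hM hT => ?_⟩
  have hd' : (2 : ℝ) ≤ d := by exact_mod_cast hd
  set δ : ℝ := ε / (48 * d) with hδdef
  have hδ : 0 < δ := by positivity
  have hcard : (1 + 2 / δ) ^ (Module.finrank ℝ (E d)) ≤ ((2 ^ M : ℕ) : ℝ) := by
    rw [finrank_euclideanSpace_fin]
    have h1 : 1 + 2 / δ ≤ 97 * d / ε := by
      have : 2 / δ = 96 * d / ε := by rw [hδdef]; field_simp; norm_num
      rw [this]
      have h2 : (1 : ℝ) ≤ d / ε := by rw [le_div_iff₀ hε]; linarith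
      have h3 : 97 * (d : ℝ) / ε = 96 * d / ε + d / ε := by ring
      linarith
    calc (1 + 2 / δ) ^ d ≤ (97 * d / ε) ^ d := by gcongr
      _ = 2 ^ ((d : ℝ) * Real.logb 2 (97 * d / ε)) := by
          rw [mul_comm (d : ℝ) (Real.logb _ _), Real.rpow_mul (by norm_num),
            Real.rpow_logb (by norm_num) (by norm_num) (by positivity), Real.rpow_natCast]
      _ ≤ 2 ^ (M : ℝ) := Real.rpow_le_rpow_of_exponent_le (by norm_num) hM
      _ = ((2 ^ M : ℕ) : ℝ) := by rw [Real.rpow_natCast]; push_cast; rfl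
  obtain ⟨Q, D, hQ, hD⟩ := exists_quant (V := E d) (n := 2 ^ M) (by positivity) hδ hcard
  have : Nontrivial (E d) := by
    have : Nonempty (Fin d) := ⟨⟨0, by omega⟩⟩
    infer_instance
  obtain ⟨v0, hv0⟩ := exists_norm_eq (E d) (zero_le_one (α := ℝ))
  let e0 : Sph d := ⟨v0, by simpa using hv0⟩
  refine ⟨kL Q D hQ e0, ⟨fun _ _ => rfl, fun _ _ _ _ _ _ => rfl, fun _ _ _ _ _ => rfl⟩, ?_⟩
  have hNZ : NeZero d := ⟨by omega⟩
  set L := kL Q D hQ e0 with hL
  apply succeeds_of
  · rintro ⟨⟩ s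
    have hs : ‖(s : E d)‖ = 1 := by simp
    have h1 : {x : Fin T → E d | ¬ Real.arccos (inner ℝ (L.run () s T 0 (L.init ()) x : E d)
        (s : E d)) ≤ ε} ⊆ {x | ENNReal.ofReal (ε / 4) ≤
          ENNReal.ofReal ‖D (kfin Q D s T (Q 0) x) - s‖} := by
      intro x hx
      simp only [Set.mem_ofPred_eq] at hx ⊢
      by_contra hcon
      apply hx
      have h2 : ‖D (kfin Q D s T (Q 0) x) - s‖ ≤ ε / 4 := by
        by_contra h3
        exact hcon (ENNReal.ofReal_le_ofReal (not_le.1 h3).le)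
      have h4 := run_kL Q D hQ e0 (s : E d) T 0 (Q 0) x
      have h5 : L.run () s T 0 (L.init ()) x = nrm e0 (D (kfin Q D s T (Q 0) x)) := h4
      rw [h5]
      exact arccos_nrm_le e0 hs hε hε1 h2
    refine (measure_mono h1).trans ?_
    have hm : Measurable fun x : Fin T → E d => ENNReal.ofReal ‖D (kfin Q D s T (Q 0) x) - s‖ :=
      (measurable_of_countable fun q : Fin (2 ^ M) => ENNReal.ofReal ‖D q - s‖).comp
        (measurable_kfin D hQ s T (Q 0))
    have h6 := mul_meas_ge_le_lintegral (μ := Measure.pi fun _ : Fin T => stdGaussian (E d)) hm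
      (ENNReal.ofReal (ε / 4))
    have h7 := kfin_bound (by omega) D hQ hδ hD hs.le T (Q 0)
    have ha0 : (0 : ℝ) ≤ 1 - 1 / (2 * d) := by
      rw [sub_nonneg, div_le_one (by positivity)]; linarith
    have h8 : (1 - 1 / (2 * d) : ℝ) ^ T ≤ ε / 48 := by
      have e1 : (1 - 1 / (2 * d) : ℝ) ≤ Real.exp (-(1 / (2 * d))) := by
        have := Real.add_one_le_exp (-(1 / (2 * (d : ℝ))))
        linarith
      calc (1 - 1 / (2 * d) : ℝ) ^ T ≤ Real.exp (-(1 / (2 * d))) ^ T := by gcongr
        _ = Real.exp (-(T / (2 * d))) := by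
            rw [← Real.exp_nat_mul]; congr 1; ring
        _ ≤ Real.exp (Real.log (ε / 48)) := by
            apply Real.exp_le_exp.2
            rw [neg_le, ← Real.log_inv, le_div_iff₀ (by positivity), inv_div]
            have e2 : Real.log (48 / ε) ≤ Real.log (97 / ε) := by
              apply Real.log_le_log (by positivity)
              gcongr
              norm_num
            have e3 : 0 ≤ Real.log (97 / ε) := by
              apply Real.log_nonneg
              rw [le_div_iff₀ hε]; linarith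
            nlinarith
        _ = ε / 48 := Real.exp_log (by positivity)
    have h9 : ‖D (Q 0) - s‖ ≤ 2 := by
      have e1 := hD 0 (by simp)
      have e2 := norm_sub_le_norm_sub_add_norm_sub (D (Q 0)) 0 (s : E d)
      rw [zero_sub, norm_neg, hs] at e2
      have e3 : δ ≤ 1 := by
        rw [hδdef, div_le_one (by positivity)]
        linarith
      linarith
    have h10 : (1 - 1 / (2 * d) : ℝ) ^ T * ‖D (Q 0) - s‖ +
        (1 - (1 - 1 / (2 * d)) ^ T) * (2 * d * δ) ≤ ε / 12 := by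
      have e1 : 2 * d * δ = ε / 24 := by rw [hδdef]; field_simp; norm_num
      rw [e1]
      have e2 : (0 : ℝ) ≤ (1 - 1 / (2 * d) : ℝ) ^ T := pow_nonneg ha0 T
      have e3 : (1 - 1 / (2 * d) : ℝ) ^ T * ‖D (Q 0) - s‖ ≤ ε / 48 * 2 := by
        have := norm_nonneg (D (Q 0) - s)
        gcongr
      nlinarith
    have h11 : ENNReal.ofReal (ε / 4) * (Measure.pi fun _ : Fin T => stdGaussian (E d))
        {x | ENNReal.ofReal (ε / 4) ≤ ENNReal.ofReal ‖D (kfin Q D s T (Q 0) x) - s‖} ≤
        ENNReal.ofReal (ε / 12) := h6.trans (h7.trans (ENNReal.ofReal_le_ofReal h10))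
    have h12 : ENNReal.ofReal (ε / 12) = ENNReal.ofReal (ε / 4) * (1 / 3) := by
      have : ε / 12 = ε / 4 * (1 / 3) := by ring
      rw [this, ENNReal.ofReal_mul (by positivity), ENNReal.ofReal_div_of_pos (by norm_num)]
      simp
    rw [h12] at h11
    exact (ENNReal.mul_le_mul_iff_right (by simp [hε]) ENNReal.ofReal_ne_top).1 h11

end Vale.Agent.P309
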