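import Vale.Agent.P309.Model
import Vale.Agent.P309.Final
import Vale.Agent.P309.Info
import Vale.Agent.P309.Upper

/-!
# P309: transport between the model with fresh coins and the model of `Defs.lean`
-/

open MeasureTheory ProbabilityTheory

namespace Vale.Agent.P309.Transport

open Vale.Agent.P309

variable {d M : ℕ}

theorem unif_eq (d : ℕ) : Model.uniformSphere d = unif d := rfl

/-- the learner with fresh coins, horizon `T`, as a learner with one big coin -/
noncomputable def big (L : Model.Learner d M) (T : ℕ) : Learner d M :=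
  letI := L.coinSpace
  letI := L.prob
  { Ω := (L.Coin × L.Coin) × (Fin T → L.Coin)
    mΩ := inferInstance
    P := (L.P.prod L.P).prod (Measure.pi fun _ : Fin T => L.P)
    prob := inferInstance
    init := fun ω => L.init ω.1.1
    step := fun t ω q x y => if h : t < T then L.step t q x y (ω.2 ⟨t, h⟩) else (q, true)
    out := fun _ ω q => L.out q ω.1.2
    measurable_init := L.measurable_init.comp (measurable_fst.comp measurable_fst)
    measurable_step := by
      intro t q
      by_cases h : t < T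
      · simp only [h, dif_pos]
        have hpi : Measurable fun f : Fin T → L.Coin => f ⟨t, h⟩ := measurable_pi_apply _
        exact (L.measurable_step t q).comp
          ((measurable_fst.comp measurable_snd).prodMk
            ((measurable_snd.comp measurable_snd).prodMk
              (hpi.comp (measurable_snd.comp measurable_fst))))
      · simp only [h, dif_neg, not_false_eq_true]
        exact measurable_const
    measurable_out := fun _ q => (L.measurable_out q).comp (measurable_snd.comp measurable_fst) }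

theorem run_succ (L : Learner d M) (ω : L.Ω) (s : E d) (n t : ℕ) (q : Fin (2 ^ M))
    (x : Fin (n + 1) → E d) :
    L.run ω s (n + 1) t q x = if (L.step t ω q (x 0) (inner ℝ (x 0) s)).2 = true then
      L.out (t + 1) ω (L.step t ω q (x 0) (inner ℝ (x 0) s)).1
    else L.run ω s n (t + 1) (L.step t ω q (x 0) (inner ℝ (x 0) s)).1 (Fin.tail x) := rfl

theorem final_succ (L : Model.Learner d M) (s : Model.Vec d) (n t : ℕ) (q : Fin (2 ^ M))
    (x : Fin (n + 1) → Model.Vec d) (c : Fin (n + 1) → L.Coin) :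
    L.final s (n + 1) t q x c = if (L.step t q (x 0) (inner ℝ (x 0) s) (c 0)).2 = true then
      (L.step t q (x 0) (inner ℝ (x 0) s) (c 0)).1
    else L.final s n (t + 1) (L.step t q (x 0) (inner ℝ (x 0) s) (c 0)).1 (Fin.tail x)
      (Fin.tail c) := rfl

theorem big_run (L : Model.Learner d M) (T : ℕ) (a b : L.Coin) (C : Fin T → L.Coin)
    (s : Model.Vec d) : ∀ (n t : ℕ) (q : Fin (2 ^ M)) (x : Fin n → Model.Vec d)
      (c : Fin n → L.Coin), (∀ i : Fin n, ∃ h : t + i < T, c i = C ⟨t + i, h⟩) →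
      (big L T).run ((a, b), C) s n t q x = L.out (L.final s n t q x c) b := by
  intro n
  induction n with
  | zero =>
    intro t q x c _
    rfl
  | succ n ih =>
    intro t q x c hc
    obtain ⟨h0, hc0⟩ := hc 0
    have hstep : (big L T).step t ((a, b), C) q (x 0) (inner ℝ (x 0) s) =
        L.step t q (x 0) (inner ℝ (x 0) s) (c 0) := by
      have ht : t < T := by simpa using h0
      change (if h : t < T then L.step t q (x 0) (inner ℝ (x 0) s) (C ⟨t, h⟩) else (q, true)) = _
      rw [dif_pos ht, hc0]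
      rfl
    refine (run_succ (big L T) ((a, b), C) s n t q x).trans ?_
    rw [final_succ, hstep]
    by_cases hs : (L.step t q (x 0) (inner ℝ (x 0) s) (c 0)).2 = true
    · rw [if_pos hs, if_pos hs]
      rfl
    · rw [if_neg hs, if_neg hs]
      apply ih
      intro i
      obtain ⟨h1, h2⟩ := hc i.succ
      have h3 : t + 1 + (i : ℕ) < T := by
        have : t + ((i.succ : Fin (n + 1)) : ℕ) < T := h1
        simp only [Fin.val_succ] at this
        omega
      refine ⟨h3, ?_⟩
      have : Fin.tail c i = c i.succ := rfl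
      rw [this, h2]
      congr 1
      apply Fin.ext
      simp only [Fin.val_succ]
      omega

theorem to_old (L : Model.Learner d M) (T : ℕ) (ε : ℝ) (h : L.Succeeds T ε) :
    ∃ L' : Learner d M, (∀ t t' ω q, L'.out t ω q = L'.out t' ω q) ∧ L'.Succeeds T ε := by
  refine ⟨big L T, fun _ _ _ _ => rfl, ?_⟩
  unfold Model.Learner.Succeeds at h
  unfold Learner.Succeeds
  refine h.trans (le_of_eq ?_)
  congr 1
  ext p
  obtain ⟨⟨⟨a, b⟩, C⟩, x, s⟩ := p
  simp only [Set.mem_ofPred_eq]
  have := big_run L T a b C (s : Model.Vec d) T 0 (L.init a) x C (fun i => ⟨by simp, by simp⟩)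
  change Real.arccos (inner ℝ (L.out (L.final (s : Model.Vec d) T 0 (L.init a) x C) b :
    Model.Vec d) (s : Model.Vec d)) ≤ ε ↔
    Real.arccos (inner ℝ ((big L T).run ((a, b), C) (s : Model.Vec d) T 0 (L.init a) x :
      Model.Vec d) (s : Model.Vec d)) ≤ ε
  rw [this]

/-- a coin-free learner in the model with fresh coins -/
noncomputable def free (L : Learner d M) (ω₀ : L.Ω) : Model.Learner d M :=
  letI := L.mΩ
  { Coin := Unit
    coinSpace := inferInstance
    P := Measure.dirac ()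
    prob := inferInstance
    init := fun _ => L.init ω₀
    step := fun t q x y _ => L.step t ω₀ q x y
    out := fun q _ => L.out 0 ω₀ q
    measurable_init := measurable_const
    measurable_step := fun t q => (L.measurable_step t q).comp
      (measurable_const.prodMk (measurable_fst.prodMk (measurable_fst.comp measurable_snd)))
    measurable_out := fun _ => measurable_const }

theorem free_run (L : Learner d M) (hp : L.Plain) (ω₀ ω : L.Ω) (b : Unit) (s : Model.Vec d) :
    ∀ (n t : ℕ) (q : Fin (2 ^ M)) (x : Fin n → Model.Vec d) (c : Fin n → Unit),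
      L.run ω s n t q x = (free L ω₀).out ((free L ω₀).final s n t q x c) b := by
  obtain ⟨_, hstep, hout⟩ := hp
  intro n
  induction n with
  | zero =>
    intro t q x c
    exact hout t 0 ω ω₀ q
  | succ n ih =>
    intro t q x c
    have e : (free L ω₀).step t q (x 0) (inner ℝ (x 0) s) (c 0) =
        L.step t ω q (x 0) (inner ℝ (x 0) s) := hstep t ω₀ ω q _ _
    rw [run_succ]
    refine Eq.trans ?_ (congrArg (fun z => (free L ω₀).out z b)
      (final_succ (free L ω₀) s n t q x c).symm)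
    rw [e]
    by_cases hs : (L.step t ω q (x 0) (inner ℝ (x 0) s)).2 = true
    · rw [if_pos hs, if_pos hs]
      exact hout (t + 1) 0 ω ω₀ _
    · rw [if_neg hs, if_neg hs]
      exact ih _ _ _ _

theorem of_plain (hd : 2 ≤ d) (L : Learner d M) (hp : L.Plain) (T : ℕ) (ε : ℝ)
    (h : L.Succeeds T ε) : Model.Solvable d M T ε := by
  let _ := L.mΩ
  have _ := L.prob
  have : NeZero d := ⟨by omega⟩
  have : IsProbabilityMeasure (Model.uniformSphere d) := unif_prob d
  have hne : Nonempty L.Ω := nonempty_of_isProbabilityMeasure L.P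
  obtain ⟨ω₀⟩ := hne
  refine ⟨free L ω₀, ?_⟩
  set A : Set ((Fin T → E d) × Sph d) := {p | Real.arccos (inner ℝ
    (L.run ω₀ (p.2 : E d) T 0 (L.init ω₀) p.1 : E d) (p.2 : E d)) ≤ ε} with hA
  have hrun : ∀ (ω : L.Ω) (s : E d) (n t : ℕ) (q : Fin (2 ^ M)) (x : Fin n → E d),
      L.run ω s n t q x = L.run ω₀ s n t q x := by
    intro ω s n t q x
    rw [free_run L hp ω₀ ω () s n t q x (fun _ => ()),
      free_run L hp ω₀ ω₀ () s n t q x (fun _ => ())]
  unfold Learner.Succeeds at h
  have h1 : {p : L.Ω × (Fin T → E d) × Sph d |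
      Real.arccos (inner ℝ (L.run p.1 p.2.2 T 0 (L.init p.1) p.2.1 : E d) (p.2.2 : E d)) ≤ ε} =
      Set.univ ×ˢ A := by
    ext p
    simp only [Set.mem_ofPred_eq, Set.mem_prod, Set.mem_univ, true_and, hA]
    rw [hrun p.1, hp.1 p.1 ω₀]
  rw [h1, Measure.prod_prod, measure_univ, one_mul] at h
  unfold Model.Learner.Succeeds
  refine h.trans ?_
  have h2 : {p : (((free L ω₀).Coin × (free L ω₀).Coin) × (Fin T → (free L ω₀).Coin)) ×
        (Fin T → Model.Vec d) × Model.Sphere d |
      Real.arccos (inner ℝ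
        ((free L ω₀).out ((free L ω₀).final p.2.2 T 0 ((free L ω₀).init p.1.1.1) p.2.1 p.1.2)
          p.1.1.2 : Model.Vec d) (p.2.2 : Model.Vec d)) ≤ ε} = Set.univ ×ˢ A := by
    ext p
    simp only [Set.mem_ofPred_eq, Set.mem_prod, Set.mem_univ, true_and, hA]
    rw [free_run L hp ω₀ ω₀ p.1.1.2 (p.2.2 : Model.Vec d) T 0 (L.init ω₀) p.2.1 p.1.2]
    rfl
  let _ := (free L ω₀).coinSpace
  have _ := (free L ω₀).prob
  rw [h2, Measure.prod_prod, measure_univ, one_mul]
  exact le_of_eq rfl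

/-! ### the four statements in the new model -/

theorem lower (A : ℝ) (hA : 0 < A) : ∃ c : ℝ, 0 < c ∧ ∃ ε₀ : ℝ, 0 < ε₀ ∧ ∃ d₀ : ℕ, ∀ d : ℕ,
    d₀ ≤ d → ∀ ε : ℝ, 0 < ε → ε ≤ ε₀ → ∀ M T : ℕ, (M : ℝ) ≤ A * d ^ 2 →
      Model.Solvable d M T ε → c * d * Real.log (1 / ε) ≤ T := by
  refine ⟨1 / (768 * (1 + 160 * A)), by positivity, Real.exp (-(26 * (1 + 160 * A))),
    Real.exp_pos _, 32, ?_⟩
  rintro d hd ε hε hε0 M T hM ⟨L0, hL0⟩
  obtain ⟨L, _, hL⟩ := to_old L0 T ε hL0
  have hε1 : ε ≤ 1 := hε0.trans (by rw [Real.exp_le_one_iff]; linarith)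
  have h1 := tradeoff hd hε hε1 L hL
  have hd0 : (0 : ℝ) < d := by exact_mod_cast (show 0 < d by omega)
  have hT0 : (0 : ℝ) ≤ T := Nat.cast_nonneg T
  have hB : (1 : ℝ) + 160 * M / d ^ 2 ≤ 1 + 160 * A := by
    have : 160 * (M : ℝ) / d ^ 2 ≤ 160 * A := by
      rw [div_le_iff₀ (by positivity)]
      linarith
    linarith
  have hlog : 26 * (1 + 160 * A) ≤ Real.log (1 / ε) := by
    rw [one_div, Real.log_inv]
    have := Real.log_le_log hε hε0
    rw [Real.log_exp] at this
    linarith
  have h2 : (d : ℝ) * (Real.log (1 / ε) - 13 * (1 + 160 * A)) ≤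
      d * (Real.log (1 / ε) - 13 * (1 + 160 * M / d ^ 2)) := by
    gcongr
  have h3 : 384 * (1 + 160 * (M : ℝ) / d ^ 2) * T ≤ 384 * (1 + 160 * A) * T := by
    gcongr
  have h4 : (d : ℝ) * (Real.log (1 / ε) / 2) ≤ d * (Real.log (1 / ε) - 13 * (1 + 160 * A)) := by
    gcongr
    linarith
  have h5 : (d : ℝ) * Real.log (1 / ε) ≤ 768 * (1 + 160 * A) * T := by linarith
  rw [div_mul_eq_mul_div, div_mul_eq_mul_div, one_mul, div_le_iff₀ (by positivity)]
  linarith

theorem explicit {d : ℕ} (hd : 32 ≤ d) {ε : ℝ} (hε : 0 < ε) (hε1 : ε ≤ 1) {M T : ℕ}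
    (h : Model.Solvable d M T ε) :
    (d : ℝ) * (Real.log (1 / ε) - 13 * (1 + 160 * M / d ^ 2)) ≤
      384 * (1 + 160 * M / d ^ 2) * T := by
  obtain ⟨L0, hL0⟩ := h
  obtain ⟨L, _, hL⟩ := to_old L0 T ε hL0
  exact tradeoff hd hε hε1 L hL

theorem memory {d : ℕ} (hd : 2 ≤ d) {ε : ℝ} (hε : 0 < ε) {M T : ℕ}
    (h : Model.Solvable d M T ε) :
    ((d : ℝ) - 1) * Real.logb 2 (1 / (2 * ε)) - 1 ≤ M := by
  obtain ⟨L0, hL0⟩ := h
  obtain ⟨L, ho, hL⟩ := to_old L0 T ε hL0
  exact info_bound hd L T hε ho hL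

theorem upper : ∃ C : ℝ, 0 < C ∧ ∀ d : ℕ, 2 ≤ d → ∀ ε : ℝ, 0 < ε → ε ≤ 1 / 2 → ∀ M T : ℕ,
    (d : ℝ) * Real.logb 2 (C * d / ε) ≤ M → C * d * Real.log (1 / ε) ≤ T →
      Model.Solvable d M T ε := by
  obtain ⟨C, hC, hup⟩ := upper_bound
  -- `log (C / ε) ≤ K log (1 / ε)`
  set C1 : ℝ := max C 2 with hC1
  have hC12 : 2 ≤ C1 := le_max_right _ _
  have hCC1 : C ≤ C1 := le_max_left _ _
  have hlog2 : 0 < Real.log 2 := Real.log_pos (by norm_num)
  set K : ℝ := 1 + Real.log C1 / Real.log 2 with hK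
  have hK1 : 1 ≤ K := by
    have : 0 ≤ Real.log C1 / Real.log 2 := div_nonneg (Real.log_nonneg (by linarith)) hlog2.le
    linarith
  refine ⟨C1 * K, by positivity, ?_⟩
  intro d hd ε hε hε2 M T hM hT
  have hd0 : (0 : ℝ) < d := by exact_mod_cast (show 0 < d by omega)
  have hle : C * d / ε ≤ C1 * K * d / ε := by
    have : C ≤ C1 * K := by nlinarith
    gcongr
  have h1 : (d : ℝ) * Real.logb 2 (C * d / ε) ≤ M := by
    refine le_trans ?_ hM
    refine mul_le_mul_of_nonneg_left ?_ hd0.le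
    exact Real.logb_le_logb_of_le (by norm_num) (by positivity) hle
  have hlogε : Real.log 2 ≤ Real.log (1 / ε) := by
    apply Real.log_le_log (by norm_num)
    rw [le_div_iff₀ hε]
    linarith
  have h2 : Real.log (C / ε) ≤ K * Real.log (1 / ε) := by
    have e1 : Real.log (C / ε) = Real.log C + Real.log (1 / ε) := by
      rw [Real.log_div hC.ne' hε.ne', one_div, Real.log_inv]
      ring
    have e2 : Real.log C ≤ Real.log C1 := Real.log_le_log hC hCC1
    have e3 : Real.log C1 ≤ Real.log C1 / Real.log 2 * Real.log (1 / ε) := by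
      rw [div_mul_eq_mul_div, le_div_iff₀ hlog2]
      exact mul_le_mul_of_nonneg_left hlogε (Real.log_nonneg (by linarith))
    rw [e1, hK]
    linarith
  have h3 : C * d * Real.log (C / ε) ≤ T := by
    refine le_trans ?_ hT
    have h4 : 0 ≤ Real.log (1 / ε) := by linarith
    calc C * d * Real.log (C / ε) ≤ C * d * (K * Real.log (1 / ε)) := by gcongr
      _ = C * (K * d * Real.log (1 / ε)) := by ring
      _ ≤ C1 * (K * d * Real.log (1 / ε)) := by
          apply mul_le_mul_of_nonneg_right hCC1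
          positivity
      _ = C1 * K * d * Real.log (1 / ε) := by ring
  obtain ⟨L, hp, hL⟩ := hup d hd ε hε (by linarith) M T h1 h3
  exact of_plain hd L hp T ε hL

theorem exists_of_le {d M n : ℕ} {ε : ℝ} (h : Model.leastHorizon d M ε ≤ n) :
    ∃ T : ℕ, T ≤ n ∧ Model.Solvable d M T ε := by
  by_contra hc
  push Not at hc
  have h1 : ((n + 1 : ℕ) : ℕ∞) ≤ Model.leastHorizon d M ε := by
    refine le_iInf₂ fun T' hT' => ?_
    have h2 : n + 1 ≤ T' := by
      by_contra h'
      exact hc T' (by omega) hT'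
    exact_mod_cast h2
  have h3 : ((n + 1 : ℕ) : ℕ∞) ≤ (n : ℕ∞) := h1.trans h
  have h4 : n + 1 ≤ n := by exact_mod_cast h3
  omega

theorem horizon_le {d M T : ℕ} {ε : ℝ} (h : Model.Solvable d M T ε) :
    Model.leastHorizon d M ε ≤ T := iInf₂_le T h

theorem theta (A κ : ℝ) (hA : 0 < A) (hκ : 0 < κ) : ∃ c : ℝ, 0 < c ∧ ∃ C : ℝ, 0 < C ∧
    ∃ ε₀ : ℝ, 0 < ε₀ ∧ ∃ d₀ : ℕ, ∀ d : ℕ, d₀ ≤ d → ∀ ε : ℝ, 0 < ε → ε ≤ ε₀ →
      ε ≤ (d : ℝ) ^ (-κ) → ∀ M : ℕ,
        ((M : ℝ) ≤ c * d * Real.log (1 / ε) → Model.leastHorizon d M ε = ⊤) ∧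
        ((M : ℝ) ≤ A * d ^ 2 → ∀ T : ℕ, Model.leastHorizon d M ε ≤ T →
          c * d * Real.log (1 / ε) ≤ T) ∧
        (C * d * Real.log (1 / ε) ≤ M →
          Model.leastHorizon d M ε ≤ (⌈C * d * Real.log (1 / ε)⌉₊ : ℕ)) := by
  obtain ⟨c1, hc1, e1, he1, d1, hlow⟩ := lower A hA
  obtain ⟨C2, hC2, hup⟩ := upper
  have hlog2 : 0 < Real.log 2 := Real.log_pos (by norm_num)
  have hlog2' : Real.log 2 ≤ 1 := by
    have := Real.log_two_lt_d9
    linarith
  set C : ℝ := max C2 ((|Real.log C2| + 1 / κ + 1) / Real.log 2) with hC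
  refine ⟨min c1 (1 / 16), lt_min hc1 (by norm_num), C, lt_max_of_lt_left hC2,
    min e1 (Real.exp (-4)), lt_min he1 (Real.exp_pos _), max d1 2, ?_⟩
  intro d hd ε hε hε0 hεκ M
  have hdd1 : d1 ≤ d := (le_max_left _ _).trans hd
  have hd2 : 2 ≤ d := (le_max_right _ _).trans hd
  have hd2' : (2 : ℝ) ≤ d := by exact_mod_cast hd2
  have hd0 : (0 : ℝ) < d := by linarith
  have hεe1 : ε ≤ e1 := hε0.trans (min_le_left _ _)
  have hεe4 : ε ≤ Real.exp (-4) := hε0.trans (min_le_right _ _)
  set l : ℝ := Real.log (1 / ε) with hl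
  have hlneg : l = - Real.log ε := by rw [hl, one_div, Real.log_inv]
  have hl4 : 4 ≤ l := by
    rw [hlneg]
    have := Real.log_le_log hε hεe4
    rw [Real.log_exp] at this
    linarith
  have hl0 : 0 ≤ l := by linarith
  have hε12 : ε ≤ 1 / 2 := by
    have h1 : Real.log ε ≤ Real.log (1 / 2) := by
      have e : Real.log (1 / 2) = - Real.log 2 := by rw [one_div, Real.log_inv]
      rw [e]
      linarith
    exact (Real.log_le_log_iff hε (by norm_num)).1 h1
  have hlκ : Real.log d ≤ (1 / κ) * l := by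
    have h1 := Real.log_le_log hε hεκ
    rw [Real.log_rpow hd0] at h1
    rw [one_div, ← div_eq_inv_mul, le_div_iff₀ hκ, hlneg]
    linarith
  refine ⟨?_, ?_, ?_⟩
  · intro hM
    refine iInf₂_eq_top.2 fun T hT => ?_
    exfalso
    have h1 := memory hd2 hε hT
    have e1 : Real.logb 2 (1 / (2 * ε)) = (l - Real.log 2) / Real.log 2 := by
      rw [Real.logb, one_div, Real.log_inv, Real.log_mul (by norm_num) hε.ne', hlneg]
      ring
    have e2 : l / 2 ≤ Real.logb 2 (1 / (2 * ε)) := by
      rw [e1, le_div_iff₀ hlog2]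
      have : l / 2 * Real.log 2 ≤ l / 2 * 1 := mul_le_mul_of_nonneg_left hlog2' (by linarith)
      linarith
    have e3 : (d : ℝ) / 2 * (l / 2) ≤ ((d : ℝ) - 1) * Real.logb 2 (1 / (2 * ε)) := by
      apply mul_le_mul (by linarith) e2 (by linarith) (by linarith)
    have e4 : min c1 (1 / 16) * d * l ≤ 1 / 16 * d * l := by
      have := min_le_right c1 (1 / 16 : ℝ)
      gcongr
    have e5 : (8 : ℝ) ≤ d * l := by nlinarith
    have e6 : min c1 (1 / 16) * d * l ≤ (d * l) / 16 := by
      refine e4.trans (le_of_eq ?_)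
      ring
    have e7 : (d : ℝ) / 2 * (l / 2) = (d * l) / 4 := by ring
    linarith
  · intro hM T hT
    obtain ⟨T', hT', hS⟩ := exists_of_le hT
    have h1 := hlow d hdd1 ε hε hεe1 M T' hM hS
    have h2 : min c1 (1 / 16) * d * l ≤ c1 * d * l := by
      have := min_le_left c1 (1 / 16 : ℝ)
      gcongr
    have h3 : (T' : ℝ) ≤ T := by exact_mod_cast hT'
    linarith
  · intro hM
    apply horizon_le
    apply hup d hd2 ε hε hε12 M _
    · refine le_trans ?_ hM
      have h1 : Real.log (C2 * d / ε) = Real.log C2 + Real.log d + l := by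
        rw [Real.log_div (by positivity) hε.ne', Real.log_mul hC2.ne' hd0.ne', hlneg]
        ring
      have h2 : Real.log C2 ≤ |Real.log C2| * l := by
        have h3 := le_abs_self (Real.log C2)
        have h4 := abs_nonneg (Real.log C2)
        nlinarith
      have h5 : Real.logb 2 (C2 * d / ε) ≤ C * l := by
        rw [Real.logb, div_le_iff₀ hlog2, h1]
        have h6 : (|Real.log C2| + 1 / κ + 1) / Real.log 2 ≤ C := le_max_right _ _
        rw [div_le_iff₀ hlog2] at h6
        have h7 : (|Real.log C2| + 1 / κ + 1) * l ≤ C * Real.log 2 * l :=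
          mul_le_mul_of_nonneg_right h6 hl0
        have h8 : (|Real.log C2| + 1 / κ + 1) * l = |Real.log C2| * l + 1 / κ * l + l := by ring
        have h9 : C * Real.log 2 * l = C * l * Real.log 2 := by ring
        linarith
      calc (d : ℝ) * Real.logb 2 (C2 * d / ε) ≤ d * (C * l) := by gcongr
        _ = C * d * l := by ring
    · have h1 : C2 * d * l ≤ C * d * l := by
        have := le_max_left C2 ((|Real.log C2| + 1 / κ + 1) / Real.log 2)
        gcongr
      exact h1.trans (Nat.le_ceil _)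

end Vale.Agent.P309.Transport
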